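import Vale.Agent.P061.Defs

/-! Working definitions for P061 (see PLAN.md). -/

open Finset Matrix
open scoped Classical

namespace Vale.Agent.P061

section Graph

variable {V E : Type}

/-- Number of classes of a partition. -/
noncomputable def ncl (P : Setoid V) : ℕ := Nat.card (Quotient P)

/-- Edges of `H` crossing the partition `P`. -/
noncomputable def xs (a b : E → V) (H : Finset E) (P : Setoid V) : Finset E :=
  H.filter fun e => ¬ P (a e) (b e)

/-- Edges of `H` crossing `P` but not `Q`. -/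
noncomputable def xs2 (a b : E → V) (H : Finset E) (P Q : Setoid V) : Finset E :=
  H.filter fun e => ¬ P (a e) (b e) ∧ Q (a e) (b e)

/-- Partition connectivity at least `σ`. -/
def Strong (a b : E → V) (H : Finset E) (σ : ℝ) : Prop :=
  ∀ P : Setoid V, σ * ((ncl P : ℝ) - 1) ≤ (xs a b H P).card

/-- Every class of `Q` has partition connectivity at least `σ`, in aggregated form. -/
def Good (a b : E → V) (H : Finset E) (Q : Setoid V) (σ : ℝ) : Prop :=
  ∀ P : Setoid V, P ≤ Q → σ * ((ncl P : ℝ) - ncl Q) ≤ (xs2 a b H P Q).card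

/-- Number of edges of `H` in the cut of `S`. -/
noncomputable def cut (a b : E → V) (H : Finset E) (S : Finset V) : ℕ :=
  (H.filter fun e => ¬ (a e ∈ S ↔ b e ∈ S)).card

/-- `P` together with the edges of `T` generates at least `Q`. -/
def Gen (a b : E → V) (T : Finset E) (P Q : Setoid V) : Prop :=
  ∀ R : Setoid V, P ≤ R → (∀ e ∈ T, R (a e) (b e)) → Q ≤ R

/-- Nonempty proper subset. -/
def Nt (S : Finset V) : Prop := (∃ u, u ∈ S) ∧ ∃ v, v ∉ S

/-- Indicator vector. -/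
noncomputable def ind (S : Finset V) : V → ℝ := fun v => if v ∈ S then 1 else 0

/-- Quadratic form of a matrix. -/
def qf {n : Type} [Fintype n] (D : Matrix n n ℝ) (x : n → ℝ) : ℝ := x ⬝ᵥ D *ᵥ x

/-- Laplacian form of `H`. -/
def lap (a b : E → V) (H : Finset E) (x : V → ℝ) : ℝ := ∑ e ∈ H, (x (a e) - x (b e)) ^ 2

/-- Grounded weighted Laplacian form. -/
def wlap (a b : E → V) (H : Finset E) (lam : E → ℝ) (v0 : V) (x : V → ℝ) : ℝ :=
  x v0 ^ 2 + ∑ e ∈ H, lam e * (x (a e) - x (b e)) ^ 2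

/-- Ultrametric weights: the level sets of `w` are the crossing sets of good partitions. -/
structure Ultra [Fintype E] (a b : E → V) (w : E → ℝ) (σ : ℝ) (Pi : ℝ → Setoid V) : Prop where
  nonneg : ∀ e, 0 ≤ w e
  mono : ∀ s t, 0 < s → s ≤ t → Pi s ≤ Pi t
  good : ∀ t, 0 < t → Good a b univ (Pi t) σ
  level : ∀ t, 0 < t → ∀ e, ¬ Pi t (a e) (b e) ↔ t ≤ w e

/-- Achievable resistance bounds for a cut dominated shortcut matrix. -/
def KK [Fintype V] [Fintype E] (a b : E → V) : Set (E → ℝ) :=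
  {f | (∀ e, 0 ≤ f e ∧ f e ≤ 1) ∧ ∃ D : Matrix V V ℝ, D.PosSemidef ∧
    (∀ S : Finset V, Nt S → qf D (ind S) ≤ cut a b univ S) ∧
    ∀ e x, 2 * (x (a e) - x (b e)) - qf D x - lap a b univ x ≤ f e}

/-- The cut pseudometric of a measure on vertex sets. -/
noncomputable def cd [Fintype V] (μ : Finset V → ℝ) (u v : V) : ℝ :=
  ∑ S : Finset V, μ S * (ind S u - ind S v) ^ 2

end Graph

section Skel

/-- A finite graph drawn in a normed space, with every node owned by a vertex. -/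
structure Sk (V A : Type) where
  N : Finset ℕ
  pos : ℕ → A
  own : ℕ → V
  adj : ℕ → ℕ → Prop

variable {V A : Type} [NormedAddCommGroup A]

/-- Local conditions on a skeleton. -/
structure Sk.Ok0 (S : Sk V A) (ε : ℝ) (P : Setoid V) : Prop where
  mem : ∀ p q, S.adj p q → p ∈ S.N ∧ q ∈ S.N
  symm : ∀ p q, S.adj p q → S.adj q p
  short : ∀ p q, S.adj p q → ‖S.pos p - S.pos q‖ ≤ ε
  lab : ∀ p q, S.adj p q → P (S.own p) (S.own q)

/-- A skeleton whose components are the classes of `P`. -/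
structure Sk.Ok (S : Sk V A) (ε : ℝ) (P : Setoid V) : Prop extends S.Ok0 ε P where
  conn : ∀ p ∈ S.N, ∀ q ∈ S.N, P (S.own p) (S.own q) → Relation.ReflTransGen S.adj p q

/-- Every vertex has a node of its class within distance `δ`. -/
def Sk.Dense (S : Sk V A) (X : V → A) (P : Setoid V) (δ : ℝ) : Prop :=
  ∀ v, ∃ p ∈ S.N, P (S.own p) v ∧ ‖S.pos p - X v‖ ≤ δ

/-- Reachability inside the closed ball of radius `R` around `y`. -/
def Sk.Rin (S : Sk V A) (y : A) (R : ℝ) (p q : ℕ) : Prop :=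
  Relation.ReflTransGen (fun u v => S.adj u v ∧ ‖S.pos u - y‖ ≤ R ∧ ‖S.pos v - y‖ ≤ R) p q

/-- A rooted spanning forest with one root per class. -/
structure Sk.Forest (S : Sk V A) (P : Setoid V) (par dep : ℕ → ℕ) : Prop where
  root : ∀ p ∈ S.N, dep p = 0 → par p = p
  up : ∀ p ∈ S.N, dep p ≠ 0 → S.adj p (par p) ∧ dep (par p) + 1 = dep p
  uniq : ∀ p ∈ S.N, ∀ q ∈ S.N, dep p = 0 → dep q = 0 → P (S.own p) (S.own q) → p = q

/-- `p` has a descendant exactly `k` generations below. -/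
def Sk.Tall (S : Sk V A) (par dep : ℕ → ℕ) (p k : ℕ) : Prop :=
  ∃ u ∈ S.N, dep u = dep p + k ∧ par^[k] u = p

/-- `p` has two different children of height at least `k`. -/
def Sk.Fork (S : Sk V A) (par dep : ℕ → ℕ) (p k : ℕ) : Prop :=
  ∃ c ∈ S.N, ∃ c' ∈ S.N, c ≠ c' ∧ dep c ≠ 0 ∧ dep c' ≠ 0 ∧ par c = p ∧ par c' = p ∧
    S.Tall par dep c k ∧ S.Tall par dep c' k

/-- A contact: two nodes of one class near `y` that are not joined near `y`. -/
structure Sk.Contact (S : Sk V A) (P : Setoid V) (ρ : ℝ) (y : A) (p q : ℕ) : Prop where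
  hp : p ∈ S.N
  hq : q ∈ S.N
  rel : P (S.own p) (S.own q)
  np : ‖S.pos p - y‖ ≤ ρ / 8
  nq : ‖S.pos q - y‖ ≤ ρ / 8
  far : ¬ S.Rin y (4 * ρ) p q

/-- A cover of the nodes by labelled sets of diameter at most `t i ≤ ρ`, of cost at most `c`. -/
def Sk.Cov (S : Sk V A) (ε ρ c : ℝ) : Prop :=
  ∃ (cl : ℕ → ℕ) (t : ℕ → ℝ), (∀ i, 0 ≤ t i ∧ t i ≤ ρ) ∧
    (∀ p ∈ S.N, ∀ q ∈ S.N, cl p = cl q → ‖S.pos p - S.pos q‖ ≤ t (cl p)) ∧
    ∑ i ∈ S.N.image cl, (t i + ε) ≤ c

/-- Net points with at least `K` net points within distance `R`. -/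
noncomputable def rich (X : V → A) (Y : Finset V) (R K : ℝ) : Finset V :=
  Y.filter fun y => K ≤ ((Y.filter fun z => ‖X z - X y‖ ≤ R).card : ℝ)

/-- Pairwise distances exceed `r`. -/
def Sepd {ι : Type} (x : ι → A) (Y : Finset ι) (r : ℝ) : Prop :=
  ∀ i ∈ Y, ∀ j ∈ Y, i ≠ j → r < ‖x i - x j‖

/-- Contact edges of one level: short, far from each other and from the tree edges. -/
structure Loc {E : Type} [Fintype E] (a b : E → V) (X : V → A) (P Q : Setoid V) (T I : Finset E)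
    (ρ : ℝ) : Prop where
  sub : I ⊆ xs2 a b univ P Q
  short : ∀ e ∈ I, ‖X (a e) - X (b e)‖ ≤ ρ / 16
  sep : Sepd (fun e => X (a e)) I (8 * ρ)
  away : ∀ e ∈ I, ∀ f ∈ T, 5 * ρ < ‖X (a e) - X (a f)‖ ∧ 5 * ρ < ‖X (a e) - X (b f)‖

end Skel

end Vale.Agent.P061
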