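import Vale.Agent.P061.Stm

/-! From the working form `IterStmt` to the statement with `ends : E → Sym2 V`. -/

open Finset Matrix
open scoped Classical

namespace Vale.Agent.P061

namespace BridgeAux

variable {V E : Type}

/-- First endpoint. -/
noncomputable def ea (ends : E → Sym2 V) (e : E) : V := (ends e).out.1

/-- Second endpoint. -/
noncomputable def eb (ends : E → Sym2 V) (e : E) : V := (ends e).out.2

lemma ends_eq (ends : E → Sym2 V) (e : E) : ends e = s(ea ends e, eb ends e) := by
  unfold ea eb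
  exact (Quot.out_eq (ends e)).symm

lemma cut_eq (ends : E → Sym2 V) (H : Finset E) (S : Finset V) :
    cutCount ends (H : Set E) (S : Set V) = cut (ea ends) (eb ends) H S := by
  unfold cutCount cut
  rw [← Set.ncard_coe_finset]
  congr 1
  ext e
  simp only [Set.mem_ofPred_eq, Finset.mem_coe, Finset.coe_filter]
  refine and_congr_right fun _ => ?_
  rw [ends_eq ends e]
  constructor
  · rintro ⟨u, v, h, hu, hv⟩
    rcases Sym2.eq_iff.1 h with ⟨h1, h2⟩ | ⟨h1, h2⟩
    · rw [h1, h2]; tauto
    · rw [h1, h2]; tauto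
  · intro h
    by_cases ha : ea ends e ∈ S
    · exact ⟨_, _, rfl, ha, by tauto⟩
    · exact ⟨_, _, Sym2.eq_swap, by tauto, ha⟩

lemma cut_univ [Fintype E] (ends : E → Sym2 V) (S : Finset V) :
    cutCount ends Set.univ (S : Set V) = cut (ea ends) (eb ends) univ S := by
  rw [← cut_eq, Finset.coe_univ]

lemma nt_iff (S : Finset V) : Nt S ↔ (S : Set V).Nonempty ∧ (S : Set V) ≠ Set.univ := by
  unfold Nt
  rw [Set.ne_univ_iff_exists_notMem]
  rfl

lemma tree [Fintype V] [Nonempty V] (ends : E → Sym2 V) (T : Finset E)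
    (hc : T.card + 1 ≤ Fintype.card V) (hg : Gen (ea ends) (eb ends) T ⊥ ⊤) :
    IsSpanningTree ends (T : Set E) := by
  set G := SimpleGraph.fromEdgeSet (ends '' (T : Set E)) with hG
  have hconn : G.Connected := by
    refine ⟨fun u v => ?_⟩
    have := hg G.reachableSetoid bot_le (fun e he => by
      show G.Reachable _ _
      by_cases h : ea ends e = eb ends e
      · rw [h]
      · refine SimpleGraph.Adj.reachable ?_
        rw [hG, SimpleGraph.fromEdgeSet_adj]
        exact ⟨⟨e, he, ends_eq ends e⟩, h⟩)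
    exact this (show (⊤ : Setoid V) u v from trivial)
  have h1 := hconn.card_vert_le_card_edgeSet_add_one
  have h2 : Nat.card G.edgeSet ≤ T.card := by
    have hs : G.edgeSet ⊆ ends '' (T : Set E) := by
      rw [hG, SimpleGraph.edgeSet_fromEdgeSet]
      exact Set.sdiff_subset
    calc Nat.card G.edgeSet = G.edgeSet.ncard := rfl
      _ ≤ (ends '' (T : Set E)).ncard := Set.ncard_le_ncard hs (T.finite_toSet.image _)
      _ ≤ (T : Set E).ncard := Set.ncard_image_le T.finite_toSet
      _ = T.card := Set.ncard_coe_finset T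
  have h3 : Nat.card V = Fintype.card V := Nat.card_eq_fintype_card
  refine ⟨?_, ?_⟩
  · rw [Set.ncard_coe_finset]; omega
  · show G.IsTree
    rw [SimpleGraph.isTree_iff_connected_and_card]
    exact ⟨hconn, by omega⟩

end BridgeAux

open BridgeAux in
theorem ofIter (h : IterStmt) :
    ∃ C : ℝ, ∀ k : ℕ, 1 ≤ k → ∀ (V E : Type) [Finite V] [Finite E] (ends : E → Sym2 V),
      (∀ e, ¬ (ends e).IsDiag) → 2 ≤ Nat.card V → EdgeConnected ends k →
      ∃ T : Set E, IsSpanningTree ends T ∧ IsThin ends T (C / k) := by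
  obtain ⟨C, hC⟩ := h
  refine ⟨C, fun k hk V E _ _ ends _ hV hE => ?_⟩
  let _ := Fintype.ofFinite V
  let _ := Fintype.ofFinite E
  have : Nonempty V := by
    by_contra hn
    rw [not_nonempty_iff] at hn
    simp at hV
  have hcut : ∀ S : Finset V, Nt S → (k : ℝ) ≤ cut (ea ends) (eb ends) univ S := by
    intro S hS
    have h1 := hE (S : Set V) ((nt_iff _).1 hS).1 ((nt_iff _).1 hS).2
    rw [cut_univ] at h1
    exact_mod_cast h1
  obtain ⟨T, h1, h2, h3⟩ := hC V E (ea ends) (eb ends) k (by exact_mod_cast hk) hcut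
  refine ⟨T, tree ends T h1 h2, fun S hS1 hS2 => ?_⟩
  lift S to Finset V using S.toFinite
  rw [cut_univ, cut_eq]
  exact h3 S ((nt_iff S).2 ⟨hS1, hS2⟩)

end Vale.Agent.P061
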