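import Mathlib

/-! Definitions for the statement of the strong thin tree theorem (P061). -/

namespace Vale.Agent.P061

/-- Number of edge copies in `F` with exactly one endpoint in `S`. -/
noncomputable def cutCount {V E : Type} (ends : E → Sym2 V) (F : Set E) (S : Set V) : ℕ :=
  {e | e ∈ F ∧ ∃ u v, ends e = s(u, v) ∧ u ∈ S ∧ v ∉ S}.ncard

/-- Every nonempty proper vertex set is left by at least `k` edge copies. -/
def EdgeConnected {V E : Type} (ends : E → Sym2 V) (k : ℕ) : Prop :=
  ∀ S : Set V, S.Nonempty → S ≠ Set.univ → k ≤ cutCount ends Set.univ S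

/-- `T` is a set of `n - 1` edge copies forming a tree on all of `V`. -/
def IsSpanningTree {V E : Type} (ends : E → Sym2 V) (T : Set E) : Prop :=
  T.ncard + 1 = Nat.card V ∧ (SimpleGraph.fromEdgeSet (ends '' T)).IsTree

/-- `T` meets every cut in at most an `α` fraction of its edge copies. -/
def IsThin {V E : Type} (ends : E → Sym2 V) (T : Set E) (α : ℝ) : Prop :=
  ∀ S : Set V, S.Nonempty → S ≠ Set.univ →
    (cutCount ends T S : ℝ) ≤ α * (cutCount ends Set.univ S : ℝ)

end Vale.Agent.P061
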