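import Vale.Agent.P061.KSDet

/-! # Two sided discrepancy of rank one matrices (Marcus, Spielman, Srivastava; Weaver) -/

namespace Vale.Agent.P061.KS

open Function Matrix Polynomial

/-- Opposite shifts of two coordinates. -/
def sh {J R : Type} [DecidableEq J] [CommRing R] (a b : J) (y : J → R) (p : R) : J → R :=
  update (update y a (y a + p)) b (y b - p)

theorem Aff.avg {J R : Type} [DecidableEq J] [CommRing R] {K : (J → R) → R} (hK : Aff K)
    {a b : J} (h : a ≠ b) (y : J → R) {s t : R} (hst : s + t = 1) :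
    KS.TT (4 * s * t) a b K (sh a b y (s - t)) =
      s * K (sh a b y 1) + t * K (sh a b y (-1)) := by
  have e : KS.dl a (KS.dl b K) (sh a b y (s - t)) = KS.dl a (KS.dl b K) y := by
    rw [sh, dl_comm, dl_update_self, dl_comm, dl_update_self]
  obtain rfl : t = 1 - s := by rw [← hst]; ring
  rw [KS.TT, e]
  simp only [sh, hK.bi h]
  ring

theorem sh_zero {J R : Type} [DecidableEq J] [CommRing R] (a b : J) (y : J → R) :
    sh a b y 0 = y := by simp [sh]

theorem comp_sh {J R S : Type} [DecidableEq J] [CommRing R] [CommRing S] (φ : R →+* S) (a b : J)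
    (y : J → R) (p : R) : φ ∘ sh a b y p = sh a b (φ ∘ y) (φ p) := by
  simp [sh, comp_update]

variable {I : Type} [DecidableEq I]

theorem PP_cons {F : (I ⊕ I → ℝ[X]) → ℝ[X]} (hF : Aff F) (i : I) (L : List I) (y : I ⊕ I → ℝ) :
    PP (i :: L) F (C ∘ y) = C (1 / 2) * PP L F (C ∘ sh (Sum.inl i) (Sum.inr i) y 1) +
      C (1 / 2) * PP L F (C ∘ sh (Sum.inl i) (Sum.inr i) y (-1)) := by
  have h := (hF.PP L).avg (a := Sum.inl i) (b := Sum.inr i) Sum.inl_ne_inr (C ∘ y)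
    (s := C (1 / 2)) (t := C (1 / 2)) (by rw [← C_add]; norm_num)
  have e : (4 : ℝ[X]) * C (1 / 2) * C (1 / 2) = 1 := by
    rw [← map_ofNat C 4, ← C_mul, ← C_mul]
    norm_num
  rw [sub_self, sh_zero, e] at h
  rw [comp_sh, comp_sh, map_neg, map_one, ← h, PP]

theorem mn_PP {N : ℕ} {F : (I ⊕ I → ℝ[X]) → ℝ[X]} (hF : Aff F) (hm : ∀ y, Mn N (F (C ∘ y)))
    (L : List I) : ∀ y, Mn N (PP L F (C ∘ y)) := by
  induction L with
  | nil => exact hm
  | cons i L ih =>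
    intro y
    rw [PP_cons hF]
    exact (ih _).comb (ih _) (by norm_num)

theorem sh_elim (m : I → ℝ) (i : I) (p : ℝ) : sh (Sum.inl i) (Sum.inr i) (Sum.elim m (-m)) p =
    Sum.elim (update m i (m i + p)) (-update m i (m i + p)) := by
  funext j
  rcases j with j | j <;> by_cases h : j = i
  · rw [h, sh, update_of_ne Sum.inl_ne_inr, update_self, Sum.elim_inl, Sum.elim_inl, update_self]
  · rw [sh, update_of_ne Sum.inl_ne_inr, update_of_ne (Sum.inl_injective.ne h), Sum.elim_inl,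
      Sum.elim_inl, update_of_ne h]
  · rw [h, sh, update_self, Sum.elim_inr, Sum.elim_inr, Pi.neg_apply, Pi.neg_apply, update_self]
    ring
  · rw [sh, update_of_ne (Sum.inr_injective.ne h), update_of_ne Sum.inr_ne_inl, Sum.elim_inr,
      Sum.elim_inr, Pi.neg_apply, Pi.neg_apply, update_of_ne h]

theorem descend {N : ℕ} {F : (I ⊕ I → ℝ[X]) → ℝ[X]} (hF : Aff F) (hm : ∀ y, Mn N (F (C ∘ y)))
    {G : ℂ → (I ⊕ I → ℂ) → ℂ} (hA : ∀ z, Aff (G z)) (hN : ∀ z : ℂ, 0 < z.im → NV (G z))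
    (hc : ∀ z : ℂ, Cp (aeval z : ℝ[X] →ₐ[ℝ] ℂ).toRingHom F (G z)) (L : List I) (hL : L.Nodup) :
    ∀ m : I → ℝ, (∀ i ∈ L, m i = 0) → (∀ i, i ∉ L → m i = 1 ∨ m i = -1) →
      (∀ x, 0 ≤ x → 0 < eval x (PP L F (C ∘ Sum.elim m (-m)))) →
      ∃ m : I → ℝ, (∀ i, m i = 1 ∨ m i = -1) ∧
        ∀ x, 0 ≤ x → 0 < eval x (F (C ∘ Sum.elim m (-m))) := by
  induction L with
  | nil => exact fun m _ h1 h2 => ⟨m, fun i => h1 i List.not_mem_nil, h2⟩
  | cons i L ih =>
    intro m h0 h1 h2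
    rw [List.nodup_cons] at hL
    have next : ∀ p : ℝ, p = 1 ∨ p = -1 → (∀ x, 0 ≤ x →
        0 < eval x (PP L F (C ∘ sh (Sum.inl i) (Sum.inr i) (Sum.elim m (-m)) p))) →
        ∃ m : I → ℝ, (∀ i, m i = 1 ∨ m i = -1) ∧
          ∀ x, 0 ≤ x → 0 < eval x (F (C ∘ Sum.elim m (-m))) := fun p hp h => by
      rw [sh_elim] at h
      refine ih hL.2 _ (fun k hk => ?_) (fun k hk => ?_) h
      · rw [update_of_ne (ne_of_mem_of_not_mem hk hL.1)]
        exact h0 k (List.mem_cons_of_mem _ hk)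
      · by_cases hki : k = i
        · rw [hki, update_self, h0 i List.mem_cons_self, zero_add]
          exact hp
        · rw [update_of_ne hki]
          exact h1 k (by simp [hki, hk])
    refine (choose_child (mn_PP hF hm L _) (mn_PP hF hm L _) (fun s t hs ht hst z hz => ?_)
      fun x hx => ?_).elim (next 1 (Or.inl rfl)) (next (-1) (Or.inr rfl))
    · have e := (hF.PP L).avg (a := Sum.inl i) (b := Sum.inr i) Sum.inl_ne_inr
        (C ∘ Sum.elim m (-m)) (s := C s) (t := C t) (by rw [← C_add, hst, C_1])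
      rw [comp_sh, comp_sh, map_neg, map_one, ← e, ← C_sub, ← comp_sh]
      have e2 := ((hc z).PP L).TT (4 * C s * C t) (Sum.inl i) (Sum.inr i)
        (C ∘ sh (Sum.inl i) (Sum.inr i) (Sum.elim m (-m)) (s - t))
      have e3 : (aeval z : ℝ[X] →ₐ[ℝ] ℂ).toRingHom (4 * C s * C t) = ((4 * s * t : ℝ) : ℂ) := by
        simp [map_ofNat]
      rw [e3] at e2
      refine e2.trans_ne (((hN z hz).PP (hA z) L).TT ((hA z).PP L) Sum.inl_ne_inr
        (by positivity) _ fun j => ?_)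
      simp
    · have := h2 x hx
      rw [PP_cons hF] at this
      simp only [eval_add, eval_mul, eval_C] at this
      linarith

theorem main {n : Type} [Fintype n] [Fintype I] {w : I → n → ℝ} {σ : ℝ} (hσ : 0 < σ)
    (hσ' : σ ≤ 1 / 5) (h1 : ∀ v : n → ℝ, ∑ i, (w i ⬝ᵥ v) ^ 2 ≤ v ⬝ᵥ v)
    (h2 : ∀ i, w i ⬝ᵥ w i ≤ σ ^ 2) : ∃ m : I → ℝ, (∀ i, m i = 1 ∨ m i = -1) ∧
      ∀ v : n → ℝ, |∑ i, m i * (w i ⬝ᵥ v) ^ 2| ≤ 5 * σ * (v ⬝ᵥ v) := by
  classical
  have ev : ∀ x : ℝ, Cp (evalRingHom x) (KK (X + C (5 * σ)) fun i => C ∘ w i)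
      (KK (x + 5 * σ) w) := fun x => by
    have := cp_KK (evalRingHom x) (X + C (5 * σ)) fun i => C ∘ w i
    simpa [comp_def] using this
  have evy : ∀ (x : ℝ) (y : I ⊕ I → ℝ), evalRingHom x ∘ C ∘ y = y := fun x y => by
    funext j
    simp
  obtain ⟨m, hm, hp⟩ := descend (F := KK (X + C (5 * σ)) fun i => C ∘ w i) (aff_KK _ _)
    (mn_KK _ w) (G := fun z => KK (z + (5 * σ : ℝ)) fun i => Complex.ofRealHom ∘ w i)
    (fun z => aff_KK _ _) (fun z hz => nv_KK w (by simpa using hz)) (fun z => by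
      have := cp_KK (aeval z : ℝ[X] →ₐ[ℝ] ℂ).toRingHom (X + C (5 * σ)) fun i => C ∘ w i
      simpa [comp_def] using this) Finset.univ.toList (Finset.nodup_toList _) 0
    (fun _ _ => rfl) (fun i hi => absurd (by simp) hi) fun x hx => by
      have e := (ev x).PP Finset.univ.toList (C ∘ Sum.elim 0 (-0))
      rw [evy] at e
      refine lt_of_lt_of_eq ?_ e.symm
      refine ((inv_KK hσ (by linarith) h1 h2).PP (by positivity) (by linarith) (aff_KK _ _)
        (fun L => ?_) _ (Finset.nodup_toList _) _ (fun j _ => ?_) fun j => ?_).1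
      · exact ray_of_lim (G := fun z => PP L (KK z fun i => Complex.ofRealHom ∘ w i))
          (cont_PP (cont_KK _) L) (fun z => (aff_KK _ _).PP L)
          (fun z hz => (nv_KK w hz).PP (aff_KK _ _) L) ((cp_KK _ _ _).PP L)
      · rcases j with j | j <;> simp
      · rcases j with j | j <;> simp <;> positivity
  refine ⟨m, hm, fun v => ?_⟩
  have hq : ∀ t, 0 ≤ t → (DM (t + 5 * σ) w m).det * (DM (t + 5 * σ) w (-m)).det ≠ 0 :=
    fun t ht => by
      have e := ev t (C ∘ Sum.elim m (-m))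
      rw [evy] at e
      exact (lt_of_lt_of_eq (hp t ht) e).ne'
  have f1 := form_of_det (fun t ht => left_ne_zero_of_mul (hq t ht)) v
  have f2 := form_of_det (fun t ht => right_ne_zero_of_mul (hq t ht)) v
  simp only [Pi.neg_apply, neg_mul, Finset.sum_neg_distrib] at f2
  rw [abs_le]
  constructor <;> linarith

end Vale.Agent.P061.KS

namespace Vale.Agent.P061

theorem ks : ∀ (n I : Type) [Fintype n] [Fintype I] [DecidableEq I] (w : I → n → ℝ) (d : ℝ),
    0 ≤ d → d ≤ 1 → (∀ x : n → ℝ, ∑ i, (w i ⬝ᵥ x) ^ 2 ≤ x ⬝ᵥ x) → (∀ i, w i ⬝ᵥ w i ≤ d) →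
    ∃ s : Finset I, ∀ x : n → ℝ,
      |∑ i ∈ s, (w i ⬝ᵥ x) ^ 2 - ∑ i ∈ sᶜ, (w i ⬝ᵥ x) ^ 2| ≤ 5 * √d * (x ⬝ᵥ x) := by
  intro n I _ _ _ w d hd _ h1 h2
  have nn : ∀ v : n → ℝ, 0 ≤ v ⬝ᵥ v := fun v => Finset.sum_nonneg fun _ _ => mul_self_nonneg _
  by_cases hσ' : 1 / 5 ≤ √d
  · refine ⟨Finset.univ, fun x => ?_⟩
    rw [Finset.compl_univ, Finset.sum_empty, sub_zero,
      abs_of_nonneg (Finset.sum_nonneg fun _ _ => sq_nonneg _)]
    linarith [h1 x, mul_le_mul_of_nonneg_right hσ' (nn x)]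
  rcases hd.eq_or_lt with rfl | hd'
  · refine ⟨∅, fun x => ?_⟩
    have : ∀ i, w i = 0 := fun i => dotProduct_self_eq_zero.1 (le_antisymm (h2 i) (nn _))
    simp [this]
  obtain ⟨m, hm, h⟩ := KS.main (Real.sqrt_pos.2 hd') (not_le.1 hσ').le h1
    (by rwa [Real.sq_sqrt hd])
  refine ⟨Finset.univ.filter fun i => m i = 1, fun x => le_of_eq_of_le ?_ (h x)⟩
  rw [← Finset.sum_add_sum_compl (Finset.univ.filter fun i => m i = 1) fun i => m i * _,
    sub_eq_add_neg, ← Finset.sum_neg_distrib]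
  congr 2
  · exact Finset.sum_congr rfl fun i hi => by rw [(Finset.mem_filter.1 hi).2, one_mul]
  · refine Finset.sum_congr rfl fun i hi => ?_
    rw [(hm i).resolve_left (by simpa using hi), neg_one_mul]

end Vale.Agent.P061
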