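import Mathlib

/-! # Multi-affine functions, the operators `1 - c ∂_a ∂_b`, half plane non-vanishing -/

namespace Vale.Agent.P061.KS

open Function

section gen
variable {J R S : Type} [DecidableEq J] [CommRing R] [CommRing S]

/-- Slope in the coordinate `j`. -/
def dl (j : J) (K : (J → R) → R) (y : J → R) : R := K (update y j 1) - K (update y j 0)

/-- Affine in every coordinate. -/
def Aff (K : (J → R) → R) : Prop :=
  ∀ j y t, K (update y j t) = K (update y j 0) + t * dl j K y

/-- The operator `1 - c ∂_a ∂_b`. -/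
def TT (c : R) (a b : J) (K : (J → R) → R) (y : J → R) : R := K y - c * dl a (dl b K) y

variable {K : (J → R) → R}

theorem dl_update_self (j : J) (K : (J → R) → R) (y : J → R) (t : R) :
    dl j K (update y j t) = dl j K y := by simp [dl]

theorem dl_comm (j k : J) (K : (J → R) → R) : dl j (dl k K) = dl k (dl j K) := by
  by_cases h : j = k
  · rw [h]
  · funext y
    simp only [dl, update_comm h]
    ring

theorem Aff.dl (hK : Aff K) (k : J) : Aff (dl k K) := by
  intro j y t
  by_cases h : j = k
  · subst h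
    simp [KS.dl]
  · have h1 := hK j (update y k 1) t
    have h0 := hK j (update y k 0) t
    simp only [KS.dl, update_comm h] at h1 h0 ⊢
    rw [h1, h0]
    ring

theorem Aff.step (hK : Aff K) (j : J) (y : J → R) (t : R) :
    K (update y j t) = K y + (t - y j) * KS.dl j K y := by
  have h := hK j y (y j)
  rw [update_eq_self] at h
  rw [hK j y t, h]
  ring

theorem Aff.bi (hK : Aff K) {a b : J} (h : a ≠ b) (y : J → R) (u v : R) :
    K (update (update y a u) b v) = K y + (u - y a) * KS.dl a K y + (v - y b) * KS.dl b K y +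
      (u - y a) * (v - y b) * KS.dl a (KS.dl b K) y := by
  rw [hK.step, hK.step, (hK.dl b).step, update_of_ne h.symm]
  ring

theorem dl_TT (s : J) (c : R) (a b : J) (K : (J → R) → R) :
    dl s (TT c a b K) = TT c a b (dl s K) := by
  funext y
  have : dl a (dl b (dl s K)) y = dl s (dl a (dl b K)) y := by
    rw [dl_comm b s, dl_comm a s]
  rw [TT, this]
  simp only [dl, TT]
  ring

theorem Aff.TT (hK : Aff K) (c : R) (a b : J) : Aff (TT c a b K) := by
  intro j y t
  have h1 := hK j y t
  have h2 := ((hK.dl b).dl a) j y t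
  have h3 : KS.dl j (KS.TT c a b K) y = KS.dl j K y - c * KS.dl j (KS.dl a (KS.dl b K)) y := by
    simp only [KS.dl, KS.TT]
    ring
  rw [h3]
  unfold KS.TT
  rw [h1, h2]
  ring

/-- Compatibility with a ring homomorphism. -/
def Cp (φ : R →+* S) (K : (J → R) → R) (K' : (J → S) → S) : Prop := ∀ y, φ (K y) = K' (φ ∘ y)

theorem Cp.dl {φ : R →+* S} {K' : (J → S) → S} (h : Cp φ K K') (j : J) :
    Cp φ (dl j K) (dl j K') := fun y => by
  simp only [KS.dl, map_sub, h _, comp_update, map_one, map_zero]

theorem Cp.TT {φ : R →+* S} {K' : (J → S) → S} (h : Cp φ K K') (c : R) (a b : J) :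
    Cp φ (TT c a b K) (TT (φ c) a b K') := fun y => by
  simp only [KS.TT, map_sub, map_mul, h _, ((h.dl b).dl a) _]

end gen

section lst
variable {I R S : Type} [DecidableEq I] [CommRing R] [CommRing S]

/-- The product of the operators along a list. -/
def PP : List I → ((I ⊕ I → R) → R) → (I ⊕ I → R) → R
  | [], K => K
  | i :: L, K => TT 1 (Sum.inl i) (Sum.inr i) (PP L K)

theorem Aff.PP {K : (I ⊕ I → R) → R} (hK : Aff K) (L : List I) : Aff (PP L K) := by
  induction L with
  | nil => exact hK
  | cons i L ih => exact ih.TT _ _ _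

theorem Cp.PP {φ : R →+* S} {K : (I ⊕ I → R) → R} {K' : (I ⊕ I → S) → S} (h : Cp φ K K')
    (L : List I) : Cp φ (PP L K) (PP L K') := by
  induction L with
  | nil => exact h
  | cons i L ih =>
    have := ih.TT 1 (Sum.inl i) (Sum.inr i)
    rwa [map_one] at this

theorem cont_PP {G : ℂ → (I ⊕ I → ℂ) → ℂ} (h : ∀ y, Continuous fun z => G z y) (L : List I) :
    ∀ y, Continuous fun z => PP L (G z) y := by
  induction L with
  | nil => exact h
  | cons i L ih =>
    intro y
    simp only [PP, TT, dl]
    exact (ih _).sub (continuous_const.mul (((ih _).sub (ih _)).sub ((ih _).sub (ih _))))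

end lst

section cx
variable {J : Type} [DecidableEq J]

/-- No zero in the product of closed upper half planes. -/
def NV (K : (J → ℂ) → ℂ) : Prop := ∀ y, (∀ j, 0 ≤ (y j).im) → K y ≠ 0

theorem im_update {y : J → ℂ} (hy : ∀ j, 0 ≤ (y j).im) (a : J) {t : ℂ} (ht : 0 ≤ t.im) (j : J) :
    0 ≤ (update y a t j).im := by
  by_cases h : j = a
  · rw [h, update_self]
    exact ht
  · rw [update_of_ne h]
    exact hy j

theorem no_prod {r s : ℂ} {c : ℝ} (hc : 0 ≤ c) (hr : r.im < 0) (hs : s.im < 0)
    (h : r * s = c) : False := by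
  have h1 := congrArg Complex.re h
  have h2 := congrArg Complex.im h
  simp only [Complex.mul_re, Complex.mul_im, Complex.ofReal_re, Complex.ofReal_im] at h1 h2
  have h3 : 0 < r.im * s.im := mul_pos_of_neg_of_neg hr hs
  have h4 : 0 < r.re * s.re := by linarith
  have h5 : r.re * s.im = -(r.im * s.re) := by linarith
  have h6 : (r.re * s.re) * (r.im * s.im) = -(r.im * s.re) ^ 2 := by
    linear_combination (r.im * s.re) * h5
  nlinarith [mul_pos h4 h3, sq_nonneg (r.im * s.re)]

variable {K : (J → ℂ) → ℂ}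

theorem NV.TT (hN : NV K) (hK : Aff K) {a b : J} (h : a ≠ b) {c : ℝ} (hc : 0 ≤ c) :
    NV (TT (c : ℂ) a b K) := by
  intro y hy h0
  unfold KS.TT at h0
  by_cases h3 : dl a (dl b K) y = 0
  · rw [h3, mul_zero, sub_zero] at h0
    exact hN y hy h0
  set β := (dl a K y + dl b K y) / dl a (dl b K) y with hβ
  obtain ⟨s, hs⟩ := IsAlgClosed.exists_pow_nat_eq (β ^ 2 - 4 * c) two_pos
  have key : ∀ r : ℂ, r ^ 2 + β * r + c = 0 → r.im < 0 := fun r hr => by
    by_contra hi
    have hi' : 0 ≤ r.im := not_lt.1 hi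
    refine hN _ (im_update (im_update hy a (t := y a + r) ?_) b (t := y b + r) ?_) ?_
    · rw [Complex.add_im]
      exact add_nonneg (hy a) hi'
    · rw [Complex.add_im]
      exact add_nonneg (hy b) hi'
    · rw [hK.bi h]
      have e : dl a K y + dl b K y = β * dl a (dl b K) y := by
        rw [hβ, div_mul_cancel₀ _ h3]
      linear_combination h0 + r * e + dl a (dl b K) y * hr
  refine no_prod hc (key ((-β + s) / 2) ?_) (key ((-β - s) / 2) ?_) ?_
  · linear_combination hs / 4
  · linear_combination hs / 4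
  · linear_combination -hs / 4

theorem NV.st (hN : NV K) (hK : Aff K) (y : J → ℂ) (hy : ∀ j, 0 ≤ (y j).im) (j : J) :
    0 ≤ (K y * (starRingEnd ℂ) (dl j K y)).im := by
  by_cases h : dl j K y = 0
  · simp [h]
  have h1 : (y j - K y / dl j K y).im < 0 := by
    by_contra hi
    refine hN _ (im_update hy j (not_lt.1 hi)) ?_
    rw [hK.step]
    field_simp
    ring
  have h2 : K y * (starRingEnd ℂ) (dl j K y) =
      (K y / dl j K y) * (Complex.normSq (dl j K y) : ℂ) := by
    rw [← Complex.mul_conj]
    field_simp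
  rw [h2, Complex.im_mul_ofReal]
  rw [Complex.sub_im] at h1
  exact mul_nonneg (by linarith [hy j]) (Complex.normSq_nonneg _)

/-- The Rayleigh inequalities. -/
def Ray (g : (J → ℝ) → ℝ) : Prop :=
  ∀ j k, j ≠ k → ∀ y, g y * dl j (dl k g) y ≤ dl j g y * dl k g y

theorem ray_of_lim {G : ℂ → (J → ℂ) → ℂ} {g : (J → ℝ) → ℝ} {x : ℝ}
    (hc : ∀ y, Continuous fun z => G z y) (hA : ∀ z, Aff (G z))
    (hN : ∀ z : ℂ, 0 < z.im → NV (G z)) (hg : Cp Complex.ofRealHom g (G x)) : Ray g := by
  intro j k _ y
  set Y : J → ℂ := update (Complex.ofRealHom ∘ y) j (y j + Complex.I) with hY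
  have hYi : ∀ l, 0 ≤ (Y l).im := im_update (fun l => by simp) j (by simp)
  have h1 : Continuous fun t : ℝ =>
      (G (x + t * Complex.I) Y * (starRingEnd ℂ) (dl k (G (x + t * Complex.I)) Y)).im := by
    have hz : Continuous fun t : ℝ => (x : ℂ) + t * Complex.I := by fun_prop
    refine Complex.continuous_im.comp (((hc _).comp hz).mul (Complex.continuous_conj.comp ?_))
    exact ((hc _).comp hz).sub ((hc _).comp hz)
  have h2 : 0 ≤ (G x Y * (starRingEnd ℂ) (dl k (G x) Y)).im := by
    have h3 := (h1.tendsto 0).mono_left (nhdsWithin_le_nhds (s := Set.Ioi 0))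
    simp only [Complex.ofReal_zero, zero_mul, add_zero] at h3
    refine ge_of_tendsto h3 (eventually_nhdsWithin_of_forall fun t ht => ?_)
    exact (hN _ (by simpa using ht)).st (hA _) Y hYi k
  rw [hY, (hA _).step, ((hA _).dl k).step, ← hg, ← hg.dl j, ← hg.dl k, ← (hg.dl k).dl j] at h2
  simp at h2
  linarith

end cx

theorem NV.PP {I : Type} [DecidableEq I] {K : (I ⊕ I → ℂ) → ℂ} (hN : NV K) (hK : Aff K)
    (L : List I) : NV (PP L K) := by
  induction L with
  | nil => exact hN
  | cons i L ih =>
    have := ih.TT (hK.PP L) (a := Sum.inl i) (b := Sum.inr i) Sum.inl_ne_inr zero_le_one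
    rwa [Complex.ofReal_one] at this

end Vale.Agent.P061.KS
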