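import Vale.Agent.P061.KSAff

/-! # The barrier argument -/

namespace Vale.Agent.P061.KS

open Function

theorem slope_nonneg {α β : ℝ} (h : ∀ t, 0 ≤ t → 0 ≤ α + t * β) : 0 ≤ β := by
  by_contra hb
  have hb' : β < 0 := not_le.1 hb
  have h1 := h ((|α| + 1) / -β) (div_nonneg (by positivity) (by linarith))
  rw [div_neg, neg_mul, div_mul_cancel₀ _ hb'.ne] at h1
  linarith [le_abs_self α]

theorem bar_a {a0 a1 a2 a3 p q r φ τ : ℝ} (hφ : 0 < φ) (hτ0 : 0 < τ) (hτ1 : φ * τ = 1 / 2)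
    (h0 : 0 < a0) (h3 : 0 ≤ a3) (k1 : a1 ≤ φ * a0) (k2 : a2 ≤ φ * a0) (hq0 : 0 ≤ q)
    (e1 : (a0 - τ * a2) * (r * τ - p) ≤ (a1 - τ * a3) * (q * τ)) : r ≤ 2 * φ * (p + q) := by
  have e2 : r * τ ≤ p + q := by
    by_cases h : r * τ - p ≤ 0
    · linarith
    have h' : 0 ≤ r * τ - p := (not_le.1 h).le
    have e : τ * (φ * a0) = a0 / 2 := by linear_combination a0 * hτ1
    have f1 : τ * a2 ≤ a0 / 2 := (mul_le_mul_of_nonneg_left k2 hτ0.le).trans_eq e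
    have f2 : τ * a1 ≤ a0 / 2 := (mul_le_mul_of_nonneg_left k1 hτ0.le).trans_eq e
    have f3 : a0 / 2 * (r * τ - p) ≤ (a0 - τ * a2) * (r * τ - p) :=
      mul_le_mul_of_nonneg_right (by linarith) h'
    have f4 := mul_le_mul_of_nonneg_right f2 hq0
    have f6 := mul_nonneg (mul_nonneg hτ0.le h3) (mul_nonneg hq0 hτ0.le)
    have f5 : a0 / 2 * (r * τ - p) ≤ a0 / 2 * q := by linarith
    have := le_of_mul_le_mul_left f5 (by positivity)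
    linarith
  have := mul_le_mul_of_nonneg_left e2 (by positivity : 0 ≤ 2 * φ)
  have e : 2 * φ * (r * τ) = r := by linear_combination 2 * r * hτ1
  linarith

theorem sq_small {φ : ℝ} (hφ : 0 < φ) (hφ' : φ ≤ 1 / 20) : φ ^ 2 ≤ 1 / 400 := by nlinarith

theorem bar_b {a0 a1 a2 a3 φ : ℝ} (hφ : 0 < φ) (hφ' : φ ≤ 1 / 20) (h0 : 0 < a0)
    (h1 : 0 ≤ a1) (h2 : 0 ≤ a2) (k1 : a1 ≤ φ * a0) (rab : a0 * a3 ≤ a1 * a2) :
    a0 - 4 * φ * a1 - 4 * φ * a2 + 16 * φ ^ 2 * a3 ≤ a0 := by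
  have f1 : a3 ≤ φ * a2 := by
    refine le_of_mul_le_mul_left ?_ h0
    linarith [mul_le_mul_of_nonneg_right k1 h2]
  have f2 : φ ^ 2 * a3 ≤ φ ^ 2 * (φ * a2) := mul_le_mul_of_nonneg_left f1 (by positivity)
  have f3 : 0 ≤ φ * a2 := by positivity
  have f4 : 0 ≤ φ * a1 := by positivity
  linarith [mul_le_mul_of_nonneg_right (sq_small hφ hφ') f3]

theorem bar_c {a0 a1 a2 a3 φ : ℝ} (hφ : 0 < φ) (hφ' : φ ≤ 1 / 20) (h0 : 0 < a0)
    (h2 : 0 ≤ a2) (k1 : a1 ≤ φ * a0) (k2 : a2 ≤ φ * a0) (rab : a0 * a3 ≤ a1 * a2) :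
    a3 ≤ a0 / 400 := by
  have f1 : a3 ≤ φ ^ 2 * a0 := by
    refine le_of_mul_le_mul_left ?_ h0
    linarith [mul_le_mul k1 k2 h2 (by positivity)]
  linarith [mul_le_mul_of_nonneg_right (sq_small hφ hφ') h0.le]

theorem bar_real {a0 a1 a2 a3 b0 b1 b2 b3 φ τ : ℝ} (hφ : 0 < φ) (hφ' : φ ≤ 1 / 20)
    (hτ0 : 0 < τ) (hτ1 : φ * τ = 1 / 2) (h0 : 0 < a0)
    (h1 : 0 ≤ a1) (h2 : 0 ≤ a2) (h3 : 0 ≤ a3) (k1 : a1 ≤ φ * a0) (k2 : a2 ≤ φ * a0)
    (k0 : b0 ≤ φ * a0) (rab : a0 * a3 ≤ a1 * a2) (ras : a0 * b1 ≤ a1 * b0)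
    (rbs : a0 * b2 ≤ a2 * b0)
    (rt : (a0 - τ * a2) * (b1 - τ * b3) ≤ (a1 - τ * a3) * (b0 - τ * b2))
    (kz : b0 - 4 * φ * b1 - 4 * φ * b2 + 16 * φ ^ 2 * b3 ≤
      φ * (a0 - 4 * φ * a1 - 4 * φ * a2 + 16 * φ ^ 2 * a3)) :
    b0 - b3 ≤ φ * (a0 - a3) := by
  have hg0 : 0 ≤ φ * a0 - b0 := by linarith
  have e3 : a3 * b0 - a0 * b3 ≤ 2 * φ * ((a1 * b0 - a0 * b1) + (a2 * b0 - a0 * b2)) := by
    refine bar_a hφ hτ0 hτ1 h0 h3 k1 k2 (by linarith) ?_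
    linarith [mul_le_mul_of_nonneg_left rt h0.le]
  have e5 : 4 * φ * ((a1 * b0 - a0 * b1) + (a2 * b0 - a0 * b2)) -
      16 * φ ^ 2 * (a3 * b0 - a0 * b3) ≤ (φ * a0 - b0) * a0 := by
    linarith [mul_le_mul_of_nonneg_left kz h0.le,
      mul_le_mul_of_nonneg_left (bar_b hφ hφ' h0 h1 h2 k1 rab) hg0]
  have f6 : a0 * (399 / 400) ≤ a0 - a3 := by linarith [bar_c hφ hφ' h0 h2 k1 k2 rab]
  have f7 := mul_le_mul_of_nonneg_left f6 hg0
  have f8 := mul_nonneg hg0 h0.le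
  refine le_of_mul_le_mul_left ?_ h0
  by_cases h : a3 * b0 - a0 * b3 ≤ 0
  · linarith
  linarith [mul_le_mul_of_nonneg_right (sq_small hφ hφ') (not_le.1 h).le]

variable {J : Type} [DecidableEq J]

/-- The barrier invariant; the coordinates in `Z` are frozen at zero. -/
def Inv (φ : ℝ) (K : (J → ℝ) → ℝ) (Z : Set J) : Prop :=
  ∀ y : J → ℝ, (∀ j ∈ Z, y j = 0) → (∀ j, -(4 * φ) ≤ y j) →
    0 < K y ∧ ∀ j, j ∉ Z → dl j K y ≤ φ * K y

theorem Inv.TT {φ : ℝ} {K : (J → ℝ) → ℝ} {Z Z' : Set J} (hI : Inv φ K Z) (hφ : 0 < φ)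
    (hφ' : φ ≤ 1 / 20) (hK : Aff K) (hR : Ray K) {a b : J} (h : a ≠ b) (ha : a ∉ Z) (hb : b ∉ Z)
    (hZ : ∀ j, j ∈ Z' ↔ j = a ∨ j = b ∨ j ∈ Z) : Inv φ (TT 1 a b K) Z' := by
  intro y hy0 hy
  have ya : y a = 0 := hy0 a ((hZ a).2 (Or.inl rfl))
  have yb : y b = 0 := hy0 b ((hZ b).2 (Or.inr (Or.inl rfl)))
  have reg : ∀ u v, -(4 * φ) ≤ u → -(4 * φ) ≤ v → 0 < K (update (update y a u) b v) ∧
      ∀ j, j ∉ Z → dl j K (update (update y a u) b v) ≤ φ * K (update (update y a u) b v) := by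
    intro u v hu hv
    refine hI _ (fun j hj => ?_) fun j => ?_
    · rw [update_of_ne (ne_of_mem_of_not_mem hj hb), update_of_ne (ne_of_mem_of_not_mem hj ha)]
      exact hy0 j ((hZ j).2 (Or.inr (Or.inr hj)))
    · by_cases h1 : j = b
      · rwa [h1, update_self]
      · rw [update_of_ne h1]
        by_cases h2 : j = a
        · rwa [h2, update_self]
        · rw [update_of_ne h2]
          exact hy j
  have hneg : -(4 * φ) ≤ 0 := by linarith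
  have pos : ∀ u v, 0 ≤ u → 0 ≤ v →
      0 < K y + u * dl a K y + v * dl b K y + u * v * dl a (dl b K) y := fun u v hu hv => by
    have := (reg u v (hneg.trans hu) (hneg.trans hv)).1
    rwa [hK.bi h, ya, yb, sub_zero, sub_zero] at this
  obtain ⟨h0, hb0⟩ := hI y (fun j hj => hy0 j ((hZ j).2 (Or.inr (Or.inr hj)))) hy
  have h1 : 0 ≤ dl a K y := slope_nonneg (α := K y) fun t ht => by
    have := pos t 0 ht le_rfl
    linarith
  have h2 : 0 ≤ dl b K y := slope_nonneg (α := K y) fun t ht => by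
    have := pos 0 t le_rfl ht
    linarith
  have h3 : 0 ≤ dl a (dl b K) y := slope_nonneg (α := dl a K y) fun v hv =>
    slope_nonneg (α := K y + v * dl b K y) fun u hu => by
      have := pos u v hu hv
      linarith
  have rab := hR a b h y
  refine ⟨?_, fun s hs => ?_⟩
  · unfold KS.TT
    linarith [bar_c hφ hφ' h0 h2 (hb0 a ha) (hb0 b hb) rab]
  · rw [hZ, not_or, not_or] at hs
    obtain ⟨sa, sb, sZ⟩ := hs
    rw [dl_TT]
    unfold KS.TT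
    rw [one_mul, one_mul]
    refine bar_real (τ := (2 * φ)⁻¹) hφ hφ' (by positivity) (by field_simp) h0 h1 h2 h3 (hb0 a ha) (hb0 b hb) (hb0 s sZ) rab
      (hR a s (Ne.symm sa) y) (hR b s (Ne.symm sb) y) ?_ ?_
    · have := hR a s (Ne.symm sa) (update y b (-(2 * φ)⁻¹))
      rw [hK.step, ((hK.dl s).dl a).step, (hK.dl a).step, (hK.dl s).step, yb, dl_comm b a,
        dl_comm b a] at this
      linarith
    · have := (reg (-(4 * φ)) (-(4 * φ)) le_rfl le_rfl).2 s sZ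
      rw [hK.bi h, (hK.dl s).bi h, ya, yb] at this
      linarith

theorem Inv.PP {I : Type} [DecidableEq I] {φ : ℝ} {K : (I ⊕ I → ℝ) → ℝ} (hI : Inv φ K ∅)
    (hφ : 0 < φ) (hφ' : φ ≤ 1 / 20) (hK : Aff K) (hR : ∀ L, Ray (PP L K)) (L : List I)
    (hL : L.Nodup) : Inv φ (PP L K) {j | j.elim id id ∈ L} := by
  induction L with
  | nil => simpa [KS.PP] using hI
  | cons i L ih =>
    rw [List.nodup_cons] at hL
    refine (ih hL.2).TT hφ hφ' (hK.PP L) (hR L) Sum.inl_ne_inr hL.1 hL.1 fun j => ?_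
    rcases j with j | j <;> simp

end Vale.Agent.P061.KS
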