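import Mathlib

/-! # Choosing a child in an interlacing family -/

namespace Vale.Agent.P061.KS

open Polynomial

theorem coeff_prod_pos (s : Multiset ℝ) (hs : ∀ r ∈ s, r < 0) :
    (∀ k, 0 ≤ (s.map (X - C ·)).prod.coeff k) ∧
      ∀ k, k ≤ s.card → 0 < (s.map (X - C ·)).prod.coeff k := by
  induction s using Multiset.induction_on with
  | empty =>
    refine ⟨fun k => ?_, fun k hk => ?_⟩
    · simp only [Multiset.map_zero, Multiset.prod_zero, coeff_one]
      split_ifs <;> norm_num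
    · obtain rfl : k = 0 := by simpa using hk
      simp
  | cons r s ih =>
    obtain ⟨h1, h2⟩ := ih fun x hx => hs x (Multiset.mem_cons_of_mem hx)
    have hr : 0 < -r := neg_pos.2 (hs r (Multiset.mem_cons_self _ _))
    rw [Multiset.map_cons, Multiset.prod_cons, Multiset.card_cons]
    generalize (s.map (X - C ·)).prod = p at h1 h2
    have e0 : ((X - C r) * p).coeff 0 = -r * p.coeff 0 := by simp
    have e1 : ∀ k, ((X - C r) * p).coeff (k + 1) = p.coeff k + -r * p.coeff (k + 1) := fun k => by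
      rw [sub_mul, coeff_sub, coeff_X_mul, coeff_C_mul]
      ring
    refine ⟨fun k => ?_, fun k hk => ?_⟩
    · rcases k with _ | k
      · rw [e0]
        exact mul_nonneg hr.le (h1 0)
      · rw [e1]
        exact add_nonneg (h1 k) (mul_nonneg hr.le (h1 _))
    · rcases k with _ | k
      · rw [e0]
        exact mul_pos hr (h2 0 (Nat.zero_le _))
      · rw [e1]
        exact add_pos_of_pos_of_nonneg (h2 k (by omega)) (mul_nonneg hr.le (h1 _))

/-- Monic of degree `N`. -/
def Mn (N : ℕ) (f : ℝ[X]) : Prop := f.natDegree ≤ N ∧ f.coeff N = 1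

theorem Mn.comb {N : ℕ} {f g : ℝ[X]} (hf : Mn N f) (hg : Mn N g) {s t : ℝ} (h : s + t = 1) :
    Mn N (C s * f + C t * g) :=
  ⟨natDegree_add_le_of_degree_le ((natDegree_C_mul_le _ _).trans hf.1)
    ((natDegree_C_mul_le _ _).trans hg.1), by
    rw [coeff_add, coeff_C_mul, coeff_C_mul, hf.2, hg.2, mul_one, mul_one, h]⟩

theorem Mn.coeff_pos {N : ℕ} {f : ℝ[X]} (hf : Mn N f) (hr : ∀ z : ℂ, 0 < z.im → aeval z f ≠ 0)
    (hp : ∀ x, 0 ≤ x → 0 < eval x f) (k : ℕ) (hk : k ≤ N) : 0 < f.coeff k := by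
  have hm : f.Monic := monic_of_natDegree_le_of_coeff_eq_one N hf.1 hf.2
  have hd : f.natDegree = N := natDegree_eq_of_le_of_coeff_ne_zero hf.1 (by simp [hf.2])
  have hs : f.Splits := by
    refine Splits.of_splits_map (algebraMap ℝ ℂ) (IsAlgClosed.splits _) fun z hz => ?_
    have hz0 : aeval z f = 0 := by
      rw [← eval_map_algebraMap]
      exact (mem_roots'.1 hz).2
    have hi : z.im = 0 := by
      rcases lt_trichotomy z.im 0 with h | h | h
      · refine absurd ?_ (hr ((starRingEnd ℂ) z) (by simpa using h))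
        rw [aeval_conj, hz0, map_zero]
      · exact h
      · exact absurd hz0 (hr z h)
    exact ⟨z.re, Complex.ext (by simp) (by simp [hi])⟩
  have h := (coeff_prod_pos f.roots fun r hr' => by
    by_contra h
    exact (hp r (not_lt.1 h)).ne' (mem_roots'.1 hr').2).2 k
      (by rw [← hs.natDegree_eq_card_roots, hd]; exact hk)
  rwa [← hs.eq_prod_roots_of_monic hm] at h

theorem eval_pos_of_coeff {N : ℕ} {f : ℝ[X]} (hf : f.natDegree ≤ N)
    (h : ∀ k, k ≤ N → 0 ≤ f.coeff k) (h0 : 0 < eval 0 f) (x : ℝ) (hx : 0 ≤ x) :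
    0 < eval x f := by
  rw [eval_eq_sum_range' (Nat.lt_succ_of_le hf), Finset.sum_range_succ', pow_zero, mul_one,
    coeff_zero_eq_eval_zero]
  refine add_pos_of_nonneg_of_pos (Finset.sum_nonneg fun k hk => ?_) h0
  exact mul_nonneg (h _ (Finset.mem_range.1 hk)) (pow_nonneg hx _)

theorem choose_one {N : ℕ} {f g : ℝ[X]} (hf : Mn N f) (hg : Mn N g)
    (hr : ∀ s t : ℝ, 0 ≤ s → 0 ≤ t → s + t = 1 → ∀ z : ℂ, 0 < z.im →
      aeval z (C s * f + C t * g) ≠ 0)
    (hp : ∀ x, 0 ≤ x → 0 < eval x f + eval x g) (h0 : 0 < eval 0 f) (x : ℝ) (hx : 0 ≤ x) :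
    0 < eval x f := by
  have hc : ∀ k, Continuous fun s : ℝ => (C s * f + C (1 - s) * g).coeff k := fun k => by
    simp only [coeff_add, coeff_C_mul]
    fun_prop
  have hm : ∀ s : ℝ, Mn N (C s * f + C (1 - s) * g) := fun s => hf.comb hg (by ring)
  have key : Set.Icc (1 / 2 : ℝ) 1 ⊆
      {s | ∀ k, k ≤ N → 0 ≤ (C s * f + C (1 - s) * g).coeff k} := by
    refine IsClosed.Icc_subset_of_forall_mem_nhdsWithin (IsClosed.inter ?_ isClosed_Icc) ?_ ?_
    · simp only [Set.ofPred_forall]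
      exact isClosed_iInter fun k => isClosed_iInter fun _ => isClosed_le continuous_const (hc k)
    · intro k hk
      refine ((hm _).coeff_pos (hr _ _ (by norm_num) (by norm_num) (by ring)) (fun y hy => ?_)
        k hk).le
      simp only [eval_add, eval_mul, eval_C]
      linarith [hp y hy]
    · rintro s ⟨hs, h1, h2⟩
      have h3 : 0 < eval 0 (C s * f + C (1 - s) * g) := by
        simp only [eval_add, eval_mul, eval_C]
        nlinarith [hp 0 le_rfl]
      have h4 := (hm s).coeff_pos (hr _ _ (by linarith) (by linarith) (by ring))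
        (eval_pos_of_coeff (hm s).1 hs h3)
      refine mem_nhdsWithin_of_mem_nhds ?_
      have h5 : ∀ᶠ t in nhds s, ∀ k ∈ Set.Iic N, 0 ≤ (C t * f + C (1 - t) * g).coeff k :=
        (Filter.eventually_all_finite (Set.finite_Iic N)).2 fun k hk =>
          ((hc k).continuousAt.eventually (lt_mem_nhds (h4 k hk))).mono fun _ => le_of_lt
      exact h5
  have h1 := key ⟨by norm_num, le_rfl⟩
  simp only [Set.mem_ofPred_eq, sub_self, C_1, C_0, one_mul, zero_mul, add_zero] at h1
  exact eval_pos_of_coeff hf.1 h1 h0 x hx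

theorem choose_child {N : ℕ} {f g : ℝ[X]} (hf : Mn N f) (hg : Mn N g)
    (hr : ∀ s t : ℝ, 0 ≤ s → 0 ≤ t → s + t = 1 → ∀ z : ℂ, 0 < z.im →
      aeval z (C s * f + C t * g) ≠ 0)
    (hp : ∀ x, 0 ≤ x → 0 < eval x f + eval x g) :
    (∀ x, 0 ≤ x → 0 < eval x f) ∨ ∀ x, 0 ≤ x → 0 < eval x g := by
  by_cases h0 : 0 < eval 0 f
  · exact Or.inl (choose_one hf hg hr hp h0)
  · refine Or.inr (choose_one hg hf (fun s t hs ht h z hz => ?_) (fun x hx => ?_) ?_)
    · rw [add_comm]
      exact hr t s ht hs (by linarith) z hz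
    · linarith [hp x hx]
    · linarith [hp 0 le_rfl]

end Vale.Agent.P061.KS
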