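import Vale.Agent.P061.KSBar
import Vale.Agent.P061.KSPoly

/-! # The determinantal polynomial -/

namespace Vale.Agent.P061.KS

open Function Matrix Polynomial

section gen
variable {n I R S : Type} [Fintype n] [DecidableEq n] [Fintype I] [CommRing R] [CommRing S]

theorem det_aff (M : Matrix n n R) (a b : n → R) (t : R) :
    (M + t • vecMulVec a b).det = M.det + t * ((M + vecMulVec a b).det - M.det) := by
  obtain ⟨A, B, h⟩ : ∃ A B : R, ∀ t : R, (M + t • vecMulVec a b).det = A + t * B := by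
    let N : Matrix (n ⊕ Unit) (n ⊕ Unit) R := fromBlocks M 0 (replicateRow Unit b) 1
    refine ⟨(N.updateCol (Sum.inr ()) (Sum.elim 0 1)).det,
      (N.updateCol (Sum.inr ()) (Sum.elim (-a) 0)).det, fun t => ?_⟩
    rw [← det_updateCol_smul, ← det_updateCol_add]
    have e : N.updateCol (Sum.inr ()) (Sum.elim (0 : n → R) 1 + t • Sum.elim (-a) 0) =
        fromBlocks M (replicateCol Unit (-(t • a))) (replicateRow Unit b) 1 := by
      ext (i | i) (j | j) <;> simp [N]
    rw [e, det_fromBlocks_one₂₂, ← vecMulVec_eq]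
    congr 1
    ext i j
    simp [vecMulVec_apply]
  have h0 := h 0
  have h1 := h 1
  rw [zero_smul, add_zero] at h0
  rw [one_smul] at h1
  rw [h, h0, h1]
  ring

/-- The matrix `x + ∑ u_i w_i w_iᵀ`. -/
def DM (x : R) (w : I → n → R) (u : I → R) : Matrix n n R :=
  x • (1 : Matrix n n R) + ∑ i, u i • vecMulVec (w i) (w i)

/-- The product of the two determinants. -/
def KK (x : R) (w : I → n → R) (y : I ⊕ I → R) : R :=
  (DM x w (y ∘ Sum.inl)).det * (DM x w (y ∘ Sum.inr)).det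

theorem DM_form (x : R) (w : I → n → R) (u : I → R) (a v : n → R) :
    a ⬝ᵥ (DM x w u *ᵥ v) = x * (a ⬝ᵥ v) + ∑ i, u i * ((w i ⬝ᵥ a) * (w i ⬝ᵥ v)) := by
  simp only [DM, add_mulVec, sum_mulVec, smul_mulVec, one_mulVec, vecMulVec_mulVec,
    dotProduct_add, dotProduct_sum, dotProduct_smul, smul_eq_mul, op_smul_eq_mul,
    dotProduct_comm a (w _)]

theorem DM_map (φ : R →+* S) (x : R) (w : I → n → R) (u : I → R) :
    φ (DM x w u).det = (DM (φ x) (fun i => φ ∘ w i) (φ ∘ u)).det := by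
  rw [RingHom.map_det]
  congr 1
  ext i j
  simp [DM, Matrix.sum_apply, vecMulVec_apply, one_apply, apply_ite φ]

variable [DecidableEq I]

omit [Fintype n] in
theorem DM_update (x : R) (w : I → n → R) (u : I → R) (i : I) (t : R) :
    DM x w (update u i t) = DM x w (update u i 0) + t • vecMulVec (w i) (w i) := by
  simp only [DM, add_assoc]
  rw [← Finset.add_sum_erase _ _ (Finset.mem_univ i),
    ← Finset.add_sum_erase _ _ (Finset.mem_univ i), update_self, update_self, zero_smul, zero_add,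
    add_comm (t • _)]
  congr 2
  exact Finset.sum_congr rfl fun k hk => by
    rw [update_of_ne (Finset.ne_of_mem_erase hk), update_of_ne (Finset.ne_of_mem_erase hk)]

theorem aff_DM (x : R) (w : I → n → R) : Aff fun u => (DM x w u).det := by
  intro i u t
  simp only [dl]
  rw [DM_update, det_aff, DM_update x w u i 1, one_smul]

theorem aff_KK (x : R) (w : I → n → R) : Aff (KK x w) := by
  rintro (i | i) y t
  · simp only [dl, KK, Sum.update_inl_comp_inl, Sum.update_inl_comp_inr]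
    have := aff_DM x w i (y ∘ Sum.inl) t
    simp only [dl] at this
    rw [this]
    ring
  · simp only [dl, KK, Sum.update_inr_comp_inl, Sum.update_inr_comp_inr]
    have := aff_DM x w i (y ∘ Sum.inr) t
    simp only [dl] at this
    rw [this]
    ring

omit [DecidableEq I] in
theorem cp_KK (φ : R →+* S) (x : R) (w : I → n → R) :
    Cp φ (KK x w) (KK (φ x) fun i => φ ∘ w i) := fun y => by
  simp only [KK, map_mul, DM_map]
  rfl

end gen

variable {n I : Type} [Fintype n] [DecidableEq n] [Fintype I]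

theorem cont_KK (w : I → n → ℂ) (y : I ⊕ I → ℂ) : Continuous fun z => KK z w y := by
  unfold KK DM
  exact (Continuous.matrix_det (by fun_prop)).mul (Continuous.matrix_det (by fun_prop))

theorem DM_ne (w : I → n → ℝ) {z : ℂ} (hz : 0 < z.im) {u : I → ℂ} (hu : ∀ i, 0 ≤ (u i).im) :
    (DM z (fun i => Complex.ofRealHom ∘ w i) u).det ≠ 0 := by
  intro h
  obtain ⟨v, hv, h0⟩ := exists_mulVec_eq_zero_iff.2 h
  have h1 := DM_form z (fun i => Complex.ofRealHom ∘ w i) u (star v) v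
  have e : ∀ i, ((Complex.ofRealHom ∘ w i) ⬝ᵥ star v) * ((Complex.ofRealHom ∘ w i) ⬝ᵥ v) =
      (Complex.normSq ((Complex.ofRealHom ∘ w i) ⬝ᵥ v) : ℂ) := fun i => by
    rw [Complex.normSq_eq_conj_mul_self]
    congr 1
    simp [dotProduct]
  have e2 : star v ⬝ᵥ v = ((∑ k, Complex.normSq (v k) : ℝ) : ℂ) := by
    simp [dotProduct, Complex.normSq_eq_conj_mul_self]
  have h2 : 0 < ∑ k, Complex.normSq (v k) := by
    obtain ⟨k, hk⟩ := Function.ne_iff.1 hv
    exact Finset.sum_pos' (fun k _ => Complex.normSq_nonneg _)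
      ⟨k, Finset.mem_univ _, Complex.normSq_pos.2 hk⟩
  rw [h0, dotProduct_zero, e2] at h1
  simp only [e] at h1
  have h3 := congrArg Complex.im h1
  rw [Complex.zero_im, Complex.add_im, Complex.im_mul_ofReal, Complex.im_sum] at h3
  have h4 : 0 ≤ ∑ i, (u i * (Complex.normSq ((Complex.ofRealHom ∘ w i) ⬝ᵥ v) : ℂ)).im :=
    Finset.sum_nonneg fun i _ => by
      rw [Complex.im_mul_ofReal]
      exact mul_nonneg (hu i) (Complex.normSq_nonneg _)
  linarith [mul_pos hz h2]

theorem nv_KK (w : I → n → ℝ) {z : ℂ} (hz : 0 < z.im) :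
    NV (KK z fun i => Complex.ofRealHom ∘ w i) := fun _ hy =>
  mul_ne_zero (DM_ne w hz fun _ => hy _) (DM_ne w hz fun _ => hy _)

theorem mn_DM (x : ℝ) (w : I → n → ℝ) (u : I → ℝ) :
    (DM (X + C x) (fun i => C ∘ w i) (C ∘ u)).det = (-DM x w u).charpoly := by
  unfold charpoly
  congr 1
  ext i j : 1
  by_cases h : i = j
  · simp [DM, Matrix.sum_apply, vecMulVec_apply, h]
    ring
  · simp [DM, Matrix.sum_apply, vecMulVec_apply, h]

theorem mn_KK (x : ℝ) (w : I → n → ℝ) (y : I ⊕ I → ℝ) :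
    Mn (Fintype.card n + Fintype.card n) (KK (X + C x) (fun i => C ∘ w i) (C ∘ y)) := by
  have e : KK (X + C x) (fun i => C ∘ w i) (C ∘ y) =
      (-DM x w (y ∘ Sum.inl)).charpoly * (-DM x w (y ∘ Sum.inr)).charpoly := by
    rw [← mn_DM, ← mn_DM]
    rfl
  have h1 := charpoly_monic (-DM x w (y ∘ Sum.inl))
  have h2 := charpoly_monic (-DM x w (y ∘ Sum.inr))
  have hd := h1.natDegree_mul h2
  rw [charpoly_natDegree_eq_dim, charpoly_natDegree_eq_dim] at hd
  rw [e]
  exact ⟨hd.le, hd ▸ (h1.mul h2).coeff_natDegree⟩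

omit [Fintype n] in
theorem herm_DM (x : ℝ) (w : I → n → ℝ) (u : I → ℝ) : (DM x w u).IsHermitian := by
  ext i j
  simp [DM, Matrix.sum_apply, vecMulVec_apply, one_apply, eq_comm, mul_comm]

theorem form_of_det {x : ℝ} {w : I → n → ℝ} {u : I → ℝ}
    (h : ∀ t, 0 ≤ t → (DM (t + x) w u).det ≠ 0) (v : n → ℝ) :
    0 ≤ x * (v ⬝ᵥ v) + ∑ i, u i * (w i ⬝ᵥ v) ^ 2 := by
  have hH := herm_DM x w u
  have hP : (DM x w u).PosSemidef := by
    rw [hH.posSemidef_iff_eigenvalues_nonneg]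
    intro k
    by_contra hk
    refine h (-hH.eigenvalues k) (neg_nonneg.2 (not_le.1 hk).le)
      (exists_mulVec_eq_zero_iff.1 ⟨⇑(hH.eigenvectorBasis k), fun h0 => ?_, ?_⟩)
    · exact hH.eigenvectorBasis.orthonormal.ne_zero k (by ext l; exact congrFun h0 l)
    · have e : DM (-hH.eigenvalues k + x) w u = DM x w u - hH.eigenvalues k • 1 := by
        simp only [DM, add_smul, neg_smul]
        abel
      rw [e, sub_mulVec, hH.mulVec_eigenvectorBasis, smul_mulVec, one_mulVec, sub_self]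
  have := hP.dotProduct_mulVec_nonneg v
  simpa only [star_trivial, DM_form, ← sq] using this

theorem inv_KK [DecidableEq I] {w : I → n → ℝ} {σ x : ℝ} (hσ : 0 < σ) (hx : 5 * σ ≤ x)
    (h1 : ∀ v : n → ℝ, ∑ i, (w i ⬝ᵥ v) ^ 2 ≤ v ⬝ᵥ v) (h2 : ∀ i, w i ⬝ᵥ w i ≤ σ ^ 2) :
    Inv (σ / 4) (KK x w) ∅ := by
  have nn : ∀ v : n → ℝ, 0 ≤ v ⬝ᵥ v := fun v => Finset.sum_nonneg fun _ _ => mul_self_nonneg _
  have low : ∀ (u : I → ℝ) (i : I) (τ : ℝ), (∀ k, -σ - (if k = i then τ else 0) ≤ u k) →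
      ∀ v, 4 * σ * (v ⬝ᵥ v) - τ * (w i ⬝ᵥ v) ^ 2 ≤ star v ⬝ᵥ (DM x w u *ᵥ v) := by
    intro u i τ hu v
    have f1 : ∑ k, (-σ - if k = i then τ else 0) * (w k ⬝ᵥ v) ^ 2 ≤ ∑ k, u k * (w k ⬝ᵥ v) ^ 2 :=
      Finset.sum_le_sum fun k _ => mul_le_mul_of_nonneg_right (hu k) (sq_nonneg _)
    simp only [sub_mul, Finset.sum_sub_distrib, ← Finset.mul_sum, ite_mul, zero_mul,
      Finset.sum_ite_eq', Finset.mem_univ, if_true] at f1
    simp only [star_trivial, DM_form, ← sq]
    linarith [mul_le_mul_of_nonneg_left (h1 v) hσ.le, mul_le_mul_of_nonneg_right hx (nn v)]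
  have psd : ∀ (u : I → ℝ) (i : I), (∀ k, -σ - (if k = i then 4 / σ else 0) ≤ u k) →
      0 ≤ (DM x w u).det := fun u i hu => by
    refine (PosSemidef.of_dotProduct_mulVec_nonneg (herm_DM x w u) fun v => ?_).det_nonneg
    refine le_trans ?_ (low u i _ hu v)
    have f1 : (w i ⬝ᵥ v) ^ 2 ≤ (w i ⬝ᵥ w i) * (v ⬝ᵥ v) := by
      simpa only [dotProduct, ← sq] using Finset.sum_mul_sq_le_sq_mul_sq Finset.univ (w i) v
    have f2 := mul_le_mul_of_nonneg_left (f1.trans (mul_le_mul_of_nonneg_right (h2 i) (nn v)))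
      (by positivity : 0 ≤ 4 / σ)
    have e : 4 / σ * (σ ^ 2 * (v ⬝ᵥ v)) = 4 * σ * (v ⬝ᵥ v) := by field_simp
    linarith
  have pd : ∀ u : I → ℝ, (∀ k, -σ ≤ u k) → 0 < (DM x w u).det := fun u hu => by
    refine (PosDef.of_dotProduct_mulVec_pos (herm_DM x w u) fun v hv => ?_).det_pos
    have f0 : 0 < v ⬝ᵥ v := (nn v).lt_of_ne' fun h => hv (dotProduct_self_eq_zero.1 h)
    have f1 : ∑ k, -σ * (w k ⬝ᵥ v) ^ 2 ≤ ∑ k, u k * (w k ⬝ᵥ v) ^ 2 :=
      Finset.sum_le_sum fun k _ => mul_le_mul_of_nonneg_right (hu k) (sq_nonneg _)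
    rw [← Finset.mul_sum] at f1
    simp only [star_trivial, DM_form, ← sq]
    linarith [mul_le_mul_of_nonneg_left (h1 v) hσ.le, mul_le_mul_of_nonneg_right hx (nn v),
      mul_pos hσ f0]
  intro y _ hy
  have hy' : ∀ j, -σ ≤ y j := fun j => by linarith [hy j]
  refine ⟨mul_pos (pd _ fun _ => hy' _) (pd _ fun _ => hy' _), fun j _ => ?_⟩
  have hτ : 0 < 4 / σ := by positivity
  have hb : ∀ l : I ⊕ I, -σ - (if l.elim id id = j.elim id id then 4 / σ else 0) ≤
      update y j (y j - 4 / σ) l := fun l => by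
    by_cases h : l = j
    · rw [h, update_self, if_pos rfl]
      linarith [hy' j]
    · rw [update_of_ne h]
      split_ifs <;> linarith [hy' l]
  have h0 : 0 ≤ KK x w (update y j (y j - 4 / σ)) :=
    mul_nonneg (psd _ _ fun k => hb (Sum.inl k)) (psd _ _ fun k => hb (Sum.inr k))
  rw [(aff_KK x w).step] at h0
  have h3 := mul_nonneg (by positivity : 0 ≤ σ / 4) h0
  have e : σ / 4 * (KK x w y + (y j - 4 / σ - y j) * dl j (KK x w) y) =
      σ / 4 * KK x w y - dl j (KK x w) y := by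
    field_simp
    ring
  linarith

end Vale.Agent.P061.KS
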