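import Vale.Agent.P061.Stm

open Finset Matrix
open scoped Classical

namespace Vale.Agent.P061

namespace TBaseAux

/-- Enumeration of the vertices by natural numbers. -/
noncomputable def own0 (V : Type) [Fintype V] [Nonempty V] (i : ℕ) : V :=
  if h : i < Fintype.card V then (Fintype.equivFin V).symm ⟨i, h⟩ else Classical.arbitrary V

theorem own0_val {V : Type} [Fintype V] [Nonempty V] (v : V) :
    own0 V (Fintype.equivFin V v).val = v := by
  unfold own0
  rw [dif_pos (Fintype.equivFin V v).isLt]
  simp

theorem own0_inj {V : Type} [Fintype V] [Nonempty V] {p q : ℕ} (hp : p < Fintype.card V)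
    (hq : q < Fintype.card V) (h : own0 V p = own0 V q) : p = q := by
  unfold own0 at h
  rw [dif_pos hp, dif_pos hq] at h
  have := (Fintype.equivFin V).symm.injective h
  simpa using this

/-- The skeleton with one isolated node per vertex. -/
noncomputable def S0 {V A : Type} [Fintype V] [Nonempty V] (X : V → A) : Sk V A where
  N := range (Fintype.card V)
  pos := fun i => X (own0 V i)
  own := own0 V
  adj := fun _ _ => False

end TBaseAux

open TBaseAux in
theorem tBase (hJ : JoinStmt) : BaseStmt := by
  intro V A E _ _ _ _ a b X ε Q T hε hT hG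
  have hok : (S0 X).Ok ε ⊥ :=
    { mem := fun _ _ h => h.elim
      symm := fun _ _ h => h.elim
      short := fun _ _ h => h.elim
      lab := fun _ _ h => h.elim
      conn := by
        intro p hp q hq h
        have h1 : own0 V p = own0 V q := h
        have h2 : p = q := own0_inj (mem_range.1 hp) (mem_range.1 hq) h1
        rw [h2] }
  have hd : (S0 X).Dense X ⊥ 0 := by
    intro v
    refine ⟨(Fintype.equivFin V v).val, mem_range.2 (Fintype.equivFin V v).isLt, own0_val v, ?_⟩
    have h : (S0 X).pos (Fintype.equivFin V v).val = X v := congrArg X (own0_val v)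
    rw [h]
    simp
  obtain ⟨S', h1, h2, h3, h4, -⟩ := hJ V A E a b X (S0 X) ε 0 ⊥ Q T hε le_rfl bot_le hok hd hT hG
  refine ⟨S', h1, ?_, ?_⟩
  · intro v
    obtain ⟨p, hp, hp1, hp2⟩ := hd v
    refine ⟨p, h2 hp, ?_, ?_⟩
    · rw [(h3 p hp).2]
      have h5 : (S0 X).own p = v := hp1
      rw [h5]
    · rw [(h3 p hp).1]
      exact hp2
  · have h5 : (S0 X).N.card = Fintype.card V := card_range _
    rw [h5] at h4
    linarith

end Vale.Agent.P061
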