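import Vale.Agent.P061.Stm

open Finset Matrix
open scoped Classical

namespace Vale.Agent.P061

namespace TConnAux

variable {V E : Type}

/-- The class of a quotient element as a finite set. -/
noncomputable def cls [Fintype V] (P : Setoid V) (c : Quotient P) : Finset V :=
  univ.filter fun v => Quotient.mk P v = c

theorem mem_cls [Fintype V] {P : Setoid V} {c : Quotient P} {v : V} :
    v ∈ cls P c ↔ Quotient.mk P v = c := by
  simp [cls]

theorem sum_cut_le [Fintype V] (a b : E → V) (H : Finset E) (P : Setoid V) :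
    ∑ c : Quotient P, cut a b H (cls P c) ≤ 2 * (xs a b H P).card := by
  unfold cut xs
  simp only [card_filter]
  rw [sum_comm, mul_sum]
  refine sum_le_sum fun e _ => ?_
  by_cases h : P (a e) (b e)
  · have h1 : Quotient.mk P (a e) = Quotient.mk P (b e) := Quotient.sound h
    simp [mem_cls, h1]
  · simp only [h, not_false_eq_true, if_true, mul_one]
    rw [← card_filter]
    refine le_trans (card_le_card (t := {Quotient.mk P (a e), Quotient.mk P (b e)}) ?_) card_le_two
    intro c hc
    rw [mem_filter, mem_cls, mem_cls] at hc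
    rw [mem_insert, mem_singleton]
    by_contra hcon
    push Not at hcon
    exact hc.2 ⟨fun h1 => (hcon.1 h1.symm).elim, fun h1 => (hcon.2 h1.symm).elim⟩

theorem ofCut [Fintype V] [Nonempty V] (a b : E → V) (H : Finset E) (k : ℝ) (hk : 0 ≤ k)
    (h : ∀ S, Nt S → k ≤ cut a b H S) : Strong a b H (k / 2) := by
  intro P
  have h0 : (0 : ℝ) ≤ (xs a b H P).card := Nat.cast_nonneg _
  by_cases h1 : ncl P ≤ 1
  · have h2 : (ncl P : ℝ) - 1 ≤ 0 := by
      have : (ncl P : ℝ) ≤ 1 := by exact_mod_cast h1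
      linarith
    nlinarith
  · have hc : ncl P = Fintype.card (Quotient P) := Nat.card_eq_fintype_card
    have hnt : ∀ c : Quotient P, Nt (cls P c) := by
      intro c
      obtain ⟨c', hc'⟩ := Fintype.exists_ne_of_one_lt_card (by omega) c
      refine ⟨⟨c.out, mem_cls.2 c.out_eq⟩, c'.out, fun h2 => hc' ?_⟩
      rw [← mem_cls.1 h2, c'.out_eq]
    have h2 : ∑ _c : Quotient P, k ≤ ∑ c : Quotient P, (cut a b H (cls P c) : ℝ) :=
      sum_le_sum fun c _ => h _ (hnt c)
    have h3 : (∑ c : Quotient P, (cut a b H (cls P c) : ℝ)) ≤ 2 * (xs a b H P).card := by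
      exact_mod_cast sum_cut_le a b H P
    rw [sum_const, card_univ, ← hc, nsmul_eq_mul] at h2
    nlinarith

theorem toCut (hN : NclStmt) [Fintype V] (a b : E → V) (H : Finset E) (σ : ℝ) (S : Finset V)
    (h : Strong a b H σ) (hS : Nt S) : σ ≤ cut a b H S := by
  obtain ⟨⟨u, hu⟩, v, hv⟩ := hS
  haveI : Nonempty V := ⟨u⟩
  have h0 : (0 : ℝ) ≤ cut a b H S := Nat.cast_nonneg _
  rcases le_total σ 0 with hσ | hσ
  · linarith
  let P : Setoid V := Setoid.ker fun w => w ∈ S
  have hP : ∀ x y, P x y ↔ (x ∈ S ↔ y ∈ S) := fun x y => by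
    rw [Setoid.ker_def, eq_iff_iff]
  have h1 : ncl (⊤ : Setoid V) < ncl P := by
    refine hN.lt V P ⊤ le_top fun h2 => ?_
    have h3 : P u v := h2 (Setoid.top_def ▸ trivial)
    exact hv (((hP u v).1 h3).1 hu)
  rw [hN.top V] at h1
  have h2 : (2 : ℝ) ≤ ncl P := by exact_mod_cast h1
  have h3 : (xs a b H P).card = cut a b H S := by
    unfold xs cut
    refine congrArg card (filter_congr fun e _ => ?_)
    rw [hP]
  have h4 := h P
  rw [h3] at h4
  nlinarith

theorem good (hN : NclStmt) [Fintype V] [Nonempty V] (a b : E → V) (H : Finset E) (σ : ℝ)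
    (h : Strong a b H σ) : Good a b H ⊤ σ := by
  intro P _
  have h1 : xs2 a b H P ⊤ = xs a b H P := by
    unfold xs xs2
    refine filter_congr fun e _ => ?_
    exact ⟨fun h2 => h2.1, fun h2 => ⟨h2, Setoid.top_def ▸ trivial⟩⟩
  rw [h1, hN.top V, Nat.cast_one]
  exact h P

theorem lapInd (a b : E → V) (H : Finset E) (S : Finset V) :
    lap a b H (ind S) = cut a b H S := by
  unfold lap cut ind
  rw [card_filter, Nat.cast_sum]
  refine sum_congr rfl fun e _ => ?_
  by_cases h1 : a e ∈ S <;> by_cases h2 : b e ∈ S <;> simp [h1, h2]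

end TConnAux

theorem tConn (hN : NclStmt) : ConnStmt where
  ofCut := fun _ _ _ _ a b H k hk h => TConnAux.ofCut a b H k hk h
  toCut := fun _ _ _ a b H σ S h hS => TConnAux.toCut hN a b H σ S h hS
  good := fun _ _ _ _ a b H σ h => TConnAux.good hN a b H σ h
  mono := fun V _ _ _ a b H σ σ' hσ h P => by
    have h1 : (1 : ℝ) ≤ ncl P := by exact_mod_cast hN.pos V P
    have h2 := h P
    nlinarith
  lapInd := fun _ _ a b H S => TConnAux.lapInd a b H S

end Vale.Agent.P061
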