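import Vale.Agent.P061.Stm

open Finset Matrix
open scoped Classical

namespace Vale.Agent.P061

namespace TCovLowAux

theorem cross {r : ℕ → ℕ → Prop} (g : ℕ → ℝ) {p q : ℕ} (h : Relation.ReflTransGen r p q) (s : ℝ)
    (hp : g p ≤ s) (hq : s < g q) : ∃ u v, r u v ∧ g u ≤ s ∧ s < g v := by
  induction h with
  | refl => exact absurd hp (not_le.2 hq)
  | @tail b c _ hbc ih =>
    rcases le_or_gt (g b) s with h1 | h1
    · exact ⟨b, c, hbc, h1, hq⟩
    · exact ih h1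

theorem cover_len (I : Finset ℕ) (m l : ℕ → ℝ) (R : ℝ) (hl : ∀ i, 0 ≤ l i)
    (h : ∀ s, 0 ≤ s → s ≤ R → ∃ i ∈ I, m i ≤ s ∧ s ≤ m i + l i) : R ≤ ∑ i ∈ I, l i := by
  have h1 : Set.Icc (0 : ℝ) R ⊆ ⋃ i ∈ I, Set.Icc (m i) (m i + l i) := by
    intro s hs
    obtain ⟨i, hi, h2⟩ := h s hs.1 hs.2
    exact Set.mem_biUnion hi h2
  have h2 := (MeasureTheory.measure_mono (μ := MeasureTheory.volume) h1).trans
    (MeasureTheory.measure_biUnion_finset_le I _)
  simp only [Real.volume_Icc, sub_zero, add_sub_cancel_left] at h2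
  rw [← ENNReal.ofReal_sum_of_nonneg fun i _ => hl i] at h2
  exact (ENNReal.ofReal_le_ofReal_iff (sum_nonneg fun i _ => hl i)).1 h2

end TCovLowAux

theorem tCovLow : CovLowStmt := by
  intro V A _ S ε R P cl t p q hε _ hS ht hcl hpq hR
  set g : ℕ → ℝ := fun u => ‖S.pos u - S.pos p‖ with hg
  set B : Finset ℕ := S.N.filter fun u => ‖S.pos u - S.pos p‖ ≤ R with hB
  have hex : ∀ i, ∃ w, i ∈ B.image cl → w ∈ B ∧ cl w = i ∧ ∀ u ∈ B, cl u = i → g w ≤ g u := by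
    intro i
    by_cases hi : i ∈ B.image cl
    · obtain ⟨u, hu, hui⟩ := mem_image.1 hi
      obtain ⟨w, hw, hmin⟩ := exists_min_image (B.filter fun u => cl u = i) g
        ⟨u, mem_filter.2 ⟨hu, hui⟩⟩
      exact ⟨w, fun _ => ⟨(mem_filter.1 hw).1, (mem_filter.1 hw).2,
        fun v hv hvi => hmin v (mem_filter.2 ⟨hv, hvi⟩)⟩⟩
    · exact ⟨0, fun h => absurd h hi⟩
  choose w hw using hex
  refine TCovLowAux.cover_len _ (fun i => g (w i)) (fun i => t i + ε) R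
    (fun i => add_nonneg (ht i) hε) fun s hs0 hsR => ?_
  obtain ⟨u, v, huv, hu, hv⟩ := TCovLowAux.cross g hpq s (by simpa [hg] using hs0)
    (lt_of_le_of_lt hsR hR)
  have huN : u ∈ S.N := (hS.mem u v huv).1
  have huB : u ∈ B := mem_filter.2 ⟨huN, le_trans hu hsR⟩
  have hi : cl u ∈ B.image cl := mem_image_of_mem _ huB
  obtain ⟨hwB, hwc, hmin⟩ := hw _ hi
  refine ⟨cl u, hi, le_trans (hmin u huB rfl) hu, ?_⟩
  have h1 := hcl u huN (w (cl u)) (mem_filter.1 hwB).1 hwc.symm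
  have h2 := hS.short u v huv
  have h3 : g v ≤ ‖S.pos u - S.pos v‖ + g u := by
    have := norm_sub_le_norm_sub_add_norm_sub (S.pos v) (S.pos u) (S.pos p)
    rwa [norm_sub_rev (S.pos v) (S.pos u)] at this
  have h4 : g u ≤ ‖S.pos u - S.pos (w (cl u))‖ + g (w (cl u)) :=
    norm_sub_le_norm_sub_add_norm_sub _ _ _
  linarith

end Vale.Agent.P061
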