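import Vale.Agent.P061.Stm

open Finset Matrix
open scoped Classical

namespace Vale.Agent.P061

namespace TCovStepAux

variable {V A : Type} [NormedAddCommGroup A]

lemma merge [Fintype V] (S : Sk V A) (ε D : ℝ) (cl : ℕ → ℕ) (t : ℕ → ℝ) (Z : Finset V)
    (Lab : V → Finset ℕ) (hε : 0 ≤ ε) (hD : 0 ≤ D) (ht : ∀ i, 0 ≤ t i ∧ t i ≤ D)
    (hcl : ∀ p ∈ S.N, ∀ q ∈ S.N, cl p = cl q → ‖S.pos p - S.pos q‖ ≤ t (cl p))
    (hsub : ∀ z ∈ Z, Lab z ⊆ S.N.image cl)
    (hdis : (Z : Set V).PairwiseDisjoint Lab)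
    (hdi : ∀ z ∈ Z, ∀ p ∈ S.N, ∀ q ∈ S.N, cl p ∈ Lab z → cl q ∈ Lab z → ‖S.pos p - S.pos q‖ ≤ D) :
    S.Cov ε D (∑ i ∈ S.N.image cl, (t i + ε) - ∑ z ∈ Z, (∑ i ∈ Lab z, (t i + ε) - (D + ε))) := by
  let enc : V → ℕ := fun v => (Fintype.equivFin V v : ℕ)
  have henc : Function.Injective enc := fun u v h =>
    (Fintype.equivFin V).injective (Fin.ext h)
  have hex : ∀ i : ℕ, ∃ j : ℕ, (∃ z ∈ Z, i ∈ Lab z ∧ j = 2 * enc z + 1) ∨
      ((∀ z ∈ Z, i ∉ Lab z) ∧ j = 2 * i) := by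
    intro i
    by_cases h : ∃ z ∈ Z, i ∈ Lab z
    · obtain ⟨z, hz, hi⟩ := h
      exact ⟨_, Or.inl ⟨z, hz, hi, rfl⟩⟩
    · exact ⟨_, Or.inr ⟨fun z hz hi => h ⟨z, hz, hi⟩, rfl⟩⟩
  choose φ hφ using hex
  let t' : ℕ → ℝ := fun j => if j % 2 = 0 then t (j / 2) else D
  have e0 : ∀ i, t' (2 * i) = t i := by
    intro i
    have h1 : 2 * i % 2 = 0 := by omega
    have h2 : 2 * i / 2 = i := by omega
    simp only [t', h1, h2, if_true]
  have e1 : ∀ i, t' (2 * i + 1) = D := by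
    intro i
    have h1 : ¬ (2 * i + 1) % 2 = 0 := by omega
    simp only [t', h1, if_false]
  refine ⟨fun p => φ (cl p), t', ?_, ?_, ?_⟩
  · intro j
    by_cases h : j % 2 = 0
    · simp only [t', h, if_true]; exact ht _
    · simp only [t', h, if_false]; exact ⟨hD, le_rfl⟩
  · intro p hp q hq h
    beta_reduce at h ⊢
    rcases hφ (cl p) with ⟨z, hz, hi, e⟩ | ⟨hn, e⟩ <;>
      rcases hφ (cl q) with ⟨z', hz', hi', e'⟩ | ⟨hn', e'⟩
    · have hzz : z = z' := henc (by omega)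
      subst hzz
      rw [e, e1]
      exact hdi z hz p hp q hq hi hi'
    · omega
    · omega
    · rw [e, e0]
      exact hcl p hp q hq (by omega)
  · set Λ := S.N.image cl with hΛ
    set U := Z.biUnion Lab with hU
    have hUΛ : U ⊆ Λ := biUnion_subset.2 hsub
    have h1 : S.N.image (fun p => φ (cl p)) ⊆
        (Λ \ U).image (fun i => 2 * i) ∪ Z.image (fun z => 2 * enc z + 1) := by
      intro j hj
      obtain ⟨p, hp, rfl⟩ := mem_image.1 hj
      rcases hφ (cl p) with ⟨z, hz, hi, e⟩ | ⟨hn, e⟩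
      · exact mem_union_right _ (mem_image.2 ⟨z, hz, e.symm⟩)
      · refine mem_union_left _ (mem_image.2 ⟨cl p, mem_sdiff.2 ⟨mem_image_of_mem _ hp, ?_⟩, e.symm⟩)
        intro hm
        obtain ⟨z, hz, hi⟩ := mem_biUnion.1 hm
        exact hn z hz hi
    have hnn : ∀ j, 0 ≤ t' j + ε := by
      intro j
      by_cases h : j % 2 = 0
      · simp only [t', h, if_true]; linarith [(ht (j / 2)).1]
      · simp only [t', h, if_false]; linarith
    have h2 := sum_le_sum_of_subset_of_nonneg (f := fun j => t' j + ε) h1 fun j _ _ => hnn j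
    have h3 : Disjoint ((Λ \ U).image (fun i => 2 * i)) (Z.image (fun z => 2 * enc z + 1)) := by
      rw [disjoint_left]
      intro j h h'
      obtain ⟨i, _, e⟩ := mem_image.1 h
      obtain ⟨z, _, e'⟩ := mem_image.1 h'
      omega
    rw [sum_union h3, sum_image (s := Λ \ U) (fun i _ j _ h => by simpa using h),
      sum_image (s := Z) (fun u _ v _ h => henc (by simpa using h))] at h2
    simp only [e0, e1] at h2
    have h4 := sum_sdiff (f := fun i => t i + ε) hUΛ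
    have h5 : ∑ i ∈ U, (t i + ε) = _ := sum_biUnion hdis
    rw [sum_sub_distrib]
    linarith

end TCovStepAux

open TCovStepAux in
theorem tCovStep (hS : SepStmt) (hC : CovLowStmt) : CovStepStmt := by
  intro V A _ _ X S ε ρ c r L Y hε hεr hL hρ hok hden hsep hcov
  obtain ⟨cl, t, ht, hcl, hc⟩ := hcov
  have hr : 0 < r := by linarith
  have hLr : r ≤ L * r := by nlinarith
  set R := rich X Y (L * r) (48 * L) with hR
  obtain ⟨Z, hZR, hZs, hZc⟩ := hS A V X R (2 * (L * r)) (by linarith)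
  have hcen : ∀ y : V, ∃ z : V, (∃ z' ∈ Z, ‖X y - X z'‖ ≤ 2 * (L * r)) →
      z ∈ Z ∧ ‖X y - X z‖ ≤ 2 * (L * r) ∧ ∀ z' ∈ Z, ‖X y - X z'‖ ≤ L * r → z = z' := by
    intro y
    by_cases h : ∃ z ∈ Z, ‖X y - X z‖ ≤ L * r
    · obtain ⟨z, hz, hd⟩ := h
      refine ⟨z, fun _ => ⟨hz, by linarith, fun z' hz' hd' => ?_⟩⟩
      by_contra hne
      have h1 := hZs z hz z' hz' hne
      have h2 := norm_sub_le_norm_sub_add_norm_sub (X z) (X y) (X z')
      rw [norm_sub_rev (X z) (X y)] at h2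
      linarith
    · by_cases h' : ∃ z' ∈ Z, ‖X y - X z'‖ ≤ 2 * (L * r)
      · obtain ⟨z, hz, hd⟩ := h'
        exact ⟨z, fun _ => ⟨hz, hd, fun z' hz' hd' => absurd ⟨z', hz', hd'⟩ h⟩⟩
      · exact ⟨y, fun h'' => absurd h'' h'⟩
  choose cen hcen using hcen
  choose nd hndN _ hnd using hden
  have hpos : ∀ y, S.pos (nd y) = X y := fun y =>
    sub_eq_zero.1 (norm_le_zero_iff.1 (hnd y))
  set Y' := Y.filter fun y => ∃ z' ∈ Z, ‖X y - X z'‖ ≤ 2 * (L * r) with hY'
  let Fib : V → Finset V := fun z => Y'.filter fun y => cen y = z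
  let Lb : V → Finset ℕ := fun y =>
    (S.N.filter fun u => ‖S.pos u - S.pos (nd y)‖ ≤ r / 4).image cl
  have hLb : ∀ y, ∀ p ∈ S.N, cl p ∈ Lb y → ‖S.pos p - X y‖ ≤ r / 2 := by
    intro y p hp h
    obtain ⟨u, hu, e⟩ := mem_image.1 h
    obtain ⟨huN, hud⟩ := mem_filter.1 hu
    have h1 := hcl p hp u huN e.symm
    have h2 := norm_sub_le_norm_sub_add_norm_sub (S.pos p) (S.pos u) (X y)
    rw [hpos] at hud
    linarith [(ht (cl p)).2]
  have hLd : ∀ y ∈ Y, ∀ y' ∈ Y, y ≠ y' → Disjoint (Lb y) (Lb y') := by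
    intro y hy y' hy' hne
    rw [disjoint_left]
    intro i hi hi'
    obtain ⟨u, hu, e⟩ := mem_image.1 hi
    obtain ⟨huN, hud⟩ := mem_filter.1 hu
    have h1 := hLb y' u huN (e ▸ hi')
    have h2 := hsep y hy y' hy' hne
    have h3 := norm_sub_le_norm_sub_add_norm_sub (X y) (S.pos u) (X y')
    rw [hpos, norm_sub_rev] at hud
    linarith
  have hFY : ∀ z, Fib z ⊆ Y := fun z => (filter_subset _ _).trans (filter_subset _ _)
  have hFn : ∀ z ∈ Z, 48 * L ≤ ((Fib z).card : ℝ) := by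
    intro z hz
    have h1 := (mem_filter.1 (hZR hz)).2
    refine h1.trans (Nat.cast_le.2 (card_le_card fun y hy => ?_))
    obtain ⟨hyY, hyd⟩ := mem_filter.1 hy
    have h2 : ∃ z' ∈ Z, ‖X y - X z'‖ ≤ 2 * (L * r) := ⟨z, hz, by linarith⟩
    exact mem_filter.2 ⟨mem_filter.2 ⟨hyY, h2⟩, (hcen y h2).2.2 z hz hyd⟩
  have hlow : ∀ z ∈ Z, ∀ y ∈ Fib z, r / 4 ≤ ∑ i ∈ Lb y, (t i + ε) := by
    intro z hz y hy
    have h2 : 1 < (Fib z).card := by
      have := hFn z hz
      have h3 : (1 : ℝ) < (Fib z).card := by linarith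
      exact_mod_cast h3
    obtain ⟨y', hy', hne⟩ := exists_mem_ne h2 y
    have h3 := hsep y' (hFY z hy') y (hFY z hy) hne
    refine hC V A S ε (r / 4) ⊤ cl t (nd y) (nd y') hε.le (by linarith) hok.toOk0
      (fun i => (ht i).1) hcl (hok.conn _ (hndN y) _ (hndN y') trivial) ?_
    rw [hpos, hpos]
    linarith
  have hFd : ∀ z, ((Fib z : Finset V) : Set V).PairwiseDisjoint Lb := fun z y hy y' hy' hne =>
    hLd y (hFY z hy) y' (hFY z hy') hne
  have hm := merge S ε (5 * L * r) cl t Z (fun z => (Fib z).biUnion Lb) hε.le (by nlinarith)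
    (fun i => ⟨(ht i).1, by nlinarith [(ht i).2]⟩) hcl
    (fun z _ => biUnion_subset.2 fun y _ => image_subset_image (filter_subset _ _))
    (by
      intro z _ z' _ hne
      rw [Function.onFun, disjoint_biUnion_left]
      intro y hy
      rw [disjoint_biUnion_right]
      intro y' hy'
      refine hLd y (hFY z hy) y' (hFY z' hy') fun e => hne ?_
      rw [← (mem_filter.1 hy).2, ← (mem_filter.1 hy').2, e])
    (by
      intro z _ p hp q hq h h'
      have key : ∀ p ∈ S.N, cl p ∈ (Fib z).biUnion Lb → ‖S.pos p - X z‖ ≤ r / 2 + 2 * (L * r) := by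
        intro p hp h
        obtain ⟨y, hy, hi⟩ := mem_biUnion.1 h
        obtain ⟨hy1, hy2⟩ := mem_filter.1 hy
        have h1 := (hcen y (mem_filter.1 hy1).2).2.1
        rw [hy2] at h1
        have h2 := norm_sub_le_norm_sub_add_norm_sub (S.pos p) (X y) (X z)
        linarith [hLb y p hp hi]
      have h1 := key p hp h
      have h2 := key q hq h'
      have h3 := norm_sub_le_norm_sub_add_norm_sub (S.pos p) (X z) (S.pos q)
      rw [norm_sub_rev] at h2
      nlinarith)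
  obtain ⟨cl', t', ht', hcl', hc'⟩ := hm
  refine ⟨cl', t', ht', hcl', hc'.trans ?_⟩
  have h1 : ∀ z ∈ Z, r / 8 * ((Fib z).card : ℝ) ≤
      ∑ i ∈ (Fib z).biUnion Lb, (t i + ε) - (5 * L * r + ε) := by
    intro z hz
    rw [sum_biUnion (hFd z)]
    have h2 := card_nsmul_le_sum _ _ _ (hlow z hz)
    rw [nsmul_eq_mul] at h2
    have h3 := mul_le_mul_of_nonneg_left (hFn z hz) hr.le
    nlinarith
  have h2 := sum_le_sum h1
  rw [← mul_sum] at h2
  have h3 : (R.card : ℝ) ≤ ∑ z ∈ Z, ((Fib z).card : ℝ) := by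
    have h4 : R ⊆ Y' := fun y hy => mem_filter.2 ⟨(mem_filter.1 hy).1, hZc y hy⟩
    have h5 := card_eq_sum_card_fiberwise (f := cen) (s := Y') (t := Z)
      fun y hy => (hcen y (mem_filter.1 hy).2).1
    have h6 := card_le_card h4
    rw [h5] at h6
    exact_mod_cast h6
  have h4 := mul_le_mul_of_nonneg_left h3 (show 0 ≤ r / 8 by linarith)
  linarith

end Vale.Agent.P061
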