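import Vale.Agent.P061.Stm

open Finset Matrix
open scoped Classical

namespace Vale.Agent.P061

namespace TDLAux

/-- Difference of two unit vectors. -/
noncomputable def bv {V : Type} (u v : V) : V → ℝ := Pi.single u 1 - Pi.single v 1

theorem bv_dot {V : Type} [Fintype V] (u v : V) (x : V → ℝ) : bv u v ⬝ᵥ x = x u - x v := by
  simp [bv, sub_dotProduct]

theorem qf_add {V : Type} [Fintype V] (A B : Matrix V V ℝ) (x : V → ℝ) :
    qf (A + B) x = qf A x + qf B x := by
  simp [qf, add_mulVec]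

theorem qf_sum {V ι : Type} [Fintype V] (s : Finset ι) (A : ι → Matrix V V ℝ) (x : V → ℝ) :
    qf (∑ i ∈ s, A i) x = ∑ i ∈ s, qf (A i) x := by
  induction s using Finset.induction_on with
  | empty => simp [qf]
  | insert i s hi ih => rw [sum_insert hi, sum_insert hi, qf_add, ih]

/-- The cut embedding. -/
noncomputable def emb {V : Type} (μ : Finset V → ℝ) (v : V) : PiLp 1 (fun _ : Finset V => ℝ) :=
  WithLp.toLp 1 fun S => μ S * ind S v

theorem norm_emb {V : Type} [Fintype V] (μ : Finset V → ℝ) (hμ : ∀ S, 0 ≤ μ S) (u v : V) :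
    ‖emb μ u - emb μ v‖ = cd μ u v := by
  rw [PiLp.norm_eq_of_L1, cd]
  refine sum_congr rfl fun S _ => ?_
  have h1 : (emb μ u - emb μ v) S = μ S * (ind S u - ind S v) := by
    simp [emb, mul_sub]
  rw [h1, Real.norm_eq_abs, abs_mul, abs_of_nonneg (hμ S)]
  congr 1
  unfold ind
  split_ifs <;> norm_num

theorem cost {V E : Type} [Fintype V] [Fintype E] (hR : RankStmt) (μ : Finset V → ℝ)
    (l : E → ℝ) (u v : E → V) :
    ∑ S, μ S * qf (∑ e, l e • vecMulVec (bv (u e) (v e)) (bv (u e) (v e))) (ind S) =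
      ∑ e, l e * cd μ (u e) (v e) := by
  simp only [hR.form, bv_dot, cd, mul_sum]
  rw [sum_comm]
  exact sum_congr rfl fun e _ => sum_congr rfl fun S _ => by ring

theorem piece {V E : Type} [Fintype V] [Fintype E] (hR : RankStmt) (l : E → ℝ) (u v : E → V)
    (hl : ∀ e, 0 ≤ l e) (e : E) (x : V → ℝ) : l e * (x (u e) - x (v e)) ^ 2 ≤
      qf (∑ e, l e • vecMulVec (bv (u e) (v e)) (bv (u e) (v e))) x := by
  simp only [hR.form, bv_dot]
  exact single_le_sum (f := fun e => l e * (x (u e) - x (v e)) ^ 2)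
    (fun e _ => mul_nonneg (hl e) (sq_nonneg _)) (mem_univ e)

theorem two_mul_le (η s : ℝ) (hη : 0 < η) : 2 * s - 1 / η * s ^ 2 ≤ η := by
  have h : η - (2 * s - 1 / η * s ^ 2) = (η - s) ^ 2 / η := by
    field_simp
    ring
  have : 0 ≤ (η - s) ^ 2 / η := by positivity
  linarith

end TDLAux

open TDLAux in
theorem tDL (hG : GeoStmt) (hL : LRStmt) (hR : RankStmt) (hC : ConnStmt) : DLStmt := by
  intro V E _ _ _ a b w σ η Q μ hη hη1 hσ hSt hU hμ
  obtain ⟨m, l, y, Y, lev, hl, hy, hlev, hsum⟩ :=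
    hG V _ E a b (emb μ) w σ η Q hη hη1 hσ hSt hU
  have htri : ∀ p q r s : V, cd μ p s ≤ cd μ q p + cd μ q r + cd μ r s := by
    intro p q r s
    simp only [← norm_emb μ hμ, ← dist_eq_norm]
    rw [dist_comm (emb μ q) (emb μ p)]
    exact dist_triangle4 _ _ _ _
  have hd0 : ∀ p q : V, 0 ≤ cd μ p q := fun p q => by
    rw [← norm_emb μ hμ]
    exact norm_nonneg _
  simp only [norm_emb μ hμ] at hy hlev hsum
  have hell : ∀ j : ℕ, 0 < l * 2 ^ j := fun j => by positivity
  have hmid := fun j : ℕ => hL V μ (Y j) (34 / η * (l * 2 ^ j)) (l * 2 ^ j) hμ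
    (by have := hell j; positivity) (hell j)
  choose D hD1 hD2 hD3 using hmid
  have hZ : ∑ S, μ S * (cut a b univ S : ℝ) = ∑ e, cd μ (a e) (b e) := by
    simp only [← hC.lapInd, lap, cd, mul_sum]
    exact sum_comm
  obtain ⟨l1, hl1⟩ : ∃ l1 : E → ℝ, ∀ e, l1 e = if 16 * w e < cd μ (a e) (b e) then 1 / 4 else 0 :=
    ⟨_, fun _ => rfl⟩
  obtain ⟨l2, hl2⟩ : ∃ l2 : E → ℝ,
      ∀ e, l2 e = if 0 < w e ∧ cd μ (a e) (b e) ≤ 16 * w e then 1 / η else 0 := ⟨_, fun _ => rfl⟩
  have p1 : ∀ e, 0 ≤ l1 e := fun e => by rw [hl1]; split_ifs <;> norm_num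
  have p2 : ∀ e, 0 ≤ l2 e := fun e => by rw [hl2]; split_ifs <;> positivity
  have s1 := hR.psd V E univ (fun e => bv (a e) (b e)) l1 fun e _ => p1 e
  have s2 := hR.psd V E univ (fun e => bv (a e) (y (lev e) (a e))) l2 fun e _ => p2 e
  have s3 := hR.psd V E univ (fun e => bv (b e) (y (lev e) (b e))) l2 fun e _ => p2 e
  have s4 : (∑ j ∈ range m, D j).PosSemidef := posSemidef_sum _ fun j _ => hD1 j
  refine ⟨_, fun e => if 16 * w e < cd μ (a e) (b e) then 4 else 4 * η,
    ((s1.add s2).add s3).add s4, ?_, ?_⟩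
  · intro e he x
    simp only [qf_add]
    have q1 := hR.qnonneg V _ x s1
    have q2 := hR.qnonneg V _ x s2
    have q3 := hR.qnonneg V _ x s3
    have q4 := hR.qnonneg V _ x s4
    split_ifs with h
    · have r1 := piece hR l1 a b p1 e x
      rw [hl1, if_pos h] at r1
      have := two_mul_le 4 (x (a e) - x (b e)) (by norm_num)
      linarith
    · push Not at h
      have r2 := piece hR l2 a (fun e => y (lev e) (a e)) p2 e x
      have r3 := piece hR l2 b (fun e => y (lev e) (b e)) p2 e x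
      rw [hl2, if_pos ⟨he, h⟩] at r2 r3
      obtain ⟨k1, k2, k3, k4, k5⟩ := hlev e he h
      have r4 : qf (D (lev e)) x ≤ qf (∑ j ∈ range m, D j) x := by
        rw [qf_sum]
        exact single_le_sum (f := fun j => qf (D j) x)
          (fun j _ => hR.qnonneg V _ x (hD1 j)) (mem_range.2 k1)
      have r5 := hD3 (lev e) _ k4 _ k5 x
      have t1 := two_mul_le η (x (a e) - x (y (lev e) (a e))) hη
      have t2 := two_mul_le η (-(x (b e) - x (y (lev e) (b e)))) hη
      rw [neg_sq] at t2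
      have hj := hell (lev e)
      have t3 : (cd μ (y (lev e) (a e)) (y (lev e) (b e)) + 2 * (l * 2 ^ lev e)) /
          (34 / η * (l * 2 ^ lev e)) ≤ 2 * η := by
        rw [div_le_iff₀ (by positivity)]
        have u1 : 2 * η * (34 / η * (l * 2 ^ lev e)) = 68 * (l * 2 ^ lev e) := by
          field_simp
          ring
        have u2 := htri (y (lev e) (a e)) (a e) (b e) (y (lev e) (b e))
        have u3 := hy (lev e) (a e)
        have u4 := hy (lev e) (b e)
        have u5 : η ^ 2 * (l * 2 ^ lev e) ≤ l * 2 ^ lev e :=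
          mul_le_of_le_one_left hj.le (by nlinarith)
        linarith
      linarith
  · simp only [qf_add, mul_add, sum_add_distrib]
    rw [cost hR μ l1 a b, cost hR μ l2 a (fun e => y (lev e) (a e)),
      cost hR μ l2 b (fun e => y (lev e) (b e)), hZ]
    have c4 : ∑ S, μ S * qf (∑ j ∈ range m, D j) (ind S) ≤
        34 / η * ∑ j ∈ range m, l * 2 ^ j * (Y j).card := by
      simp only [qf_sum, mul_sum]
      rw [sum_comm]
      exact sum_le_sum fun j _ => (hD2 j).trans (le_of_eq (by ring))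
    have c1 : ∑ e, (w e * (if 16 * w e < cd μ (a e) (b e) then 4 else 4 * η) +
        l1 e * cd μ (a e) (b e) + l2 e * cd μ (a e) (y (lev e) (a e)) +
        l2 e * cd μ (b e) (y (lev e) (b e))) ≤ ∑ e, (cd μ (a e) (b e) / 2 + 6 * η * w e) := by
      refine sum_le_sum fun e _ => ?_
      have w0 := hU.nonneg e
      have w1 : 0 ≤ η * w e := by positivity
      have d0 := hd0 (a e) (b e)
      rw [hl1, hl2]
      by_cases h : 16 * w e < cd μ (a e) (b e)
      · rw [if_pos h, if_pos h, if_neg fun h' => absurd h (not_lt.2 h'.2)]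
        linarith
      · rw [if_neg h, if_neg h]
        split_ifs with h'
        · obtain ⟨-, k2, -⟩ := hlev e h'.1 h'.2
          have v : ∀ c : ℝ, c ≤ η ^ 2 * (l * 2 ^ lev e) → 1 / η * c ≤ η * w e := by
            intro c hc
            have v1 : 1 / η * c ≤ 1 / η * (η ^ 2 * (l * 2 ^ lev e)) :=
              mul_le_mul_of_nonneg_left hc (by positivity)
            have v2 : 1 / η * (η ^ 2 * (l * 2 ^ lev e)) = η * (l * 2 ^ lev e) := by field_simp
            have v3 := mul_le_mul_of_nonneg_left k2 hη.le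
            linarith
          have := v _ (hy (lev e) (a e))
          have := v _ (hy (lev e) (b e))
          linarith
        · linarith
    simp only [sum_add_distrib, ← sum_div, ← mul_sum] at c1
    have z0 : 0 ≤ ∑ e, cd μ (a e) (b e) := sum_nonneg fun e _ => hd0 _ _
    linarith

end Vale.Agent.P061
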