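import Vale.Agent.P061.Stm

/-! P061: determinant lower bound through a sub-family. -/

open Finset Matrix
open scoped Classical

namespace Vale.Agent.P061

namespace TDetLowAux

variable {n ι : Type} [Fintype n]

theorem psd1 (hR : RankStmt) (c : n → ℝ) (l : ℝ) (hl : 0 ≤ l) : (l • vecMulVec c c).PosSemidef := by
  simpa using hR.psd n Unit univ (fun _ => c) (fun _ => l) fun _ _ => hl

theorem qf_add (A B : Matrix n n ℝ) (x : n → ℝ) : qf (A + B) x = qf A x + qf B x := by
  simp [qf, add_mulVec]

theorem one (hR : RankStmt) (A : Matrix n n ℝ) (c : n → ℝ) (l : ℝ) (hA : A.PosSemidef)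
    (h0 : 0 < l) (h1 : l ≤ 1) (h : (A + vecMulVec c c).PosDef) :
    (A + l • vecMulVec c c).PosDef ∧
      l * (A + vecMulVec c c).det ≤ (A + l • vecMulVec c c).det := by
  constructor
  · have e : A + l • vecMulVec c c = l • (A + vecMulVec c c) + (1 - l) • A := by module
    rw [e]
    exact (h.smul h0).add_posSemidef (hA.smul (sub_nonneg.2 h1))
  · have e : A + l • vecMulVec c c = (A + vecMulVec c c) + (l - 1) • vecMulVec c c := by module
    have hq := hR.le n _ c 1 1 h zero_le_one fun x => by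
      have := hR.form n Unit univ (fun _ => c) (fun _ => 1) x
      simp only [univ_unique, sum_singleton, one_smul] at this
      rw [qf_add, this]
      linarith [hR.qnonneg n A x hA]
    rw [e, hR.det n _ c _ h, mul_comm l]
    refine mul_le_mul_of_nonneg_left ?_ h.det_pos.le
    nlinarith

theorem step1 (hR : RankStmt) (c : ι → n → ℝ) (l : ι → ℝ) (hl : ∀ i, 0 < l i ∧ l i ≤ 1)
    (T : Finset ι) : ∀ B : Matrix n n ℝ, B.PosSemidef →
      (B + ∑ i ∈ T, vecMulVec (c i) (c i)).PosDef →
      (B + ∑ i ∈ T, l i • vecMulVec (c i) (c i)).PosDef ∧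
      (∏ i ∈ T, l i) * (B + ∑ i ∈ T, vecMulVec (c i) (c i)).det ≤
        (B + ∑ i ∈ T, l i • vecMulVec (c i) (c i)).det := by
  induction T using Finset.induction_on with
  | empty => exact fun B _ h => by simpa using h
  | insert i T hi ih =>
    intro B hB h
    rw [sum_insert hi, add_comm (vecMulVec _ _), ← add_assoc] at h
    have hA : (B + ∑ i ∈ T, vecMulVec (c i) (c i)).PosSemidef :=
      hB.add (by simpa using hR.psd n ι T c (fun _ => 1) fun _ _ => zero_le_one)
    obtain ⟨h1, h2⟩ := one hR _ (c i) (l i) hA (hl i).1 (hl i).2 h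
    rw [add_right_comm] at h1
    rw [add_right_comm, add_right_comm _ _ (l i • _)] at h2
    obtain ⟨h3, h4⟩ := ih _ (hB.add (psd1 hR (c i) (l i) (hl i).1.le)) h1
    rw [sum_insert hi, sum_insert hi, prod_insert hi, ← add_assoc, ← add_assoc]
    refine ⟨h3, le_trans ?_ h4⟩
    rw [mul_comm (l i), mul_assoc]
    exact mul_le_mul_of_nonneg_left h2 (prod_nonneg fun j _ => (hl j).1.le)

theorem step2 (hR : RankStmt) (c : ι → n → ℝ) (l : ι → ℝ) (hl : ∀ i, 0 < l i ∧ l i ≤ 1)
    (A : Matrix n n ℝ) (hA : A.PosDef) (T : Finset ι) :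
    A.det ≤ (A + ∑ i ∈ T, l i • vecMulVec (c i) (c i)).det := by
  induction T using Finset.induction_on with
  | empty => simp
  | insert i T hi ih =>
    have h := hA.add_posSemidef (hR.psd n ι T c l fun j _ => (hl j).1.le)
    rw [sum_insert hi, add_comm (l i • _), ← add_assoc, hR.det n _ _ _ h]
    refine ih.trans (le_mul_of_one_le_right h.det_pos.le ?_)
    linarith [mul_nonneg (hl i).1.le (hR.nonneg n _ (c i) h)]

end TDetLowAux

open TDetLowAux in
theorem tDetLow (hR : RankStmt) : DetLowStmt := by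
  intro n ι _ B F T c l hB hT hl h
  obtain ⟨h1, h2⟩ := step1 hR c l hl T B hB h
  refine h2.trans ((step2 hR c l hl _ h1 (F \ T)).trans_eq ?_)
  rw [add_assoc, add_comm (∑ i ∈ T, _), sum_sdiff hT]

end Vale.Agent.P061
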