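import Vale.Agent.P061.Stm

/-! P061: the dual form of the geometric lemma. -/

open Finset Matrix
open scoped Classical

namespace Vale.Agent.P061

namespace TDualAux

variable {V E : Type} [Fintype V] [Fintype E]

theorem qf_mix (A B : Matrix V V ℝ) (s t : ℝ) (x : V → ℝ) :
    qf (s • A + t • B) x = s * qf A x + t * qf B x := by
  unfold qf
  rw [add_mulVec, dotProduct_add, smul_mulVec, smul_mulVec, dotProduct_smul, dotProduct_smul,
    smul_eq_mul, smul_eq_mul]

theorem qf_zero (A : Matrix V V ℝ) : qf A 0 = 0 := by simp [qf]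

theorem qf_scalar (t : ℝ) (x : V → ℝ) : qf (t • (1 : Matrix V V ℝ)) x = t * ∑ v, x v ^ 2 := by
  unfold qf
  rw [smul_mulVec, one_mulVec, dotProduct_smul, smul_eq_mul]
  simp only [dotProduct, sq]

omit [Fintype V] in
theorem lap_nonneg (a b : E → V) (x : V → ℝ) : 0 ≤ lap a b univ x :=
  sum_nonneg fun _ _ => sq_nonneg _

omit [Fintype V] in
theorem le_one (a b : E → V) (e : E) (x : V → ℝ) : 2 * (x (a e) - x (b e)) - lap a b univ x ≤ 1 := by
  have h : (x (a e) - x (b e)) ^ 2 ≤ lap a b univ x :=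
    single_le_sum (f := fun e => (x (a e) - x (b e)) ^ 2) (fun _ _ => sq_nonneg _) (mem_univ e)
  nlinarith [sq_nonneg (x (a e) - x (b e) - 1)]

theorem convex (a b : E → V) : Convex ℝ (KK a b) := by
  rintro f ⟨f1, D, hD, f2, f3⟩ g ⟨g1, D', hD', g2, g3⟩ s t hs ht hst
  refine ⟨fun e => ?_, s • D + t • D', (hD.smul hs).add (hD'.smul ht), fun S hS => ?_,
    fun e x => ?_⟩
  · simp only [Pi.add_apply, Pi.smul_apply, smul_eq_mul]
    have h1 := mul_nonneg hs (f1 e).1
    have h2 := mul_nonneg ht (g1 e).1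
    have h3 := mul_le_mul_of_nonneg_left (f1 e).2 hs
    have h4 := mul_le_mul_of_nonneg_left (g1 e).2 ht
    constructor <;> linarith
  · rw [qf_mix]
    have h3 := mul_le_mul_of_nonneg_left (f2 S hS) hs
    have h4 := mul_le_mul_of_nonneg_left (g2 S hS) ht
    have h5 : s * (cut a b univ S : ℝ) + t * cut a b univ S = cut a b univ S := by
      rw [← add_mul, hst, one_mul]
    linarith
  · rw [qf_mix]
    simp only [Pi.add_apply, Pi.smul_apply, smul_eq_mul]
    have h3 := mul_le_mul_of_nonneg_left (f3 e x) hs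
    have h4 := mul_le_mul_of_nonneg_left (g3 e x) ht
    have h5 : s * (2 * (x (a e) - x (b e)) - lap a b univ x)
        + t * (2 * (x (a e) - x (b e)) - lap a b univ x)
        = 2 * (x (a e) - x (b e)) - lap a b univ x := by
      rw [← add_mul, hst, one_mul]
    linarith

theorem nonempty (a b : E → V) : (KK a b).Nonempty := by
  refine ⟨fun _ => 1, fun _ => ⟨zero_le_one, le_rfl⟩, 0, Matrix.PosSemidef.zero, fun S _ => ?_,
    fun e x => ?_⟩
  · simp [qf]
  · have h : qf (0 : Matrix V V ℝ) x = 0 := by simp [qf]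
    have := le_one a b e x
    linarith

/-- the feasible set -/
def CC (a b : E → V) (w : E → ℝ) : Set (Matrix V V ℝ × (E → ℝ)) :=
  {z | z.1.PosSemidef ∧ ∀ e, 0 < w e → ∀ x : V → ℝ, 2 * (x (a e) - x (b e)) - qf z.1 x ≤ z.2 e}

/-- the constraints -/
noncomputable def gg (a b : E → V) (w : E → ℝ) (η : ℝ) :
    Option (Finset V) → Matrix V V ℝ × (E → ℝ) → ℝ
  | none => fun z => ∑ e, w e * z.2 e - 8 * η * ∑ e, w e
  | some S => fun z => if Nt S then qf z.1 (ind S) - cut a b univ S else -1

theorem CC_convex (a b : E → V) (w : E → ℝ) : Convex ℝ (CC a b w) := by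
  rintro z ⟨z1, z2⟩ y ⟨y1, y2⟩ s t hs ht hst
  refine ⟨(z1.smul hs).add (y1.smul ht), fun e he x => ?_⟩
  show 2 * (x (a e) - x (b e)) - qf (s • z.1 + t • y.1) x ≤ s * z.2 e + t * y.2 e
  rw [qf_mix]
  have h3 := mul_le_mul_of_nonneg_left (z2 e he x) hs
  have h4 := mul_le_mul_of_nonneg_left (y2 e he x) ht
  have h5 : s * (2 * (x (a e) - x (b e))) + t * (2 * (x (a e) - x (b e)))
      = 2 * (x (a e) - x (b e)) := by
    rw [← add_mul, hst, one_mul]
  linarith

theorem gg_convex (a b : E → V) (w : E → ℝ) (η : ℝ) (i : Option (Finset V)) :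
    ConvexOn ℝ (CC a b w) (gg a b w η i) := by
  refine ⟨CC_convex a b w, fun z _ y _ s t _ _ hst => le_of_eq ?_⟩
  have key : ∀ c : ℝ, s * c + t * c = c := fun c => by rw [← add_mul, hst, one_mul]
  rcases i with _ | S
  · show ∑ e, w e * (s * z.2 e + t * y.2 e) - 8 * η * ∑ e, w e
      = s * (∑ e, w e * z.2 e - 8 * η * ∑ e, w e) + t * (∑ e, w e * y.2 e - 8 * η * ∑ e, w e)
    have h1 : ∑ e, w e * (s * z.2 e + t * y.2 e)
        = s * ∑ e, w e * z.2 e + t * ∑ e, w e * y.2 e := by
      rw [mul_sum, mul_sum, ← sum_add_distrib]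
      exact sum_congr rfl fun e _ => by ring
    have h2 := key (8 * η * ∑ e, w e)
    rw [h1]; linarith
  · show (if Nt S then qf (s • z.1 + t • y.1) (ind S) - cut a b univ S else -1)
      = s * (if Nt S then qf z.1 (ind S) - cut a b univ S else -1)
        + t * (if Nt S then qf y.1 (ind S) - cut a b univ S else -1)
    split_ifs
    · have h2 := key (cut a b univ S)
      rw [qf_mix]; linarith
    · exact (key _).symm

theorem first (hR : RankStmt) (a b : E → V) (w : E → ℝ) (η : ℝ) (hw : ∀ e, 0 ≤ w e)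
    (z : Matrix V V ℝ × (E → ℝ)) (hz : z ∈ CC a b w) (hg : ∀ i, gg a b w η i z < 0) :
    ∃ f ∈ KK a b, ∑ e, w e * f e ≤ 8 * η * ∑ e, w e := by
  obtain ⟨z1, z2⟩ := hz
  refine ⟨fun e => if 0 < w e then min (z.2 e) 1 else 1, ⟨fun e => ?_, z.1, z1, fun S hS => ?_,
    fun e x => ?_⟩, ?_⟩
  · beta_reduce
    split_ifs with he
    · have h := z2 e he 0
      rw [qf_zero] at h
      exact ⟨le_min (by simpa using h) zero_le_one, min_le_right _ _⟩
    · exact ⟨zero_le_one, le_rfl⟩
  · have h : (if Nt S then qf z.1 (ind S) - cut a b univ S else -1) < 0 := hg (some S)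
    rw [if_pos hS] at h
    linarith
  · have h1 := le_one a b e x
    have h2 := hR.qnonneg V z.1 x z1
    beta_reduce
    split_ifs with he
    · have h3 := z2 e he x
      have h4 := lap_nonneg a b x
      exact le_min (by linarith) (by linarith)
    · linarith
  · have h : ∑ e, w e * z.2 e - 8 * η * ∑ e, w e < 0 := hg none
    have h1 : ∑ e, w e * (if 0 < w e then min (z.2 e) 1 else 1) ≤ ∑ e, w e * z.2 e := by
      refine sum_le_sum fun e _ => ?_
      split_ifs with he
      · exact mul_le_mul_of_nonneg_left (min_le_left _ _) (hw e)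
      · rw [le_antisymm (not_lt.1 he) (hw e), zero_mul, zero_mul]
    linarith

theorem scalar_mem (a b : E → V) (w : E → ℝ) (τ : ℝ) (hτ : 0 < τ) :
    ((τ • (1 : Matrix V V ℝ), fun _ => 4 / τ) : Matrix V V ℝ × (E → ℝ)) ∈ CC a b w := by
  refine ⟨Matrix.PosSemidef.one.smul hτ.le, fun e _ x => ?_⟩
  show 2 * (x (a e) - x (b e)) - qf (τ • (1 : Matrix V V ℝ)) x ≤ 4 / τ
  rw [qf_scalar, le_div_iff₀ hτ]
  have h1 : ∀ u, x u ^ 2 ≤ ∑ v, x v ^ 2 := fun u =>
    single_le_sum (f := fun v => x v ^ 2) (fun _ _ => sq_nonneg _) (mem_univ u)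
  have h2 := mul_le_mul_of_nonneg_left (h1 (a e)) (mul_pos hτ hτ).le
  have h3 := mul_le_mul_of_nonneg_left (h1 (b e)) (mul_pos hτ hτ).le
  nlinarith [sq_nonneg (τ * x (a e) - 2), sq_nonneg (τ * x (b e) + 2)]

end TDualAux

open TDualAux in
theorem tDual (hD : DLStmt) (hF : FGHStmt) (hC : ConnStmt) (hR : RankStmt) : DualStmt := by
  refine ⟨fun V E _ _ a b => convex a b, fun V E _ _ a b => nonempty a b, ?_⟩
  intro V E _ _ _ a b w σ η Pi hη hη1 hσ hS hU hW
  rcases hF _ _ (CC a b w) (gg a b w η) (CC_convex a b w) (gg_convex a b w η) with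
    ⟨z, hz, hg⟩ | ⟨lam, l0, l1, l2⟩
  · exact first hR a b w η hU.nonneg z hz hg
  exfalso
  rw [Fintype.sum_option] at l1
  rcases (l0 none).lt_or_eq with hl | hl
  · obtain ⟨D, f, d1, d2, d3⟩ := hD V E a b w σ η Pi
      (fun S => if Nt S then lam (some S) / lam none else 0) hη hη1 hσ hS hU fun S => by
        split_ifs
        · exact div_nonneg (l0 _) hl.le
        · exact le_rfl
    have h1 := l2 (D, f) ⟨d1, d2⟩
    rw [Fintype.sum_option] at h1
    have h2 : ∑ S, lam (some S) * gg a b w η (some S) (D, f) ≤ lam none *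
        (∑ S, (if Nt S then lam (some S) / lam none else 0) * qf D (ind S)
          - ∑ S, (if Nt S then lam (some S) / lam none else 0) * cut a b univ S) := by
      rw [← sum_sub_distrib, mul_sum]
      refine sum_le_sum fun S _ => ?_
      show lam (some S) * (if Nt S then qf D (ind S) - cut a b univ S else -1) ≤ _
      split_ifs
      · refine le_of_eq ?_
        field_simp
      · have := l0 (some S)
        linarith
    have h3 : gg a b w η none (D, f) = ∑ e, w e * f e - 8 * η * ∑ e, w e := rfl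
    rw [h3] at h1
    have h4 := mul_le_mul_of_nonneg_left d3 hl.le
    have h5 := mul_pos hl (mul_pos hη hW)
    linarith
  · have hn : (0 : ℝ) < Fintype.card V := Nat.cast_pos.2 Fintype.card_pos
    have h1 := l2 _ (scalar_mem a b w (1 / Fintype.card V) (by positivity))
    rw [Fintype.sum_option, ← hl, zero_mul, zero_add] at h1
    have hσ2 : 2 ≤ σ := by
      refine le_trans ?_ hσ
      rw [le_div_iff₀ (by positivity)]
      have : η ^ 5 ≤ 1 := pow_le_one₀ hη.le hη1
      linarith
    have h2 : ∀ S, gg a b w η (some S) (((1 / Fintype.card V : ℝ) • (1 : Matrix V V ℝ),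
        fun _ => 4 / (1 / Fintype.card V : ℝ)) : Matrix V V ℝ × (E → ℝ)) ≤ -1 := fun S => by
      show (if Nt S then qf ((1 / Fintype.card V : ℝ) • (1 : Matrix V V ℝ)) (ind S)
        - cut a b univ S else -1) ≤ -1
      split_ifs with hN
      · have h3 := hC.toCut V E a b univ σ S hS hN
        have h4 : ∑ v, ind S v ^ 2 ≤ Fintype.card V := by
          have h5 : ∑ v, ind S v ^ 2 ≤ ∑ _v : V, (1 : ℝ) :=
            sum_le_sum fun v _ => by unfold ind; split_ifs <;> norm_num
          simpa using h5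
        have h6 : 1 / (Fintype.card V : ℝ) * ∑ v, ind S v ^ 2 ≤ 1 := by
          rw [one_div, inv_mul_le_iff₀ hn]; linarith
        rw [qf_scalar]; linarith
      · exact le_rfl
    have h7 := sum_le_sum fun S (_ : S ∈ (univ : Finset (Finset V))) =>
      mul_le_mul_of_nonneg_left (h2 S) (l0 (some S))
    rw [← sum_mul] at h7
    linarith

end Vale.Agent.P061
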