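import Vale.Agent.P061.Stm

open Finset Matrix
open scoped Classical

namespace Vale.Agent.P061

namespace TDyJAux

theorem sum_mul_range (f : ℕ → ℝ) (g m : ℕ) :
    ∑ j ∈ range (g * m), f j = ∑ s ∈ range g, ∑ i ∈ range m, f (s + g * i) := by
  induction m with
  | zero => simp
  | succ m ih =>
    rw [Nat.mul_succ, Finset.sum_range_add, ih, ← Finset.sum_add_distrib]
    refine Finset.sum_congr rfl fun s _ => ?_
    rw [Finset.sum_range_succ, add_comm s (g * m)]

end TDyJAux

theorem tDyJ (hK : KrStmt) (hJ : JonesStmt) : DyJStmt := by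
  intro V A E _ _ _ _ _ a b X σ L r g m Y hσ hG hL hr hg hY
  obtain ⟨T, -, -, hgen, hT⟩ := hK V E a b univ ⊥ ⊤ σ (fun e => ‖X (a e) - X (b e)‖) hσ bot_le hG
    fun e => norm_nonneg _
  have hZ : ∑ e ∈ T, ‖X (a e) - X (b e)‖ ≤ (∑ e, ‖X (a e) - X (b e)‖) / σ := by
    rw [le_div_iff₀ hσ, mul_comm]
    exact hT.trans (Finset.sum_le_sum_of_subset_of_nonneg (subset_univ _)
      fun e _ _ => norm_nonneg _)
  have hg1 : 1 ≤ g := by
    have : (1 : ℝ) ≤ g := by linarith
    exact_mod_cast this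
  have hM : 20 * L ≤ (2 : ℝ) ^ g := hg.trans (by exact_mod_cast (Nat.lt_two_pow_self).le)
  have key : ∀ s i : ℕ, r * 2 ^ s * ((2 : ℝ) ^ g) ^ i = r * 2 ^ (s + g * i) := fun s i => by
    rw [pow_add, pow_mul, mul_assoc]
  calc ∑ j ∈ range m, r * 2 ^ j * ((rich X (Y j) (L * (r * 2 ^ j)) (48 * L)).card : ℝ)
      ≤ ∑ j ∈ range (g * m), r * 2 ^ j * ((rich X (Y j) (L * (r * 2 ^ j)) (48 * L)).card : ℝ) :=
        Finset.sum_le_sum_of_subset_of_nonneg
          (Finset.range_subset_range.2 (Nat.le_mul_of_pos_left m hg1)) fun j _ _ => by positivity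
    _ ≤ ∑ _s ∈ range g, 8 * (∑ e, ‖X (a e) - X (b e)‖) / σ := by
        rw [TDyJAux.sum_mul_range]
        refine Finset.sum_le_sum fun s _ => ?_
        have := hJ V A E a b X T L (r * 2 ^ s) (2 ^ g) m (fun i => Y (s + g * i)) hgen hL
          (by positivity) hM fun i => by rw [key]; exact hY _
        simp only [key] at this
        refine this.trans ?_
        rw [mul_div_assoc]
        linarith
    _ = _ := by simp

end Vale.Agent.P061
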