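import Vale.Agent.P061.Stm

open Finset Matrix
open scoped Classical

namespace Vale.Agent.P061

namespace TDySAux

theorem reidx (f : ℕ → ℝ) (m : ℕ) :
    ∑ j ∈ range (7 * m), f j = ∑ s ∈ range 7, ∑ i ∈ range m, f (s + 7 * i) := by
  induction m with
  | zero => simp
  | succ m ih =>
    rw [Nat.mul_succ, sum_range_add, ih, ← sum_add_distrib]
    refine sum_congr rfl fun s _ => ?_
    rw [sum_range_succ, add_comm s (7 * m)]

variable {V E : Type} [Fintype E]

/-- total length of the edges inside the classes of `P` -/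
noncomputable def g (a b : E → V) (d : E → ℝ) (P : Setoid V) : ℝ :=
  ∑ e, if P (a e) (b e) then d e else 0

theorem g_le (a b : E → V) (d : E → ℝ) (hd : ∀ e, 0 ≤ d e) (P : Setoid V) :
    g a b d P ≤ ∑ e, d e :=
  sum_le_sum fun e _ => by split_ifs <;> simp [hd e]

theorem g_nonneg (a b : E → V) (d : E → ℝ) (hd : ∀ e, 0 ≤ d e) (P : Setoid V) : 0 ≤ g a b d P :=
  sum_nonneg fun e _ => by split_ifs <;> simp [hd e]

theorem g_step (a b : E → V) (d : E → ℝ) {P Q : Setoid V} (h : P ≤ Q) :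
    g a b d P + ∑ e ∈ xs2 a b univ P Q, d e ≤ g a b d Q := by
  unfold g xs2
  rw [sum_filter, ← sum_add_distrib]
  refine sum_le_sum fun e _ => ?_
  by_cases h1 : P (a e) (b e)
  · have h2 : Q (a e) (b e) := h h1
    simp [h1, h2]
  · simp [h1]

end TDySAux

open TDySAux in
theorem tDyS (hN : NclStmt) (hK : KrStmt) (hT : TowerStmt) : DySStmt := by
  intro V A E _ _ _ _ _ a b X σ ρ Pi hσ hρ hm hg
  have hd : ∀ e, 0 ≤ ‖X (a e) - X (b e)‖ := fun e => norm_nonneg _
  choose T t1 t2 t3 t4 using fun j => hK V E a b univ (Pi j) (Pi (j + 7)) σ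
    (fun e => ‖X (a e) - X (b e)‖) hσ (hm (Nat.le_add_right j 7)) (hg _) hd
  refine ⟨T, fun j => ?_, fun I m hL => ?_⟩
  · have := t2 j
    have := hN.pos V (Pi (j + 7))
    omega
  have key : ∀ s : ℕ, ∑ i ∈ range m, ρ * 2 ^ (s + 7 * i) * ((I (s + 7 * i)).card : ℝ) ≤
      4 * (∑ e, ‖X (a e) - X (b e)‖) / σ +
        ∑ i ∈ range m, ρ * 2 ^ (s + 7 * i) * ((T (s + 7 * i)).card : ℝ) := by
    intro s
    obtain ⟨T0, u1, -, u3, u4⟩ := hK V E a b univ ⊥ (Pi s) σ
      (fun e => ‖X (a e) - X (b e)‖) hσ bot_le (hg _) hd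
    have e : ∀ i : ℕ, ρ * 2 ^ s * 128 ^ i = ρ * 2 ^ (s + 7 * i) := fun i => by
      rw [pow_add, pow_mul]
      norm_num [mul_assoc]
    have h1 := hT V A E a b X m (fun i => Pi (s + 7 * i)) T0 (fun i => T (s + 7 * i))
      (fun i => I (s + 7 * i)) (ρ * 2 ^ s) (by positivity)
      (fun i j hij => hm (by omega)) (fun e he => (mem_filter.1 (u1 he)).2.2) u3
      (fun i => ⟨t1 _, t3 _, by rw [e]; exact hL _⟩)
    have h2 : ∀ k : ℕ, σ * (∑ e ∈ T0, ‖X (a e) - X (b e)‖ +
        ∑ i ∈ range k, ∑ e ∈ T (s + 7 * i), ‖X (a e) - X (b e)‖) ≤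
        g a b (fun e => ‖X (a e) - X (b e)‖) (Pi (s + 7 * k)) := by
      intro k
      induction k with
      | zero =>
        have a1 := g_step a b (fun e => ‖X (a e) - X (b e)‖) (bot_le (a := Pi s))
        have a2 := g_nonneg a b (fun e => ‖X (a e) - X (b e)‖) hd ⊥
        simp only [range_zero, sum_empty, add_zero, mul_zero]
        linarith
      | succ k ih =>
        have a1 := g_step a b (fun e => ‖X (a e) - X (b e)‖)
          (hm (Nat.le_add_right (s + 7 * k) 7))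
        have a2 := t4 (s + 7 * k)
        rw [sum_range_succ, ← add_assoc, mul_add]
        exact le_trans (by linarith) a1
    have h3 := (h2 m).trans (g_le a b _ hd _)
    have h4 : ∑ e ∈ T0, ‖X (a e) - X (b e)‖ +
        ∑ i ∈ range m, ∑ e ∈ T (s + 7 * i), ‖X (a e) - X (b e)‖ ≤
        (∑ e, ‖X (a e) - X (b e)‖) / σ := by
      rw [le_div_iff₀' hσ]
      exact h3
    have h5 : 0 ≤ (∑ e, ‖X (a e) - X (b e)‖) / σ := div_nonneg (sum_nonneg fun e _ => hd e) hσ.le
    simp only [e] at h1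
    rw [sum_add_distrib, ← mul_sum] at h1
    rw [mul_div_assoc]
    linarith
  rw [reidx, reidx]
  refine (sum_le_sum fun s _ => key s).trans (le_of_eq ?_)
  rw [sum_add_distrib, sum_const, card_range, nsmul_eq_mul]
  congr 1
  push_cast
  ring

end Vale.Agent.P061
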