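import Vale.Agent.P061.Stm

open Finset Matrix
open scoped Classical

namespace Vale.Agent.P061

namespace TFGHAux

theorem apply_eq {ι : Type} [Fintype ι] (f : (ι → ℝ) →L[ℝ] ℝ) (z : ι → ℝ) :
    f z = ∑ i, z i * f (Pi.single i 1) := by
  conv_lhs => rw [pi_eq_sum_univ' z]
  rw [map_sum]
  refine sum_congr rfl fun i _ => ?_
  rw [map_smul, smul_eq_mul]

theorem nonneg_of_forall {a b : ℝ} (h : ∀ t : ℝ, 0 < t → 0 < a + t * b) : 0 ≤ a := by
  by_contra hcon
  push Not at hcon
  have h1 := h (-a / (|b| + 1)) (div_pos (by linarith) (by positivity))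
  have h2 : -a / (|b| + 1) * b ≤ -a := by
    rw [div_mul_eq_mul_div, div_le_iff₀ (by positivity)]
    have := le_abs_self b
    nlinarith
  linarith

theorem nonneg_of_forall' {a b : ℝ} (h : ∀ t : ℝ, 0 < t → 0 < a + t * b) : 0 ≤ b := by
  by_contra hcon
  push Not at hcon
  have h1 := h ((|a| + 1) / -b) (div_pos (by positivity) (by linarith))
  have h2 : (|a| + 1) / -b * b = -(|a| + 1) := by
    field_simp [hcon.ne]
  have := le_abs_self a
  linarith

end TFGHAux

open TFGHAux in
theorem tFGH : FGHStmt := by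
  intro X ι _ _ _ _ C g hC hg
  have hcard : (0 : ℝ) < Fintype.card ι := by exact_mod_cast Fintype.card_pos
  rcases C.eq_empty_or_nonempty with rfl | ⟨x0, hx0⟩
  · refine Or.inr ⟨fun _ => (Fintype.card ι : ℝ)⁻¹, fun _ => by positivity, ?_, by simp⟩
    rw [sum_const, card_univ, nsmul_eq_mul, mul_inv_cancel₀ hcard.ne']
  by_cases h0 : ∃ x ∈ C, ∀ i, g i x < 0
  · exact Or.inl h0
  right
  set U : Set (ι → ℝ) := {z | ∃ x ∈ C, ∀ i, g i x < z i} with hU
  have hconv : Convex ℝ U := by
    rintro z ⟨x, hx, hz⟩ w ⟨y, hy, hw⟩ a b ha hb hab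
    refine ⟨a • x + b • y, hC hx hy ha hb hab, fun i => ?_⟩
    have h1 := (hg i).2 hx hy ha hb hab
    have h2 := hz i
    have h3 := hw i
    simp only [smul_eq_mul, Pi.add_apply, Pi.smul_apply] at h1 ⊢
    rcases ha.eq_or_lt with h4 | h4
    · have h5 : b = 1 := by linarith
      subst h4 h5
      linarith
    · nlinarith [mul_le_mul_of_nonneg_left h3.le hb, mul_lt_mul_of_pos_left h2 h4]
  have hopen : IsOpen U := by
    have h1 : U = ⋃ x ∈ C, ⋂ i, {z : ι → ℝ | g i x < z i} := by
      ext z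
      simp [hU]
    rw [h1]
    exact isOpen_biUnion fun x _ => isOpen_iInter_of_finite fun i =>
      isOpen_lt continuous_const (continuous_apply i)
  obtain ⟨f, hf⟩ := geometric_hahn_banach_open_point hconv hopen (x := 0) h0
  set l : ι → ℝ := fun i => -f (Pi.single i 1) with hl
  have key : ∀ x ∈ C, ∀ z : ι → ℝ, (∀ i, g i x < z i) → 0 < ∑ i, l i * z i := by
    intro x hx z hz
    have h1 := hf z ⟨x, hx, hz⟩
    rw [map_zero, apply_eq] at h1
    have h2 : ∑ i, l i * z i = -∑ i, z i * f (Pi.single i 1) := by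
      rw [← sum_neg_distrib]
      exact sum_congr rfl fun i _ => by simp only [hl]; ring
    linarith
  have hl0 : ∀ j, 0 ≤ l j := by
    intro j
    refine nonneg_of_forall' (a := ∑ i, l i * (g i x0 + 1)) fun t ht => ?_
    have h1 := key x0 hx0 (fun i => g i x0 + 1 + if i = j then t else 0) fun i => by
      split_ifs <;> linarith
    simp only [mul_add (l _) (g _ x0 + 1), sum_add_distrib, mul_ite, mul_zero, sum_ite_eq',
      mem_univ, if_true] at h1
    linarith
  have hs : 0 < ∑ i, l i := by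
    rcases (sum_nonneg fun i (_ : i ∈ univ) => hl0 i).eq_or_lt with h1 | h1
    · have h2 := (sum_eq_zero_iff_of_nonneg fun i (_ : i ∈ univ) => hl0 i).1 h1.symm
      have h3 := key x0 hx0 (fun i => g i x0 + 1) fun i => by linarith
      rw [sum_eq_zero fun i hi => by rw [h2 i hi, zero_mul]] at h3
      exact absurd h3 (lt_irrefl _)
    · exact h1
  refine ⟨fun i => (∑ i, l i)⁻¹ * l i, fun i => mul_nonneg (inv_pos.2 hs).le (hl0 i), ?_,
    fun x hx => ?_⟩
  · rw [← mul_sum, inv_mul_cancel₀ hs.ne']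
  · simp only [mul_assoc]
    rw [← mul_sum]
    refine mul_nonneg (inv_pos.2 hs).le ?_
    refine nonneg_of_forall (b := ∑ i, l i) fun t ht => ?_
    have h1 := key x hx (fun i => g i x + t) fun i => by linarith
    simp only [mul_add, sum_add_distrib] at h1
    rw [← sum_mul, mul_comm] at h1
    exact h1

end Vale.Agent.P061
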