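import Vale.Agent.P061.Stm

/-! P061: the fixed point argument producing a strongly connected set of cheap edges. -/

open Finset Matrix
open scoped Classical

namespace Vale.Agent.P061

namespace TFPAux

variable {V E : Type} [Fintype V] [Fintype E] (a b : E → V)

theorem cont_wts : Continuous (wts a b) := by
  refine continuous_pi fun e => ?_
  unfold wts
  fun_prop

theorem sum_wts (k : Setoid V → ℝ) (g : E → ℝ) :
    ∑ e, wts a b k e * g e = ∑ P : Setoid V, k P * ∑ e ∈ xs a b univ P, g e := by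
  simp only [wts, sum_mul, mul_sum, xs, sum_filter]
  rw [sum_comm]
  refine sum_congr rfl fun P _ => sum_congr rfl fun e _ => ?_
  by_cases h : P (a e) (b e) <;> simp [h]

theorem gval_top [Nonempty V] (hN : NclStmt) (x : E → ℝ) (σ : ℝ) : gval a b x σ ⊤ = -σ := by
  simp [gval, xs, hN.top V]

theorem sum_le (f : E → ℝ) (β : ℝ) (hβ : 0 < β) (h0 : ∀ e, 0 ≤ f e) (P : Setoid V) :
    ∑ e ∈ xs a b univ P, max (1 / ((Fintype.card E : ℝ) + 1)) (1 - f e / β) ≤
      (xs a b (univ.filter fun e => f e < β) P).card + 1 := by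
  have hθ : (0 : ℝ) < 1 / ((Fintype.card E : ℝ) + 1) := by positivity
  calc _ ≤ ∑ e ∈ xs a b univ P, ((if f e < β then 1 else 0) + 1 / ((Fintype.card E : ℝ) + 1)) := by
        refine sum_le_sum fun e _ => max_le ?_ ?_
        · split_ifs <;> linarith
        · split_ifs with h
          · linarith [div_nonneg (h0 e) hβ.le]
          · linarith [(one_le_div hβ).2 (not_lt.1 h)]
    _ ≤ _ := by
        rw [sum_add_distrib, sum_boole, sum_const, nsmul_eq_mul]
        refine add_le_add (le_of_eq ?_) ?_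
        · congr 2
          ext e
          simp [xs, and_comm]
        · have : ((xs a b univ P).card : ℝ) ≤ Fintype.card E := by exact_mod_cast card_le_univ _
          rw [mul_one_div, div_le_one (by positivity)]
          linarith

end TFPAux

open TFPAux in
theorem tFP (hNa : NashStmt) (hS : SelStmt) (hL : LatStmt) (hN : NclStmt) (hC : ConnStmt) :
    FPStmt := by
  intro V E _ _ _ a b K s σ c β hK hne hb hσ hc hβ hs hσs hst hU
  obtain ⟨φ, hφ, Hφ⟩ := hS (Setoid V) E K (wts a b) (c * s) hK hne hb (cont_wts a b) (by positivity)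
  obtain ⟨x, hx⟩ : ∃ x : (Setoid V → ℝ) → E → ℝ,
      x = fun k e => max (1 / ((Fintype.card E : ℝ) + 1)) (1 - φ k e / β) := ⟨_, rfl⟩
  have hθ : (0 : ℝ) < 1 / ((Fintype.card E : ℝ) + 1) := by positivity
  have hx1 : ∀ k e, 0 < x k e ∧ x k e ≤ 1 := fun k e => by
    rw [hx]
    refine ⟨hθ.trans_le (le_max_left _ _), max_le ?_ ?_⟩
    · rw [div_le_one (by positivity)]
      linarith [Nat.cast_nonneg (α := ℝ) (Fintype.card E)]
    · linarith [div_nonneg (hb _ (Hφ k).1 e).1 hβ.le]
  obtain ⟨k, hk, H⟩ := hNa (Setoid V) (fun k P => gval a b (x k) σ P) fun P => by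
    simp only [gval, hx]
    refine Continuous.sub (continuous_finsetSum _ fun e _ => ?_) continuous_const
    exact continuous_const.max (continuous_const.sub
      (((continuous_apply e).comp hφ).div_const β))
  by_cases hA : ∀ Q, -σ ≤ gval a b (x k) σ Q
  · refine ⟨φ k, (Hφ k).1, fun P => ?_⟩
    have h1 := hA P
    have h2 := sum_le a b (φ k) β hβ (fun e => (hb _ (Hφ k).1 e).1) P
    simp only [gval, hx] at h1
    rcases (hN.pos V P).eq_or_lt with h | h
    · rw [← h]; simp
    · have : (2 : ℝ) ≤ ncl P := by exact_mod_cast h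
      nlinarith
  exfalso
  obtain ⟨Q, hQ⟩ := not_forall.1 hA
  obtain ⟨γ, hγ⟩ : ∃ γ, γ = -σ - gval a b (x k) σ Q := ⟨_, rfl⟩
  have hγ0 : 0 < γ := by linarith [not_le.1 hQ]
  have hσs' : σ ≤ s := by
    have : 0 ≤ s * (2 * c / β) := by positivity
    linarith
  have key : ∀ P, 0 < k P → s ≤ (xs a b univ P).card ∧
      ∑ e ∈ xs a b univ P, x k e ≤ σ / s * (xs a b univ P).card - γ := fun P hP => by
    have h1 : gval a b (x k) σ P ≤ gval a b (x k) σ Q := H P hP Q
    have h2 : ∑ e ∈ xs a b univ P, x k e ≤ σ * ((ncl P : ℝ) - 1) - γ := by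
      rw [hγ]
      unfold gval at h1 ⊢
      linarith
    have h3 : 0 ≤ ∑ e ∈ xs a b univ P, x k e := sum_nonneg fun e _ => (hx1 k e).1.le
    have h4 : (1 : ℝ) < ncl P := by
      by_contra h
      nlinarith [not_lt.1 h]
    have h5 : (2 : ℝ) ≤ ncl P := by
      have : 1 < ncl P := by exact_mod_cast h4
      exact_mod_cast this
    have h6 := hst P
    refine ⟨by nlinarith, h2.trans (sub_le_sub_right ?_ _)⟩
    rw [div_mul_eq_mul_div, le_div_iff₀ hs]
    nlinarith
  have hW : ∑ e, wts a b k e = ∑ P : Setoid V, k P * (xs a b univ P).card := by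
    simpa using sum_wts a b k fun _ => 1
  have hW1 : s ≤ ∑ e, wts a b k e := by
    rw [hW]
    calc s = ∑ P : Setoid V, k P * s := by rw [← sum_mul, hk.2, one_mul]
      _ ≤ _ := sum_le_sum fun P _ => by
        rcases (hk.1 P).eq_or_lt with h | h
        · rw [← h, zero_mul, zero_mul]
        · exact mul_le_mul_of_nonneg_left (key P h).1 h.le
  have hW2 : ∑ e, wts a b k e * x k e ≤ σ / s * ∑ e, wts a b k e - γ := by
    rw [sum_wts, hW]
    calc _ ≤ ∑ P : Setoid V, k P * (σ / s * (xs a b univ P).card - γ) :=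
          sum_le_sum fun P _ => by
            rcases (hk.1 P).eq_or_lt with h | h
            · rw [← h, zero_mul, zero_mul]
            · exact mul_le_mul_of_nonneg_left (key P h).2 h.le
      _ = _ := by
          simp only [mul_sub, sum_sub_distrib]
          rw [← sum_mul, hk.2, one_mul, mul_sum]
          congr 1
          exact sum_congr rfl fun P _ => by ring
  obtain ⟨Pi, hPi⟩ := hL V E a b (x k) σ k hσ.le (hx1 k) hk.1
    (hC.good V E a b univ σ (hC.mono V E a b univ s σ hσs' hst)) H
  obtain ⟨f, hf, h1⟩ := hU _ Pi hPi (hs.trans_le hW1)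
  have h2 := (Hφ k).2 f hf
  have h3 : ∑ e, wts a b k e * φ k e ≤ 2 * c * ∑ e, wts a b k e := by nlinarith
  have h4 : ∑ e, wts a b k e - (∑ e, wts a b k e * φ k e) / β ≤ ∑ e, wts a b k e * x k e := by
    rw [sum_div, ← sum_sub_distrib]
    refine sum_le_sum fun e _ => ?_
    have : 1 - φ k e / β ≤ x k e := by rw [hx]; exact le_max_right _ _
    calc _ = wts a b k e * (1 - φ k e / β) := by ring
      _ ≤ _ := mul_le_mul_of_nonneg_left this (hPi.nonneg e)
  have h5 : (∑ e, wts a b k e * φ k e) / β ≤ 2 * c / β * ∑ e, wts a b k e := by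
    rw [div_mul_eq_mul_div]
    exact div_le_div_of_nonneg_right h3 hβ.le
  have h6 : σ / s ≤ 1 - 2 * c / β := by rw [div_le_iff₀ hs]; linarith
  nlinarith [mul_le_mul_of_nonneg_right h6 (hs.trans_le hW1).le]

end Vale.Agent.P061
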