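import Vale.Agent.P061.Stm

open Finset Matrix
open scoped Classical

namespace Vale.Agent.P061

namespace TForestAux

variable {V A : Type}

/-- a root is reached from `p` by a walk of exactly `n` steps -/
def Rn (S : Sk V A) (P : Setoid V) : ℕ → ℕ → Prop
  | 0, p => p ∈ S.N ∧ ∀ q ∈ S.N, P (S.own p) (S.own q) → p ≤ q
  | n + 1, p => ∃ q, S.adj p q ∧ Rn S P n q

theorem ex [NormedAddCommGroup A] {S : Sk V A} {ε : ℝ} {P : Setoid V} (h : S.Ok ε P) {p : ℕ}
    (hp : p ∈ S.N) : ∃ n, Rn S P n p := by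
  have hex : ∃ r, r ∈ S.N ∧ P (S.own p) (S.own r) := ⟨p, hp, P.refl' _⟩
  obtain ⟨h1, h2⟩ := Nat.find_spec hex
  have h0 : Rn S P 0 (Nat.find hex) := ⟨h1, fun q hq hr => Nat.find_min' hex ⟨hq, P.trans' h2 hr⟩⟩
  have hc := h.conn p hp _ h1 h2
  generalize Nat.find hex = r at h0 hc
  clear hex h1 h2 hp
  induction hc using Relation.ReflTransGen.head_induction_on with
  | refl => exact ⟨0, h0⟩
  | head a _ ih =>
    obtain ⟨n, hn⟩ := ih
    exact ⟨n + 1, _, a, hn⟩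

end TForestAux

open TForestAux in
theorem tForest : ForestStmt := by
  intro V A _ S ε P h
  obtain ⟨dep, hdep⟩ : ∃ dep : ℕ → ℕ, ∀ p, dep p = sInf {n | Rn S P n p} := ⟨_, fun _ => rfl⟩
  have hmem : ∀ p ∈ S.N, Rn S P (dep p) p := fun p hp => by
    rw [hdep]
    exact Nat.sInf_mem (ex h hp)
  have hle : ∀ p n, Rn S P n p → dep p ≤ n := fun p n hn => by
    rw [hdep]
    exact Nat.sInf_le hn
  have key : ∀ p, ∃ q, (dep p = 0 → q = p) ∧
      (p ∈ S.N → dep p ≠ 0 → S.adj p q ∧ dep q + 1 = dep p) := by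
    intro p
    by_cases h0 : dep p = 0
    · exact ⟨p, fun _ => rfl, fun _ h1 => absurd h0 h1⟩
    by_cases hp : p ∈ S.N
    · obtain ⟨n, hn⟩ := Nat.exists_eq_succ_of_ne_zero h0
      have h1 := hmem p hp
      rw [hn] at h1
      obtain ⟨q, a, b⟩ := h1
      refine ⟨q, fun h1 => absurd h1 h0, fun _ _ => ⟨a, le_antisymm ?_ ?_⟩⟩
      · have := hle q n b
        omega
      · exact hle p _ ⟨q, a, hmem q (h.mem p q a).2⟩
    · exact ⟨p, fun _ => rfl, fun h1 => absurd h1 hp⟩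
  choose par h1 h2 using key
  refine ⟨par, dep, fun p _ => h1 p, h2, fun p hp q hq a b c => ?_⟩
  have e1 := hmem p hp
  have e2 := hmem q hq
  rw [a] at e1
  rw [b] at e2
  exact le_antisymm (e1.2 q hq c) (e2.2 p hp (P.symm' c))

end Vale.Agent.P061
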