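import Vale.Agent.P061.Stm

open Finset Matrix
open scoped Classical

namespace Vale.Agent.P061

namespace TGeoAux

theorem arith (η Z W z v L g SY SR SI ST : ℝ) (hη : 0 < η) (hη1 : η ≤ 1) (hZ : 0 ≤ Z)
    (hW : 0 ≤ W) (hz0 : 0 ≤ z) (hv0 : 0 ≤ v) (hz : 10 ^ 9 * z ≤ η ^ 5 * Z)
    (hv : 10 ^ 9 * v ≤ η ^ 5 * W) (hL : L * η ^ 2 = 5632) (hg : g ≤ 21 * L)
    (h1 : SY ≤ SR + 48 * L * (SI + 2 * ST)) (h2 : η ^ 2 * SR ≤ g * (8 * z))
    (h3 : 512 * SI ≤ 28 * z + 512 * ST) (h4 : ST ≤ 2 * v) :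
    34 / η * SY ≤ Z / 4 + η * W := by
  have hη2 : 0 < η ^ 2 := by positivity
  have hη2' : η ^ 2 ≤ η := by nlinarith
  have hL0 : 0 ≤ L := by
    by_contra h
    push Not at h
    nlinarith [mul_neg_of_neg_of_pos h hη2]
  have a1 : SI + 2 * ST ≤ 28 / 512 * z + 6 * v := by linarith
  have a2 : η ^ 2 * (η ^ 2 * SR) ≤ 946176 * z := by
    have b1 : η ^ 2 * (η ^ 2 * SR) ≤ η ^ 2 * (g * (8 * z)) := mul_le_mul_of_nonneg_left h2 hη2.le
    have b2 : g * (8 * z) ≤ 21 * L * (8 * z) := mul_le_mul_of_nonneg_right hg (by positivity)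
    have b3 : η ^ 2 * (g * (8 * z)) ≤ η ^ 2 * (21 * L * (8 * z)) :=
      mul_le_mul_of_nonneg_left b2 hη2.le
    have b4 : η ^ 2 * (21 * L * (8 * z)) = 168 * (L * η ^ 2) * z := by ring
    rw [b4, hL] at b3
    linarith
  have a3 : 48 * L * (SI + 2 * ST) ≤ 48 * L * (28 / 512 * z + 6 * v) :=
    mul_le_mul_of_nonneg_left a1 (by positivity)
  have a4 : η ^ 2 * (η ^ 2 * SY) ≤
      η ^ 2 * (η ^ 2 * (SR + 48 * L * (28 / 512 * z + 6 * v))) :=
    mul_le_mul_of_nonneg_left (mul_le_mul_of_nonneg_left (by linarith) hη2.le) hη2.le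
  have a5 : η ^ 2 * (η ^ 2 * (SR + 48 * L * (28 / 512 * z + 6 * v))) =
      η ^ 2 * (η ^ 2 * SR) + 48 * (L * η ^ 2) * (28 / 512 * (η ^ 2 * z) + 6 * (η ^ 2 * v)) := by
    ring
  rw [a5, hL] at a4
  have a6 : η ^ 2 * z ≤ z := by nlinarith
  have a7 : η ^ 2 * v ≤ η * v := mul_le_mul_of_nonneg_right hη2' hv0
  have a8 : 10 ^ 9 * (η * v) ≤ η ^ 5 * (η * W) := by
    have := mul_le_mul_of_nonneg_left hv hη.le
    linarith
  have hη5 : 0 < η ^ 5 := by positivity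
  have a9 : η ^ 5 * (34 / η * SY) = 34 * (η ^ 2 * (η ^ 2 * SY)) := by
    field_simp
  have a10 : 0 ≤ η ^ 5 * Z := by positivity
  have a11 : 0 ≤ η ^ 5 * (η * W) := by positivity
  refine le_of_mul_le_mul_left ?_ hη5
  rw [a9, mul_add]
  have a12 : η ^ 5 * (Z / 4) = η ^ 5 * Z / 4 := by ring
  rw [a12]
  linarith

theorem exists_low {E : Type} [Fintype E] (w : E → ℝ) :
    ∃ l : ℝ, 0 < l ∧ ∀ e, 0 < w e → l ≤ w e := by
  by_cases h : (univ.filter fun e => 0 < w e).Nonempty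
  · obtain ⟨e0, he0, hmin⟩ := exists_min_image _ w h
    exact ⟨w e0, (mem_filter.1 he0).2, fun e he => hmin e (mem_filter.2 ⟨mem_univ _, he⟩)⟩
  · exact ⟨1, one_pos, fun e he => absurd ⟨e, mem_filter.2 ⟨mem_univ _, he⟩⟩ h⟩

theorem exists_lev {E : Type} [Fintype E] (w : E → ℝ) (l : ℝ) (hl : 0 < l)
    (hw : ∀ e, 0 < w e → l ≤ w e) : ∃ (m : ℕ) (lev : E → ℕ), ∀ e, 0 < w e →
      lev e < 7 * m ∧ l * 2 ^ lev e ≤ w e ∧ w e < 2 * (l * 2 ^ lev e) := by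
  have h1 : ∀ e, ∃ j : ℕ, 0 < w e → l * 2 ^ j ≤ w e ∧ w e < 2 * (l * 2 ^ j) := by
    intro e
    by_cases he : 0 < w e
    · obtain ⟨j, h1, h2⟩ := exists_nat_pow_near (x := w e / l) (y := (2 : ℝ))
        ((one_le_div hl).2 (hw e he)) one_lt_two
      refine ⟨j, fun _ => ⟨?_, ?_⟩⟩
      · rw [le_div_iff₀ hl] at h1
        linarith
      · rw [div_lt_iff₀ hl, pow_succ] at h2
        linarith
    · exact ⟨0, fun h => absurd h he⟩
  choose lev hlev using h1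
  refine ⟨univ.sup lev + 1, lev, fun e he => ⟨?_, hlev e he⟩⟩
  have : lev e ≤ univ.sup lev := le_sup (mem_univ e)
  omega

end TGeoAux

open TGeoAux in
theorem tGeo (hS : SepStmt) (hCo : CountStmt) (hJ : DyJStmt) (hD : DySStmt) (hW : WtStmt)
    (hC : ConnStmt) : GeoStmt := by
  intro V A E _ _ _ _ _ a b X w σ η Pi hη hη1 hσ hSt hU
  have hη5 : 0 < η ^ 5 := by positivity
  have hη2 : 0 < η ^ 2 := by positivity
  have hη2' : η ^ 2 ≤ 1 := by nlinarith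
  have hσ0 : 0 < σ := lt_of_lt_of_le (by positivity) hσ
  obtain ⟨l, hl, hlw⟩ := exists_low w
  obtain ⟨m, lev, hlev⟩ := exists_lev w l hl hlw
  have hell : ∀ j : ℕ, 0 < l * 2 ^ j := fun j => by positivity
  have hnet : ∀ j : ℕ, ∃ t : Finset V, Sepd X t (η ^ 2 * (l * 2 ^ j)) ∧
      ∀ v, ∃ u, u ∈ t ∧ ‖X v - X u‖ ≤ η ^ 2 * (l * 2 ^ j) := by
    intro j
    obtain ⟨t, -, h2, h3⟩ := hS A V X univ (η ^ 2 * (l * 2 ^ j)) (by positivity)
    exact ⟨t, h2, fun v => h3 v (mem_univ v)⟩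
  choose N hN y hy using hnet
  obtain ⟨L, hL⟩ : ∃ L : ℝ, L = 5632 / η ^ 2 := ⟨_, rfl⟩
  have hLη : L * η ^ 2 = 5632 := by rw [hL]; field_simp
  have hL1 : 1 ≤ L := by
    rw [hL, le_div_iff₀ hη2]
    linarith
  obtain ⟨F, hF⟩ : ∃ F : ℕ → Finset E, ∀ j e, e ∈ F j ↔
      0 < w e ∧ ‖X (a e) - X (b e)‖ ≤ 16 * w e ∧ lev e = j :=
    ⟨fun j => univ.filter fun e => 0 < w e ∧ ‖X (a e) - X (b e)‖ ≤ 16 * w e ∧ lev e = j,
      fun j e => by simp⟩
  have hmono : Monotone fun j : ℕ => Pi (l * 2 ^ j) := fun i j hij =>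
    hU.mono _ _ (hell i) (mul_le_mul_of_nonneg_left (pow_le_pow_right₀ one_le_two hij) hl.le)
  obtain ⟨T, hT1, hT2⟩ := hD V A E a b X σ (512 * l) (fun j : ℕ => Pi (l * 2 ^ j)) hσ0
    (by positivity) hmono (fun j => hU.good _ (hell j))
  have hcount : ∀ j : ℕ, ∃ I, Loc a b X (Pi (l * 2 ^ j)) (Pi (l * 2 ^ (j + 7))) (T j) I
      (512 * l * 2 ^ j) ∧
      ((((F j).image fun e => y j (a e)) ∪ (F j).image fun e => y j (b e)).card : ℝ) ≤
        (rich X (N j) (11 * (512 * l * 2 ^ j)) (48 * L)).card +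
          48 * L * (I.card + 2 * (T j).card) := by
    intro j
    have hj := hell j
    refine hCo V A E a b X _ _ (T j) (F j) (N j) (y j) (512 * l * 2 ^ j) (η ^ 2 * (l * 2 ^ j))
      (48 * L) (by positivity) (by nlinarith) (by linarith) ?_ ?_ (hy j)
    · intro e he
      obtain ⟨h1, -, h3⟩ := (hF j e).1 he
      obtain ⟨-, h5, h6⟩ := hlev e h1
      rw [h3] at h5 h6
      refine mem_filter.2 ⟨mem_univ _, (hU.level _ hj e).2 h5, ?_⟩
      by_contra hc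
      have := (hU.level _ (hell (j + 7)) e).1 hc
      rw [pow_add] at this
      nlinarith
    · intro e he
      obtain ⟨h1, h2, h3⟩ := (hF j e).1 he
      obtain ⟨-, -, h6⟩ := hlev e h1
      rw [h3] at h6
      linarith
  choose I hI1 hI2 using hcount
  refine ⟨7 * m, l, y, fun j => ((F j).image fun e => y j (a e)) ∪ (F j).image fun e => y j (b e),
    lev, hl, fun j v => (hy j v).2, ?_, ?_⟩
  · intro e h1 h2
    obtain ⟨h3, h4, h5⟩ := hlev e h1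
    have he : e ∈ F (lev e) := (hF _ e).2 ⟨h1, h2, rfl⟩
    exact ⟨h3, h4, h5, mem_union_left _ (mem_image_of_mem (fun e' => y (lev e) (a e')) he),
      mem_union_right _ (mem_image_of_mem (fun e' => y (lev e) (b e')) he)⟩
  have hZ : 0 ≤ ∑ e, ‖X (a e) - X (b e)‖ := sum_nonneg fun _ _ => norm_nonneg _
  have hW0 : 0 ≤ ∑ e, w e := sum_nonneg fun e _ => hU.nonneg e
  have hσ' : 10 ^ 9 ≤ σ * η ^ 5 := by rwa [div_le_iff₀ hη5] at hσ
  have key : ∀ u : ℝ, 0 ≤ u → 10 ^ 9 * (u / σ) ≤ η ^ 5 * u := by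
    intro u hu
    have h1 : 0 ≤ u / σ := by positivity
    have h2 : σ * η ^ 5 * (u / σ) = η ^ 5 * u := by field_simp
    rw [← h2]
    exact mul_le_mul_of_nonneg_right hσ' h1
  have e2 := hJ V A E a b X σ L (η ^ 2 * l) ⌈20 * L⌉₊ (7 * m) N hσ0 (hC.good V E a b univ σ hSt)
    hL1 (by positivity) (Nat.le_ceil _) (fun j => by rw [mul_assoc]; exact hN j)
  have e3 := hT2 I m hI1
  have e4 := hW V E a b w σ l Pi (7 * m) hσ0 hl hSt hU
  refine arith η _ _ ((∑ e, ‖X (a e) - X (b e)‖) / σ) ((∑ e, w e) / σ) L ⌈20 * L⌉₊ _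
    (∑ j ∈ range (7 * m), l * 2 ^ j * (rich X (N j) (11 * (512 * l * 2 ^ j)) (48 * L)).card)
    (∑ j ∈ range (7 * m), l * 2 ^ j * (I j).card)
    (∑ j ∈ range (7 * m), l * 2 ^ j * (T j).card) hη hη1 hZ hW0 (by positivity) (by positivity)
    (key _ hZ) (key _ hW0) hLη ?_ ?_ ?_ ?_ ?_
  · have := (Nat.ceil_lt_add_one (a := 20 * L) (by linarith)).le
    linarith
  · rw [mul_sum, ← sum_add_distrib, mul_sum, ← sum_add_distrib]
    refine sum_le_sum fun j _ => ?_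
    have := mul_le_mul_of_nonneg_left (hI2 j) (hell j).le
    linarith
  · rw [mul_sum, ← mul_div_assoc]
    refine le_trans (le_of_eq (sum_congr rfl fun j _ => ?_)) e2
    have : L * (η ^ 2 * l * 2 ^ j) = 11 * (512 * l * 2 ^ j) := by
      have : L * (η ^ 2 * l * 2 ^ j) = L * η ^ 2 * (l * 2 ^ j) := by ring
      rw [this, hLη]
      ring
    rw [this]
    ring
  · rw [mul_sum, mul_sum, ← mul_div_assoc]
    simpa only [mul_assoc] using e3
  · rw [← mul_div_assoc]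
    refine le_trans (sum_le_sum fun j _ => ?_) e4
    refine mul_le_mul_of_nonneg_left ?_ (hell j).le
    have : (((T j).card + 1 : ℕ) : ℝ) ≤ (ncl (Pi (l * 2 ^ j)) : ℝ) := by exact_mod_cast hT1 j
    push_cast at this
    linarith

end Vale.Agent.P061
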