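import Vale.Agent.P061.Stm

/-! P061: iteration of the halving step. -/

open Finset Matrix
open scoped Classical

namespace Vale.Agent.P061

namespace TIterAux

noncomputable def eps (i : ℕ) : ℝ := 1 / 8 * (31 / 32) ^ i

noncomputable def sg (C : ℝ) : ℕ → ℝ
  | 0 => C * 8 ^ 15 + 1
  | i + 1 => sg C i / (1 / 2 - eps (i + 1))

noncomputable def th : ℕ → ℝ
  | 0 => 1
  | i + 1 => (1 / 2 + eps (i + 1)) * th i

theorem eps_pos (i : ℕ) : 0 < eps i := by unfold eps; positivity

theorem eps_le (i : ℕ) : eps i ≤ 1 / 8 := by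
  unfold eps
  have : ((31 : ℝ) / 32) ^ i ≤ 1 := pow_le_one₀ (by norm_num) (by norm_num)
  linarith

theorem eps_succ (i : ℕ) : eps (i + 1) = 31 / 32 * eps i := by
  unfold eps; rw [pow_succ]; ring

theorem sg_mul (C : ℝ) (i : ℕ) : (1 / 2 - eps (i + 1)) * sg C (i + 1) = sg C i := by
  have h := eps_le (i + 1)
  have h1 : (1 / 2 - eps (i + 1)) ≠ 0 := by linarith
  exact mul_div_cancel₀ (sg C i) h1

theorem sg_pos {C : ℝ} (hC : 0 < C) : ∀ i, 0 < sg C i
  | 0 => by show 0 < C * 8 ^ 15 + 1; positivity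
  | i + 1 => by
    have h := eps_le (i + 1)
    exact div_pos (sg_pos hC i) (by linarith)

theorem sg_two {C : ℝ} (hC : 0 < C) (i : ℕ) : 2 * sg C i ≤ sg C (i + 1) := by
  have h1 := sg_mul C i
  have h2 := mul_pos (eps_pos (i + 1)) (sg_pos hC (i + 1))
  linarith

theorem sg_up {C : ℝ} (hC : 0 < C) (i : ℕ) : 3 * sg C (i + 1) ≤ 8 * sg C i := by
  have h1 := sg_mul C i
  have h2 := mul_le_mul_of_nonneg_right (eps_le (i + 1)) (sg_pos hC (i + 1)).le
  linarith

theorem sg_ge {C : ℝ} (hC : 0 < C) : ∀ i : ℕ, (i : ℝ) + 1 ≤ sg C i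
  | 0 => by
    show ((0 : ℕ) : ℝ) + 1 ≤ C * 8 ^ 15 + 1
    have : 0 < C * 8 ^ 15 := by positivity
    rw [Nat.cast_zero]; linarith
  | i + 1 => by
    have h1 := sg_ge hC i
    have h2 := sg_two hC i
    have h3 : (0 : ℝ) ≤ i := Nat.cast_nonneg i
    push_cast; linarith

theorem sg_big {C : ℝ} (hC : 0 < C) : ∀ i, C / eps i ^ 15 ≤ sg C i
  | 0 => by
    show C / eps 0 ^ 15 ≤ C * 8 ^ 15 + 1
    have : C / eps 0 ^ 15 = C * 8 ^ 15 := by unfold eps; field_simp
    linarith
  | i + 1 => by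
    have h1 := sg_big hC i
    have h2 := sg_two hC i
    have h3 := eps_pos i
    have h4 : C / eps (i + 1) ^ 15 = (32 / 31) ^ 15 * (C / eps i ^ 15) := by
      rw [eps_succ]; field_simp
    have h5 : ((32 : ℝ) / 31) ^ 15 ≤ 2 := by norm_num
    have h6 : 0 ≤ C / eps i ^ 15 := by positivity
    have h7 := mul_le_mul_of_nonneg_right h5 h6
    linarith

theorem th_pos : ∀ i, 0 < th i
  | 0 => one_pos
  | i + 1 => mul_pos (by linarith [eps_pos (i + 1)]) (th_pos i)

theorem th_sg {C : ℝ} (hC : 0 < C) : ∀ i, th i * sg C i ≤ sg C 0 * Real.exp (24 - 186 * eps i)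
  | 0 => by
    have h1 : 1 ≤ Real.exp (24 - 186 * eps 0) := Real.one_le_exp (by linarith [eps_le 0])
    have h2 := mul_le_mul_of_nonneg_left h1 (sg_pos hC 0).le
    show 1 * sg C 0 ≤ _
    linarith
  | i + 1 => by
    have ih := th_sg hC i
    have e0 := eps_pos (i + 1)
    have e1 := eps_le (i + 1)
    have h1 : 1 / 2 + eps (i + 1) ≤ (1 + 6 * eps (i + 1)) * (1 / 2 - eps (i + 1)) := by nlinarith
    have h2 : 1 + 6 * eps (i + 1) ≤ Real.exp (6 * eps (i + 1)) := by
      linarith [Real.add_one_le_exp (6 * eps (i + 1))]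
    have h3 : 1 / 2 + eps (i + 1) ≤ Real.exp (6 * eps (i + 1)) * (1 / 2 - eps (i + 1)) :=
      h1.trans (mul_le_mul_of_nonneg_right h2 (by linarith))
    have h4 : Real.exp (24 - 186 * eps (i + 1))
        = Real.exp (24 - 186 * eps i) * Real.exp (6 * eps (i + 1)) := by
      rw [← Real.exp_add, eps_succ]; congr 1; ring
    have h5 : 0 ≤ th i * sg C (i + 1) := (mul_pos (th_pos i) (sg_pos hC _)).le
    calc th (i + 1) * sg C (i + 1) = (1 / 2 + eps (i + 1)) * (th i * sg C (i + 1)) := by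
          show (1 / 2 + eps (i + 1)) * th i * _ = _
          ring
      _ ≤ Real.exp (6 * eps (i + 1)) * (1 / 2 - eps (i + 1)) * (th i * sg C (i + 1)) :=
          mul_le_mul_of_nonneg_right h3 h5
      _ = (th i * sg C i) * Real.exp (6 * eps (i + 1)) := by rw [← sg_mul C i]; ring
      _ ≤ (sg C 0 * Real.exp (24 - 186 * eps i)) * Real.exp (6 * eps (i + 1)) :=
          mul_le_mul_of_nonneg_right ih (Real.exp_pos _).le
      _ = _ := by rw [h4]; ring

theorem th_sg' {C : ℝ} (hC : 0 < C) (i : ℕ) : th i * sg C i ≤ sg C 0 * Real.exp 24 :=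
  (th_sg hC i).trans (mul_le_mul_of_nonneg_left
    (Real.exp_le_exp.2 (by linarith [eps_pos i])) (sg_pos hC 0).le)

section Sub

variable {V E : Type} (a b : E → V) (F : Finset E)

theorem map_univ : (univ : Finset {e // e ∈ F}).map (Function.Embedding.subtype _) = F := by
  rw [univ_eq_attach, attach_map_val]

theorem xs_map (T : Finset {e // e ∈ F}) (P : Setoid V) :
    (xs a b (T.map (Function.Embedding.subtype _)) P).card
      = (xs (fun e : {e // e ∈ F} => a e.1) (fun e => b e.1) T P).card := by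
  unfold xs
  rw [filter_map, card_map]
  rfl

theorem cut_map (T : Finset {e // e ∈ F}) (S : Finset V) :
    cut a b (T.map (Function.Embedding.subtype _)) S
      = cut (fun e : {e // e ∈ F} => a e.1) (fun e => b e.1) T S := by
  unfold cut
  rw [filter_map, card_map]
  rfl

end Sub

/-- the conclusion with thinness `θ` -/
def Con {V E : Type} [Fintype V] [Fintype E] (a b : E → V) (θ : ℝ) : Prop :=
  ∃ T : Finset E, T.card + 1 ≤ Fintype.card V ∧ Gen a b T ⊥ ⊤ ∧
    ∀ S, Nt S → (cut a b T S : ℝ) ≤ θ * cut a b univ S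

theorem Con.mono {V E : Type} [Fintype V] [Fintype E] {a b : E → V} {θ θ' : ℝ} (h : Con a b θ)
    (hθ : θ ≤ θ') : Con a b θ' := by
  obtain ⟨T, h1, h2, h3⟩ := h
  exact ⟨T, h1, h2, fun S hS => (h3 S hS).trans
    (mul_le_mul_of_nonneg_right hθ (Nat.cast_nonneg _))⟩

theorem base (hK : KrStmt) (hC : ConnStmt) (hN : NclStmt) (V E : Type) [Fintype V] [Nonempty V]
    [Fintype E] (a b : E → V) (σ : ℝ) (hσ : 0 < σ) (h : Strong a b univ σ) : Con a b 1 := by
  obtain ⟨T, -, h2, h3, -⟩ := hK V E a b univ ⊥ ⊤ σ (fun _ => 0) hσ bot_le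
    (hC.good V E a b univ σ h) (fun _ => le_rfl)
  rw [hN.top V, hN.bot V] at h2
  refine ⟨T, h2, h3, fun S _ => ?_⟩
  rw [one_mul]
  exact Nat.cast_le.2 (card_le_card (filter_subset_filter _ (subset_univ T)))

theorem claim (hK : KrStmt) (hC : ConnStmt) (hN : NclStmt) {C : ℝ} (hC0 : 0 < C)
    (hS : ∀ ε : ℝ, 0 < ε → ε ≤ 1 / 8 →
      ∀ (V E : Type) [Fintype V] [Nonempty V] [Fintype E] (a b : E → V) (s : ℝ), C / ε ^ 15 ≤ s →
        Strong a b univ s → ∃ F, Strong a b F ((1 / 2 - ε) * s) ∧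
          ∀ S, Nt S → (cut a b F S : ℝ) ≤ (1 / 2 + ε) * cut a b univ S) (i : ℕ) :
    ∀ (V E : Type) [Fintype V] [Nonempty V] [Fintype E] (a b : E → V),
      Strong a b univ (sg C i) → Con a b (th i) := by
  induction i with
  | zero => exact fun V E _ _ _ a b h => base hK hC hN V E a b _ (sg_pos hC0 0) h
  | succ i ih =>
    intro V E _ _ _ a b h
    obtain ⟨F, h1, h2⟩ := hS _ (eps_pos (i + 1)) (eps_le (i + 1)) V E a b _ (sg_big hC0 (i + 1)) h
    rw [sg_mul] at h1
    obtain ⟨T, t1, t2, t3⟩ := ih V {e // e ∈ F} (fun e => a e.1) (fun e => b e.1) fun P => by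
      rw [← xs_map a b F univ P, map_univ]; exact h1 P
    refine ⟨T.map (Function.Embedding.subtype _), by rwa [card_map], fun R hR hT =>
      t2 R hR fun e he => hT e.1 (mem_map_of_mem _ he), fun S hS' => ?_⟩
    have h3 := t3 S hS'
    rw [← cut_map a b F univ S, map_univ, ← cut_map a b F T S] at h3
    have h4 := mul_le_mul_of_nonneg_left (h2 S hS') (th_pos i).le
    calc _ ≤ _ := h3.trans h4
      _ = th (i + 1) * cut a b univ S := by
        show _ = (1 / 2 + eps (i + 1)) * th i * _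
        ring

end TIterAux

open TIterAux in
theorem tIter (hS : StepStmt) (hK : KrStmt) (hC : ConnStmt) (hN : NclStmt) : IterStmt := by
  obtain ⟨C, hC0, hS⟩ := hS
  have h0 := sg_pos hC0 0
  have h1 : 0 < sg C 0 * Real.exp 24 := mul_pos h0 (Real.exp_pos _)
  refine ⟨2 * sg C 0 + 16 / 3 * (sg C 0 * Real.exp 24), fun V E _ _ _ a b k hk hcut => ?_⟩
  have hst := hC.ofCut V E a b univ k (by linarith) hcut
  have hk0 : 0 < k := by linarith
  by_cases hlt : k / 2 < sg C 0
  · refine (base hK hC hN V E a b _ (by linarith) hst).mono ?_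
    rw [le_div_iff₀ hk0]; linarith
  · have hex : ∃ i, k / 2 < sg C (i + 1) := by
      obtain ⟨i, hi⟩ := exists_nat_ge (k / 2)
      have h2 := sg_ge hC0 (i + 1)
      push_cast at h2
      exact ⟨i, by linarith⟩
    have hi := Nat.find_spec hex
    have hle : sg C (Nat.find hex) ≤ k / 2 := by
      rcases hn : Nat.find hex with _ | j
      · exact not_lt.1 hlt
      · exact not_lt.1 (Nat.find_min hex (by omega))
    refine (claim hK hC hN hC0 hS (Nat.find hex) V E a b
      (hC.mono V E a b univ _ _ hle hst)).mono ?_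
    rw [le_div_iff₀ hk0]
    have h3 := th_sg' hC0 (Nat.find hex)
    have h4 := sg_up hC0 (Nat.find hex)
    have h5 : k ≤ 16 / 3 * sg C (Nat.find hex) := by linarith
    have h6 := mul_le_mul_of_nonneg_left h5 (th_pos (Nat.find hex)).le
    linarith

end Vale.Agent.P061
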