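import Vale.Agent.P061.Stm

/-! P061: joining the components of a skeleton along the edges of a tree. -/

open Finset Matrix
open scoped Classical

namespace Vale.Agent.P061

namespace TJoinAux

open Relation

variable {V A E : Type} [NormedAddCommGroup A]

theorem rsymm {S : Sk V A} {ε : ℝ} {P : Setoid V} (h : S.Ok0 ε P) {p q : ℕ}
    (H : ReflTransGen S.adj p q) : ReflTransGen S.adj q p := by
  induction H with
  | refl => exact .refl
  | tail _ h2 ih => exact .head (h.symm _ _ h2) ih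

theorem rlab {S : Sk V A} {ε : ℝ} {P : Setoid V} (h : S.Ok0 ε P) {p q : ℕ}
    (H : ReflTransGen S.adj p q) : P (S.own p) (S.own q) := by
  induction H with
  | refl => exact P.refl _
  | tail _ h2 ih => exact P.trans ih (h.lab _ _ h2)

structure Inv (a b : E → V) (X : V → A) (S : Sk V A) (ε δ : ℝ) (P Q : Setoid V) (T : Finset E)
    (S' : Sk V A) : Prop where
  ok : S'.Ok0 ε Q
  sub : S.N ⊆ S'.N
  same : ∀ x ∈ S.N, S'.pos x = S.pos x ∧ S'.own x = S.own x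
  cnt : (S'.N.card : ℝ) * ε ≤ S.N.card * ε + ∑ e ∈ T, ‖X (a e) - X (b e)‖ + T.card * (2 * δ + ε)
  mono : ∀ x y, S.adj x y → S'.adj x y
  new : ∀ x ∈ S.N, ∀ z, S'.adj x z → S.adj x z ∨
    ∃ e ∈ T, ‖S.pos x - X (a e)‖ ≤ δ ∨ ‖S.pos x - X (b e)‖ ≤ δ
  reach : ∀ x ∈ S'.N, ∃ p ∈ S.N, ReflTransGen S'.adj x p
  edge : ∀ e ∈ T, ∃ p ∈ S.N, ∃ q ∈ S.N, P (S.own p) (a e) ∧ P (S.own q) (b e) ∧
    ReflTransGen S'.adj p q

theorem main [NormedSpace ℝ A] (hP : PathStmt) (a b : E → V) (X : V → A) (S : Sk V A) (ε δ : ℝ)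
    (P Q : Setoid V) (hε : 0 < ε) (hPQ : P ≤ Q) (hS : S.Ok ε P) (hD : S.Dense X P δ)
    (T : Finset E) : (∀ e ∈ T, Q (a e) (b e)) → ∃ S', Inv a b X S ε δ P Q T S' := by
  induction T using Finset.induction_on with
  | empty =>
    exact fun _ => ⟨S, ⟨hS.mem, hS.symm, hS.short, fun p q h => hPQ (hS.lab p q h)⟩,
      Subset.refl _, fun _ _ => ⟨rfl, rfl⟩, by simp, fun _ _ h => h, fun _ _ _ h => .inl h,
      fun x hx => ⟨x, hx, .refl⟩, by simp⟩
  | insert e T he ih =>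
    intro hT
    obtain ⟨S1, I⟩ := ih fun f hf => hT f (mem_insert_of_mem hf)
    obtain ⟨p, hp, p1, p2⟩ := hD (a e)
    obtain ⟨q, hq, q1, q2⟩ := hD (b e)
    obtain ⟨S2, c1, c2, c3, c4, c5, c6, c7, c8⟩ := hP V A S1 ε Q p q hε I.ok (I.sub hp) (I.sub hq)
      (by
        rw [(I.same p hp).2, (I.same q hq).2]
        exact Q.trans (hPQ p1) (Q.trans (hT e (mem_insert_self _ _)) (Q.symm (hPQ q1))))
    have rm : ∀ x y, ReflTransGen S1.adj x y → ReflTransGen S2.adj x y := fun x y h =>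
      ReflTransGen.mono c5 _ _ h
    refine ⟨S2, c1, I.sub.trans c2, fun x hx => ?_, ?_, fun x y h => c5 _ _ (I.mono _ _ h),
      fun x hx z h => ?_, fun x hx => ?_, fun f hf => ?_⟩
    · exact ⟨(c3 x (I.sub hx)).1.trans (I.same x hx).1, (c3 x (I.sub hx)).2.trans (I.same x hx).2⟩
    · have h1 : ‖S1.pos p - S1.pos q‖ ≤ ‖X (a e) - X (b e)‖ + 2 * δ := by
        rw [(I.same p hp).1, (I.same q hq).1]
        have e1 : S.pos p - S.pos q =
            (S.pos p - X (a e)) + (X (a e) - X (b e)) - (S.pos q - X (b e)) := by abel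
        rw [e1]
        linarith [norm_sub_le ((S.pos p - X (a e)) + (X (a e) - X (b e))) (S.pos q - X (b e)),
          norm_add_le (S.pos p - X (a e)) (X (a e) - X (b e))]
      rw [sum_insert he, card_insert_of_notMem he]
      push_cast
      linarith [I.cnt]
    · rcases c6 x z h with h | ⟨h | h | h, -⟩
      · exact (I.new x hx z h).imp_right fun ⟨f, hf, h⟩ => ⟨f, mem_insert_of_mem hf, h⟩
      · exact absurd (I.sub hx) h
      · exact .inr ⟨e, mem_insert_self _ _, .inl (h ▸ p2)⟩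
      · exact .inr ⟨e, mem_insert_self _ _, .inr (h ▸ q2)⟩
    · by_cases h : x ∈ S1.N
      · obtain ⟨u, hu, h⟩ := I.reach x h
        exact ⟨u, hu, rm _ _ h⟩
      · exact ⟨p, hp, (c8 x hx h).1⟩
    · rcases mem_insert.1 hf with rfl | hf
      · exact ⟨p, hp, q, hq, p1, q1, c7⟩
      · obtain ⟨u, hu, v, hv, h1, h2, h3⟩ := I.edge f hf
        exact ⟨u, hu, v, hv, h1, h2, rm _ _ h3⟩

end TJoinAux

open TJoinAux Relation in
theorem tJoin (hP : PathStmt) : JoinStmt := by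
  intro V A E _ _ a b X S ε δ P Q T hε _ hPQ hS hD hT hG
  obtain ⟨S', I⟩ := main hP a b X S ε δ P Q hε hPQ hS hD T hT
  have cn : ∀ p ∈ S.N, ∀ q ∈ S.N, P (S.own p) (S.own q) → ReflTransGen S'.adj p q :=
    fun p hp q hq h => ReflTransGen.mono I.mono _ _ (hS.conn p hp q hq h)
  let R : Setoid V :=
    ⟨fun u v => ∃ p ∈ S.N, ∃ q ∈ S.N, P (S.own p) u ∧ P (S.own q) v ∧ ReflTransGen S'.adj p q,
      fun u => (hD u).elim fun p h => ⟨p, h.1, p, h.1, h.2.1, h.2.1, .refl⟩,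
      fun ⟨p, hp, q, hq, h1, h2, h3⟩ => ⟨q, hq, p, hp, h2, h1, rsymm I.ok h3⟩,
      fun ⟨p, hp, q, hq, h1, h2, h3⟩ ⟨p', hp', q', hq', g1, g2, g3⟩ =>
        ⟨p, hp, q', hq', h1, g2, h3.trans ((cn q hq p' hp' (P.trans h2 (P.symm g1))).trans g3)⟩⟩
  have hR : Q ≤ R := hG R (fun u v h => (hD u).elim fun p g =>
    ⟨p, g.1, p, g.1, g.2.1, P.trans g.2.1 h, .refl⟩) I.edge
  refine ⟨S', ⟨I.ok, fun x hx y hy h => ?_⟩, I.sub, I.same, I.cnt, I.new⟩
  obtain ⟨p, hp, h1⟩ := I.reach x hx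
  obtain ⟨q, hq, h2⟩ := I.reach y hy
  have h3 : Q (S.own p) (S.own q) := by
    rw [← (I.same p hp).2, ← (I.same q hq).2]
    exact Q.trans (Q.symm (rlab I.ok h1)) (Q.trans h (rlab I.ok h2))
  obtain ⟨u, hu, v, hv, g1, g2, g3⟩ := hR h3
  exact h1.trans ((cn p hp u hu (P.symm g1)).trans
    (g3.trans ((cn v hv q hq g2).trans (rsymm I.ok h2))))

end Vale.Agent.P061
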