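import Vale.Agent.P061.Stm

open Finset Matrix
open scoped Classical

namespace Vale.Agent.P061

namespace TJonesAux

variable {V A : Type} [NormedAddCommGroup A]

theorem cov_mono {S : Sk V A} {ε ρ ρ' c : ℝ} (h : S.Cov ε ρ c) (hρ : ρ ≤ ρ') : S.Cov ε ρ' c := by
  obtain ⟨cl, t, h1, h2, h3⟩ := h
  exact ⟨cl, t, fun i => ⟨(h1 i).1, (h1 i).2.trans hρ⟩, h2, h3⟩

theorem cov_nonneg {S : Sk V A} {ε ρ c : ℝ} (hε : 0 ≤ ε) (h : S.Cov ε ρ c) : 0 ≤ c := by
  obtain ⟨cl, t, h1, _, h3⟩ := h
  exact (sum_nonneg fun i _ => add_nonneg (h1 i).1 hε).trans h3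

theorem cov_init (S : Sk V A) (ε : ℝ) {ρ : ℝ} (hρ : 0 ≤ ρ) : S.Cov ε ρ (S.N.card * ε) := by
  refine ⟨id, fun _ => 0, fun _ => ⟨le_rfl, hρ⟩, fun p _ q _ h => ?_, ?_⟩
  · have h' : p = q := h
    simp [h']
  · simp

end TJonesAux

open TJonesAux in
theorem tJones (hB : BaseStmt) (hC : CovStepStmt) : JonesStmt := by
  intro V A E _ _ _ _ a b X T L r M m Y hG hL hr hM hY
  have hM1 : 1 ≤ M := by linarith
  have key : ∀ ε : ℝ, 0 < ε → ε ≤ r →
      ∑ i ∈ range m, r * M ^ i * (rich X (Y i) (L * (r * M ^ i)) (48 * L)).card ≤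
        8 * ∑ e ∈ T, ‖X (a e) - X (b e)‖ + 8 * (Fintype.card V + T.card) * ε := by
    intro ε hε hεr
    obtain ⟨S, hOk, hD, hN⟩ := hB V A E a b X ε ⊤ T hε (fun _ _ => trivial) hG
    have hind : ∀ k, S.Cov ε (r * M ^ k / 4) (S.N.card * ε -
        (∑ i ∈ range k, r * M ^ i * (rich X (Y i) (L * (r * M ^ i)) (48 * L)).card) / 8) := by
      intro k
      induction k with
      | zero => simpa using cov_init S ε (ρ := r / 4) (by positivity)
      | succ k ih =>
        have hp : 1 ≤ M ^ k := one_le_pow₀ hM1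
        have h1 := hC V A X S ε _ _ (r * M ^ k) L (Y k) hε (by nlinarith) hL le_rfl hOk hD (hY k) ih
        have h2 : 5 * L * (r * M ^ k) ≤ r * M ^ (k + 1) / 4 := by
          have h3 : 0 < r * M ^ k := by positivity
          rw [pow_succ]
          nlinarith
        convert cov_mono h1 h2 using 1
        rw [sum_range_succ]
        ring
    have h1 := cov_nonneg hε.le (hind m)
    linarith
  refine le_of_forall_pos_le_add fun η hη => ?_
  have hc : (0 : ℝ) ≤ 8 * (Fintype.card V + T.card) := by positivity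
  set c : ℝ := 8 * (Fintype.card V + T.card)
  have h1 := key (min r (η / (c + 1))) (lt_min hr (by positivity)) (min_le_left _ _)
  have h2 : c * min r (η / (c + 1)) ≤ η := by
    calc c * min r (η / (c + 1)) ≤ (c + 1) * (η / (c + 1)) := by
          gcongr
          · linarith
          · exact min_le_right _ _
      _ = η := by field_simp
  linarith

end Vale.Agent.P061
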