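import Vale.Agent.P061.Stm

/-! P061: simultaneous Kadison-Singer halving for two quadratic forms. -/

open Finset Matrix
open scoped Classical MatrixOrder

namespace Vale.Agent.P061

namespace TKS2Aux

theorem whiten {n E : Type} [Fintype n] (F : Finset E) (c : E → n → ℝ) (A : Matrix n n ℝ) (β : ℝ)
    (hA : A.PosDef) (hβ : 0 ≤ β) (h1 : ∀ x, ∑ e ∈ F, (c e ⬝ᵥ x) ^ 2 ≤ qf A x)
    (h2 : ∀ e ∈ F, ∀ x, (c e ⬝ᵥ x) ^ 2 ≤ β * qf A x) :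
    ∃ (v : E → n → ℝ) (B : (n → ℝ) → n → ℝ), (∀ e x, c e ⬝ᵥ x = v e ⬝ᵥ B x) ∧
      (∀ x, qf A x = B x ⬝ᵥ B x) ∧ (∀ y, ∑ e ∈ F, (v e ⬝ᵥ y) ^ 2 ≤ y ⬝ᵥ y) ∧
      ∀ e ∈ F, v e ⬝ᵥ v e ≤ β := by
  obtain ⟨B, hB, rfl⟩ := CStarAlgebra.isStrictlyPositive_iff_eq_star_mul_self.mp
    hA.isStrictlyPositive
  have hd : IsUnit B.det := (isUnit_iff_isUnit_det B).1 hB
  have e1 : ∀ e x, c e ⬝ᵥ x = (c e ᵥ* B⁻¹) ⬝ᵥ (B *ᵥ x) := fun e x => by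
    rw [dotProduct_mulVec, vecMul_vecMul, nonsing_inv_mul _ hd, vecMul_one]
  have e2 : ∀ x, qf (star B * B) x = (B *ᵥ x) ⬝ᵥ (B *ᵥ x) := fun x => by
    rw [qf, ← mulVec_mulVec, dotProduct_mulVec, star_eq_conjTranspose,
      conjTranspose_eq_transpose_of_trivial, vecMul_transpose]
  have e3 : ∀ y, B *ᵥ (B⁻¹ *ᵥ y) = y := fun y => by
    rw [mulVec_mulVec, mul_nonsing_inv _ hd, one_mulVec]
  refine ⟨fun e => c e ᵥ* B⁻¹, fun x => B *ᵥ x, e1, e2, fun y => ?_, fun e he => ?_⟩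
  · have := h1 (B⁻¹ *ᵥ y)
    simp only [e1, e2, e3] at this
    exact this
  · have := h2 e he (B⁻¹ *ᵥ (c e ᵥ* B⁻¹))
    rw [e1, e2, e3] at this
    have h0 : 0 ≤ (c e ᵥ* B⁻¹) ⬝ᵥ (c e ᵥ* B⁻¹) := sum_nonneg fun i _ => mul_self_nonneg _
    by_contra hlt
    have := not_le.1 hlt
    nlinarith

theorem split {E : Type} (F : Finset E) (s : Finset {e // e ∈ F}) (g : E → ℝ) :
    ∑ e ∈ s.map (Function.Embedding.subtype _), g e = ∑ i ∈ s, g i.1 ∧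
      ∑ e ∈ F, g e = ∑ i ∈ s, g i.1 + ∑ i ∈ sᶜ, g i.1 := by
  refine ⟨by simp, ?_⟩
  rw [sum_add_sum_compl, ← sum_coe_sort F g]

end TKS2Aux

open TKS2Aux in
theorem tKS2 (hK : KSStmt) : KS2Stmt := by
  intro n E _ F c c' A A' β p hA hA' hβ hp hβp h1 h1' h2 h2'
  obtain ⟨v, B, a1, a2, a3, a4⟩ := whiten F c A β hA hβ h1 h2
  obtain ⟨v', B', b1, b2, b3, b4⟩ := whiten F c' A' p hA' hp h1' h2'
  have hs : (√2)⁻¹ ^ 2 = (1 / 2 : ℝ) := by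
    rw [inv_pow, Real.sq_sqrt zero_le_two, one_div]
  have hw : ∀ (e : E) (x : n ⊕ n → ℝ), (((√2)⁻¹ • Sum.elim (v e) (v' e)) ⬝ᵥ x) ^ 2 =
      1 / 2 * (v e ⬝ᵥ (x ∘ Sum.inl) + v' e ⬝ᵥ (x ∘ Sum.inr)) ^ 2 := fun e x => by
    rw [smul_dotProduct, smul_eq_mul, mul_pow, hs]
    simp [dotProduct, Fintype.sum_sum_type]
  have hx : ∀ x : n ⊕ n → ℝ, x ⬝ᵥ x =
      (x ∘ Sum.inl) ⬝ᵥ (x ∘ Sum.inl) + (x ∘ Sum.inr) ⬝ᵥ (x ∘ Sum.inr) := fun x => by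
    simp [dotProduct, Fintype.sum_sum_type]
  obtain ⟨s, H⟩ := hK (n ⊕ n) {e // e ∈ F} (fun e => (√2)⁻¹ • Sum.elim (v e) (v' e))
    ((β + p) / 2) (by linarith) (by linarith)
    (fun x => by
      simp only [hw]
      rw [sum_coe_sort F fun e => 1 / 2 * (v e ⬝ᵥ (x ∘ Sum.inl) + v' e ⬝ᵥ (x ∘ Sum.inr)) ^ 2, hx]
      refine le_trans (sum_le_sum fun e _ => ?_) ((sum_add_distrib).trans_le
        (add_le_add (a3 (x ∘ Sum.inl)) (b3 (x ∘ Sum.inr))))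
      nlinarith [sq_nonneg (v e ⬝ᵥ (x ∘ Sum.inl) - v' e ⬝ᵥ (x ∘ Sum.inr))])
    (fun e => by
      rw [smul_dotProduct, dotProduct_smul, smul_eq_mul, smul_eq_mul, ← mul_assoc, ← sq, hs, hx]
      have := a4 e e.2
      have := b4 e e.2
      simp only [Sum.elim_comp_inl, Sum.elim_comp_inr]
      linarith)
  refine ⟨s.map (Function.Embedding.subtype _), fun e he => ?_, fun x => ?_, fun x => ?_⟩
  · obtain ⟨i, -, rfl⟩ := mem_map.1 he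
    exact i.2
  · have := (abs_le.1 (H (Sum.elim (B x) 0))).2
    simp only [hw, hx, Sum.elim_comp_inl, Sum.elim_comp_inr, dotProduct_zero, add_zero,
      ← mul_sum] at this
    obtain ⟨e1, e2⟩ := split F s fun e => (c e ⬝ᵥ x) ^ 2
    rw [e1, e2, a2]
    simp only [a1]
    linarith
  · have := (abs_le.1 (H (Sum.elim 0 (B' x)))).1
    simp only [hw, hx, Sum.elim_comp_inl, Sum.elim_comp_inr, dotProduct_zero, zero_add,
      ← mul_sum] at this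
    obtain ⟨e1, e2⟩ := split F s fun e => (c' e ⬝ᵥ x) ^ 2
    rw [e1, e2, b2]
    simp only [b1]
    linarith

end Vale.Agent.P061
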