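import Vale.Agent.P061.Stm

/-! P061: Kruskal's greedy tree in a partition connected graph. -/

open Finset Matrix
open scoped Classical

namespace Vale.Agent.P061

namespace TKrAux

theorem main (hN : NclStmt) {V E : Type} [Fintype V] (a b : E → V) (H : Finset E) (Q : Setoid V)
    (σ : ℝ) (d : E → ℝ) (hσ : 0 < σ) (hG : Good a b H Q σ) (n : ℕ) :
    ∀ P : Setoid V, ncl P = n → P ≤ Q →
      ∃ T, T ⊆ xs2 a b H P Q ∧ T.card + ncl Q ≤ ncl P ∧ Gen a b T P Q ∧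
        ∀ τ : ℝ, (∀ e ∈ xs2 a b H P Q, τ ≤ d e) →
          σ * ∑ e ∈ T, (d e - τ) ≤ ∑ e ∈ xs2 a b H P Q, (d e - τ) := by
  induction n using Nat.strong_induction_on with
  | _ n ih =>
  intro P hn hPQ
  have hg := hG P hPQ
  rcases (xs2 a b H P Q).eq_empty_or_nonempty with h0 | h0
  · have h1 : Q ≤ P := by
      by_contra h
      have h2 : (ncl Q : ℝ) < ncl P := by exact_mod_cast hN.lt V P Q hPQ h
      rw [h0, card_empty, Nat.cast_zero] at hg
      nlinarith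
    exact ⟨∅, empty_subset _, by simpa using hN.anti V P Q hPQ, fun R hR _ => h1.trans hR,
      fun τ _ => by simp [h0]⟩
  obtain ⟨e0, he0, hmin⟩ := exists_min_image _ d h0
  obtain ⟨-, he1, he2⟩ := mem_filter.1 he0
  obtain ⟨P', hP'⟩ : ∃ P' : Setoid V, P' = sInf {R | P ≤ R ∧ R (a e0) (b e0)} := ⟨_, rfl⟩
  have p1 : P ≤ P' := hP' ▸ le_sInf fun R hR => hR.1
  have p2 : ∀ R : Setoid V, P ≤ R → R (a e0) (b e0) → P' ≤ R := fun R h1 h2 =>
    hP' ▸ sInf_le ⟨h1, h2⟩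
  have p3 : P' (a e0) (b e0) := by
    rw [hP']
    exact fun R hR => hR.2
  have p4 : ncl P' < ncl P := hN.lt V P P' p1 fun h => he1 (h p3)
  obtain ⟨T, t1, t2, t3, t4⟩ := ih (ncl P') (hn ▸ p4) P' rfl (p2 Q hPQ he2)
  have s1 : xs2 a b H P' Q ⊆ xs2 a b H P Q := fun e he => by
    obtain ⟨h1, h2, h3⟩ := mem_filter.1 he
    exact mem_filter.2 ⟨h1, fun h => h2 (p1 h), h3⟩
  have s2 : e0 ∉ T := fun h => (mem_filter.1 (t1 h)).2.1 p3
  have s3 : (insert e0 T).card + ncl Q ≤ ncl P := by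
    rw [card_insert_of_notMem s2]
    omega
  refine ⟨insert e0 T, insert_subset he0 (t1.trans s1), s3, fun R h1 h2 =>
    t3 R (p2 R h1 (h2 e0 (mem_insert_self _ _))) fun e he => h2 e (mem_insert_of_mem he),
    fun τ hτ => ?_⟩
  have u1 := t4 (d e0) fun e he => hmin e (s1 he)
  have u2 : ∑ e ∈ xs2 a b H P' Q, (d e - d e0) ≤ ∑ e ∈ xs2 a b H P Q, (d e - d e0) :=
    sum_le_sum_of_subset_of_nonneg s1 fun e he _ => sub_nonneg.2 (hmin e he)
  have u3 : ((insert e0 T).card : ℝ) + ncl Q ≤ ncl P := by exact_mod_cast s3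
  have u4 : σ * (insert e0 T).card ≤ (xs2 a b H P Q).card := by nlinarith
  have u5 := mul_le_mul_of_nonneg_right u4 (sub_nonneg.2 (hτ e0 he0))
  have e1 : ∀ s : Finset E, ∑ e ∈ s, (d e - τ) = ∑ e ∈ s, (d e - d e0) + s.card * (d e0 - τ) :=
    fun s => by
      rw [← nsmul_eq_mul, ← sum_const, ← sum_add_distrib]
      exact sum_congr rfl fun e _ => by ring
  rw [e1, e1, sum_insert s2]
  nlinarith

end TKrAux

theorem tKr (hN : NclStmt) : KrStmt := by
  intro V E _ a b H P Q σ d hσ hPQ hG hd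
  obtain ⟨T, t1, t2, t3, t4⟩ := TKrAux.main hN a b H Q σ d hσ hG _ P rfl hPQ
  exact ⟨T, t1, t2, t3, by simpa using t4 0 fun e _ => hd e⟩

end Vale.Agent.P061
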