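import Vale.Agent.P061.Stm

open Finset Matrix
open scoped Classical

namespace Vale.Agent.P061

theorem tLR (hR : RankStmt) : LRStmt := by
  intro V _ μ Y α ζ hμ hα hζ
  let P : Matrix V V ℝ := diagonal (ind Y)
  have hPv : ∀ x v, (P *ᵥ x) v = ind Y v * x v := fun x v => mulVec_diagonal _ _ _
  have hPP : ∀ x, P *ᵥ (P *ᵥ x) = P *ᵥ x := by
    intro x
    funext v
    rw [hPv, hPv]
    unfold ind
    split_ifs <;> simp
  have hPs : ∀ x z, x ⬝ᵥ P *ᵥ z = (P *ᵥ x) ⬝ᵥ z := by
    intro x z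
    simp only [dotProduct, hPv]
    exact sum_congr rfl fun v _ => by ring
  let s : Finset V → V → ℝ := fun S => P *ᵥ ind S
  let M : Matrix V V ℝ := ∑ S, μ S • vecMulVec (s S) (s S)
  have hM : M.PosSemidef := hR.psd V _ univ s μ fun S _ => hμ S
  let G : Matrix V V ℝ := M + ζ • 1
  have hG : G.PosDef := PosDef.posSemidef_add hM (PosDef.one.smul hζ)
  have hGu : IsUnit G.det := (isUnit_iff_isUnit_det G).1 hG.isUnit
  have hq : ∀ x, qf (α • (P * G⁻¹ * P)) x = α * ((P *ᵥ x) ⬝ᵥ G⁻¹ *ᵥ (P *ᵥ x)) := by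
    intro x
    unfold qf
    rw [smul_mulVec, dotProduct_smul, smul_eq_mul, ← mulVec_mulVec, ← mulVec_mulVec, hPs]
  refine ⟨α • (P * G⁻¹ * P), ?_, ?_, ?_⟩
  · have h1 := hG.inv.posSemidef.conjTranspose_mul_mul_same P
    have h2 : Pᴴ = P := by simp [P]
    rw [h2] at h1
    exact h1.smul hα.le
  · have h1 : ∑ S, μ S * (s S ⬝ᵥ G⁻¹ *ᵥ s S) = trace (P * G⁻¹ * M) := by
      simp only [M, Finset.mul_sum, trace_sum]
      refine sum_congr rfl fun S _ => ?_
      rw [Matrix.mul_smul, trace_smul, mul_vecMulVec, trace_vecMulVec, smul_eq_mul,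
        ← mulVec_mulVec, ← hPs (G⁻¹ *ᵥ s S) (s S), dotProduct_comm]
      simp only [s, hPP]
    have h2 : P * G⁻¹ * M = P - ζ • (P * G⁻¹) := by
      have h3 : M = G - ζ • 1 := by simp [G]
      rw [h3, Matrix.mul_sub, Matrix.mul_assoc, nonsing_inv_mul G hGu]
      simp
    have h3 : trace P = Y.card := by
      simp [P, ind]
    have h4 : 0 ≤ trace (P * G⁻¹) := by
      refine sum_nonneg fun v _ => ?_
      rw [diag_apply, diagonal_mul]
      refine mul_nonneg ?_ hG.inv.posSemidef.diag_nonneg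
      unfold ind
      split_ifs <;> simp
    rw [h2, trace_sub, trace_smul, smul_eq_mul, h3] at h1
    have h5 : ∑ S, μ S * qf (α • (P * G⁻¹ * P)) (ind S) =
        α * ∑ S, μ S * (s S ⬝ᵥ G⁻¹ *ᵥ s S) := by
      rw [Finset.mul_sum]
      exact sum_congr rfl fun S _ => by rw [hq]; ring
    rw [h5, h1]
    have := mul_nonneg hζ.le h4
    exact mul_le_mul_of_nonneg_left (by linarith) hα.le
  · intro u hu v hv x
    let c : V → ℝ := Pi.single u 1 - Pi.single v 1
    have hc : ∀ z : V → ℝ, c ⬝ᵥ z = z u - z v := by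
      intro z
      simp [c, sub_dotProduct]
    have hcP : ∀ z : V → ℝ, c ⬝ᵥ P *ᵥ z = z u - z v := by
      intro z
      rw [hc, hPv, hPv]
      simp [ind, hu, hv]
    have hcc : c ⬝ᵥ c ≤ 2 := by
      rw [hc]
      by_cases h : u = v
      · simp [h]
      · simp [c, h, Ne.symm h]
        norm_num
    have hcG : qf G c ≤ cd μ u v + 2 * ζ := by
      have h1 : qf G c = qf M c + ζ * (c ⬝ᵥ c) := by
        simp [qf, G, add_mulVec, dotProduct_add, smul_mulVec]
      have h2 : qf M c = cd μ u v := by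
        rw [hR.form V _ univ s μ c]
        unfold cd
        refine sum_congr rfl fun S _ => ?_
        rw [dotProduct_comm, hcP]
      nlinarith
    have h1 := hR.cs V G (P *ᵥ x) c hG
    rw [dotProduct_comm, hcP] at h1
    have h2 := hR.nonneg V G (P *ᵥ x) hG
    rw [hq]
    set g := (P *ᵥ x) ⬝ᵥ G⁻¹ *ᵥ (P *ᵥ x)
    set B := cd μ u v + 2 * ζ
    have h3 : (x u - x v) ^ 2 ≤ g * B := h1.trans (mul_le_mul_of_nonneg_left hcG h2)
    have h4 : 0 ≤ B := (hR.qnonneg V G c hG.posSemidef).trans hcG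
    have h5 : 0 ≤ B / α + α * g := by positivity
    have h6 : (2 * (x u - x v)) ^ 2 ≤ (B / α + α * g) ^ 2 := by
      have h7 : B / α * (α * g) = g * B := by field_simp
      nlinarith [sq_nonneg (B / α - α * g)]
    have := (abs_le_of_sq_le_sq' h6 h5).2
    linarith

end Vale.Agent.P061
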