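import Vale.Agent.P061.Stm

open Finset Matrix
open scoped Classical

namespace Vale.Agent.P061

namespace TLamAux

/-- Difference of two unit vectors. -/
noncomputable def bv {V E : Type} (a b : E → V) (e : E) : V → ℝ :=
  Pi.single (a e) 1 - Pi.single (b e) 1

theorem bv_dot {V E : Type} [Fintype V] (a b : E → V) (e : E) (x : V → ℝ) :
    bv a b e ⬝ᵥ x = x (a e) - x (b e) := by
  simp [bv, sub_dotProduct]

/-- The grounding term. -/
noncomputable def gr {V : Type} (v0 : V) : Matrix V V ℝ :=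
  vecMulVec (Pi.single v0 1) (Pi.single v0 1)

/-- The grounded weighted Laplacian. -/
noncomputable def gl {V E : Type} (a b : E → V) (F : Finset E) (l : E → ℝ) (v0 : V) :
    Matrix V V ℝ := gr v0 + ∑ e ∈ F, l e • vecMulVec (bv a b e) (bv a b e)

variable {V E : Type} [Fintype V]

omit [Fintype V] in
theorem gr_eq (v0 : V) : gr v0 = ∑ _i ∈ (univ : Finset Unit),
    (1 : ℝ) • vecMulVec (Pi.single v0 (1 : ℝ) : V → ℝ) (Pi.single v0 (1 : ℝ) : V → ℝ) := by
  simp [gr]

theorem gr_psd (hR : RankStmt) (v0 : V) : (gr v0).PosSemidef := by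
  rw [gr_eq]
  exact hR.psd V Unit univ (fun _ => Pi.single v0 1) (fun _ => 1) fun _ _ => zero_le_one

theorem qf_gl (hR : RankStmt) (a b : E → V) (F : Finset E) (l : E → ℝ) (v0 : V) (x : V → ℝ) :
    qf (gl a b F l v0) x = wlap a b F l v0 x := by
  have h1 : qf (gr v0) x = x v0 ^ 2 := by
    rw [gr_eq, hR.form V Unit univ (fun _ => Pi.single v0 1) (fun _ => 1)]
    simp
  have h2 := hR.form V E F (bv a b) l x
  simp only [bv_dot] at h2
  rw [wlap, ← h1, ← h2]
  simp only [gl, qf, add_mulVec, dotProduct_add]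

omit [Fintype V] in
theorem wlap_pos (a b : E → V) (F T : Finset E) (l : E → ℝ) (v0 : V) (hT : T ⊆ F)
    (hG : Gen a b T ⊥ ⊤) (hl : ∀ e, 0 < l e) (x : V → ℝ) (hx : x ≠ 0) :
    0 < wlap a b F l v0 x := by
  have h0 : ∀ e ∈ F, 0 ≤ l e * (x (a e) - x (b e)) ^ 2 := fun e _ =>
    mul_nonneg (hl e).le (sq_nonneg _)
  have h1 := sum_nonneg h0
  have h2 := sq_nonneg (x v0)
  by_contra hc
  rw [wlap] at hc
  have h3 : x v0 = 0 := pow_eq_zero_iff (two_ne_zero) |>.1 (by linarith)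
  have h4 := (sum_eq_zero_iff_of_nonneg h0).1 (by linarith)
  have h5 : (⊤ : Setoid V) ≤ Setoid.ker x := by
    refine hG _ bot_le fun e he => ?_
    have h6 := (mul_eq_zero.1 (h4 e (hT he))).resolve_left (hl e).ne'
    have h7 := pow_eq_zero_iff (two_ne_zero) |>.1 h6
    exact sub_eq_zero.1 h7
  refine hx (funext fun v => ?_)
  have h8 : x v = x v0 := h5 (x := v) (y := v0) trivial
  rw [h8, h3]
  rfl

theorem gl_posDef (hR : RankStmt) (a b : E → V) (F T : Finset E) (l : E → ℝ) (v0 : V)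
    (hT : T ⊆ F) (hG : Gen a b T ⊥ ⊤) (hl : ∀ e, 0 < l e) : (gl a b F l v0).PosDef := by
  refine PosDef.of_dotProduct_mulVec_pos
    ((gr_psd hR v0).add (hR.psd V E F (bv a b) l fun e _ => (hl e).le)).isHermitian ?_
  intro x hx
  have := wlap_pos a b F T l v0 hT hG hl x hx
  rw [← qf_gl hR] at this
  simpa [qf] using this

omit [Fintype V] in
theorem gl_step (a b : E → V) (F : Finset E) (u : ℝ) (i : E → ℕ) (v0 : V) (e : E) (he : e ∈ F) :
    gl a b F (fun f => (1 - u) ^ Function.update i e (i e + 1) f) v0 =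
      gl a b F (fun f => (1 - u) ^ i f) v0 +
        (-(u * (1 - u) ^ i e)) • vecMulVec (bv a b e) (bv a b e) := by
  simp only [gl]
  rw [← add_sum_erase F _ he, ← add_sum_erase F _ he, Function.update_self,
    sum_congr rfl (g := fun f => (1 - u) ^ i f • vecMulVec (bv a b f) (bv a b f))
      fun f hf => by rw [Function.update_of_ne (ne_of_mem_erase hf)]]
  have : (1 - u) ^ (i e + 1) = (1 - u) ^ i e + -(u * (1 - u) ^ i e) := by ring
  rw [this, add_smul]
  abel

theorem exp_le (u : ℝ) (hu : u < 1) : Real.exp (-(u / (1 - u))) ≤ 1 - u := by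
  have h0 : 0 < 1 - u := by linarith
  have h1 := Real.add_one_le_exp (u / (1 - u))
  have h2 : u / (1 - u) + 1 = (1 - u)⁻¹ := by field_simp; ring
  rw [h2] at h1
  rw [Real.exp_neg]
  exact inv_le_of_inv_le₀ h0 h1

end TLamAux

open TLamAux in
theorem tLam (hK : KrStmt) (hC : ConnStmt) (_hN : NclStmt) (hR : RankStmt) (hD : DetLowStmt) :
    LamStmt := by
  intro V E _ a b F σ p v0 hσ hp hSt
  have : Nonempty V := ⟨v0⟩
  have hpσ : 0 < p * σ := by linarith
  have hp0 : 0 < p := (mul_pos_iff_of_pos_right hσ).1 hpσ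
  have hKr : ∀ i : E → ℕ, ∃ T, T ⊆ F ∧ Gen a b T ⊥ ⊤ ∧
      σ * ((∑ e ∈ T, i e : ℕ) : ℝ) ≤ ((∑ e ∈ F, i e : ℕ) : ℝ) := by
    intro i
    obtain ⟨T, h1, -, h3, h4⟩ := hK V E a b F ⊥ ⊤ σ (fun e => (i e : ℝ)) hσ bot_le
      (hC.good V E a b F σ hSt) fun e => Nat.cast_nonneg _
    refine ⟨T, h1.trans (filter_subset _ _), h3, ?_⟩
    push_cast
    exact h4.trans (sum_le_sum_of_subset_of_nonneg (filter_subset _ _)
      fun _ _ _ => Nat.cast_nonneg _)
  obtain ⟨T0, hT0, hG0, -⟩ := hKr 0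
  obtain ⟨u, hu⟩ : ∃ u : ℝ, u = (1 - 1 / (p * σ)) / 2 := ⟨_, rfl⟩
  have hi0 : 0 < 1 / (p * σ) := by positivity
  have hi1 : 1 / (p * σ) < 1 := by rw [div_lt_one (by linarith)]; exact hp
  have hu0 : 0 < u := by linarith
  have hu1 : 0 < 1 - u := by linarith
  have hpd : ∀ i : E → ℕ, (gl a b F (fun f => (1 - u) ^ i f) v0).PosDef := fun i =>
    gl_posDef hR a b F T0 _ v0 hT0 hG0 fun e => pow_pos hu1 _
  by_contra hcon
  have hstep : ∀ i : E → ℕ, ∃ e ∈ F, p < (1 - u) ^ i e *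
      (bv a b e ⬝ᵥ (gl a b F (fun f => (1 - u) ^ i f) v0)⁻¹ *ᵥ bv a b e) := by
    intro i
    by_contra hc
    push Not at hc
    refine hcon ⟨fun f => (1 - u) ^ i f, fun e => pow_pos hu1 _,
      wlap_pos a b F T0 _ v0 hT0 hG0 fun e => pow_pos hu1 _, fun e he x => ?_⟩
    have h1 := hR.cs V _ (bv a b e) x (hpd i)
    have h2 := hR.qnonneg V _ x (hpd i).posSemidef
    rw [bv_dot] at h1
    rw [qf_gl hR] at h1 h2
    have h3 := mul_le_mul_of_nonneg_left h1 (pow_pos hu1 (i e)).le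
    have h4 := mul_le_mul_of_nonneg_right (hc e he) h2
    linarith
  obtain ⟨d0, hd0⟩ : ∃ d0, d0 = (gl a b F (fun f => (1 - u) ^ (0 : E → ℕ) f) v0).det := ⟨_, rfl⟩
  have hall : ∀ N : ℕ, ∃ i : E → ℕ, ∑ e ∈ F, i e = N ∧
      (gl a b F (fun f => (1 - u) ^ i f) v0).det ≤ d0 * Real.exp (-(u * p * N)) := by
    intro N
    induction N with
    | zero => exact ⟨0, by simp, by simp [hd0]⟩
    | succ N ih =>
      obtain ⟨i, h1, h2⟩ := ih
      obtain ⟨e, he, h3⟩ := hstep i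
      refine ⟨Function.update i e (i e + 1), ?_, ?_⟩
      · rw [sum_update_of_mem he, ← h1, ← add_sum_erase F _ he, sdiff_singleton_eq_erase]
        ring
      · rw [gl_step a b F u i v0 e he, hR.det V _ _ _ (hpd i)]
        have h4 := Real.add_one_le_exp (-(u * p))
        have h5 := mul_lt_mul_of_pos_left h3 hu0
        have h6 : -(u * p * ((N + 1 : ℕ) : ℝ)) = -(u * p * N) + -(u * p) := by
          push_cast
          ring
        rw [h6, Real.exp_add, ← mul_assoc]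
        refine le_trans (mul_le_mul_of_nonneg_left (c := Real.exp (-(u * p))) (by linarith)
          (hpd i).det_pos.le) ?_
        exact mul_le_mul_of_nonneg_right h2 (Real.exp_pos _).le
  have hone : ∀ T : Finset E, gl a b T (fun _ => 1) v0 =
      gr v0 + ∑ e ∈ T, vecMulVec (bv a b e) (bv a b e) := fun T => by simp [gl]
  obtain ⟨T1, hT1, hmin⟩ := exists_min_image (F.powerset.filter fun T => Gen a b T ⊥ ⊤)
    (fun T => (gl a b T (fun _ => 1) v0).det) ⟨T0, mem_filter.2 ⟨mem_powerset.2 hT0, hG0⟩⟩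
  have hm0 : 0 < (gl a b T1 (fun _ => 1) v0).det :=
    (gl_posDef hR a b T1 T1 _ v0 subset_rfl (mem_filter.1 hT1).2 fun _ => one_pos).det_pos
  generalize (gl a b T1 (fun _ => 1) v0).det = m0 at hmin hm0
  obtain ⟨c, hc⟩ : ∃ c : ℝ, c = u * p - u / (1 - u) / σ := ⟨_, rfl⟩
  have hc0 : 0 < c := by
    have h1 : (1 - u) * (p * σ) = (p * σ + 1) / 2 := by
      rw [hu]
      field_simp
      ring
    have h2 : u / (1 - u) / σ < u * p := by
      rw [div_div, div_lt_iff₀ (by positivity)]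
      have : u * p * ((1 - u) * σ) = u * ((1 - u) * (p * σ)) := by ring
      rw [this, h1]
      nlinarith
    linarith
  obtain ⟨N, hN⟩ := exists_nat_gt (d0 / (m0 * c))
  rw [div_lt_iff₀ (by positivity)] at hN
  obtain ⟨i, h1, h2⟩ := hall N
  obtain ⟨T, hT, hG, h3⟩ := hKr i
  rw [h1] at h3
  have h4 := hD V E (gr v0) F T (bv a b) (fun f => (1 - u) ^ i f) (gr_psd hR v0) hT
    (fun f => ⟨pow_pos hu1 _, pow_le_one₀ hu1.le (by linarith)⟩)
    (hone T ▸ gl_posDef hR a b T T _ v0 subset_rfl hG fun _ => one_pos)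
  rw [← hone T, prod_pow_eq_pow_sum] at h4
  have h5 := hmin T (mem_filter.2 ⟨mem_powerset.2 hT, hG⟩)
  have h6 : Real.exp (-(u / (1 - u) / σ * N)) ≤ (1 - u) ^ ∑ e ∈ T, i e := by
    refine le_trans ?_ (pow_le_pow_left₀ (Real.exp_pos _).le (exp_le u (by linarith)) _)
    rw [← Real.exp_nat_mul, Real.exp_le_exp]
    have h7 : 0 ≤ u / (1 - u) / σ := by positivity
    have h8 := mul_le_mul_of_nonneg_left h3 h7
    have h9 : u / (1 - u) / σ * (σ * ((∑ e ∈ T, i e : ℕ) : ℝ)) =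
        ((∑ e ∈ T, i e : ℕ) : ℝ) * (u / (1 - u)) := by field_simp
    linarith
  have h7 : Real.exp (-(u / (1 - u) / σ * N)) * m0 ≤ d0 * Real.exp (-(u * p * N)) :=
    le_trans (mul_le_mul h6 h5 hm0.le (pow_pos hu1 _).le) (h4.trans h2)
  have h8 : -(u / (1 - u) / σ * N) = c * N + -(u * p * N) := by
    rw [hc]
    ring
  rw [h8, Real.exp_add, mul_right_comm] at h7
  have h9 := le_of_mul_le_mul_right h7 (Real.exp_pos _)
  have h10 := mul_le_mul_of_nonneg_right (Real.add_one_le_exp (c * N)) hm0.le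
  nlinarith

end Vale.Agent.P061
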