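import Vale.Agent.P061.Stm

open Finset Matrix
open scoped Classical

namespace Vale.Agent.P061

namespace TLatAux

variable {V E : Type} [Fintype E]

/-- Minimisers of `gval`. -/
def IsMin' (a b : E → V) (x : E → ℝ) (σ : ℝ) (P : Setoid V) : Prop :=
  ∀ Q, gval a b x σ P ≤ gval a b x σ Q

theorem sum_xs (a b : E → V) (x : E → ℝ) (P : Setoid V) :
    ∑ e ∈ xs a b univ P, x e = ∑ e, if P (a e) (b e) then 0 else x e := by
  unfold xs
  rw [Finset.sum_filter]
  refine Finset.sum_congr rfl fun e _ => ?_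
  by_cases h : P (a e) (b e) <;> simp [h]

theorem point (P Q : Setoid V) (u v : V) {y : ℝ} (hy : 0 < y) :
    ((if (P ⊓ Q) u v then 0 else y) + (if (P ⊔ Q) u v then 0 else y) ≤
      (if P u v then 0 else y) + (if Q u v then 0 else y)) ∧
    (¬ P u v → ¬ Q u v → (P ⊔ Q) u v →
      (if (P ⊓ Q) u v then 0 else y) + (if (P ⊔ Q) u v then 0 else y) <
      (if P u v then 0 else y) + (if Q u v then 0 else y)) := by
  have h1 : (P ⊓ Q) u v ↔ P u v ∧ Q u v := Setoid.inf_iff_and
  have h2 : P u v → (P ⊔ Q) u v := fun h => Setoid.le_def.1 (le_sup_left : P ≤ P ⊔ Q) h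
  have h3 : Q u v → (P ⊔ Q) u v := fun h => Setoid.le_def.1 (le_sup_right : Q ≤ P ⊔ Q) h
  by_cases hP : P u v <;> by_cases hQ : Q u v <;> by_cases hS : (P ⊔ Q) u v <;>
    simp_all <;> linarith

theorem submod [Fintype V] (hN : NclStmt) (a b : E → V) {x : E → ℝ} {σ : ℝ} (hσ : 0 ≤ σ)
    (hx : ∀ e, 0 < x e) (P Q : Setoid V) :
    gval a b x σ (P ⊓ Q) + gval a b x σ (P ⊔ Q) ≤ gval a b x σ P + gval a b x σ Q ∧
    ∀ e, ¬ P (a e) (b e) → ¬ Q (a e) (b e) → (P ⊔ Q) (a e) (b e) →
      gval a b x σ (P ⊓ Q) + gval a b x σ (P ⊔ Q) < gval a b x σ P + gval a b x σ Q := by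
  have h1 : (ncl P : ℝ) + ncl Q ≤ ncl (P ⊓ Q) + ncl (P ⊔ Q) := by exact_mod_cast hN.semi V P Q
  have h2 := mul_le_mul_of_nonneg_left h1 hσ
  unfold gval
  simp only [sum_xs]
  have h3 := Finset.sum_le_sum fun e (_ : e ∈ univ) => (point P Q (a e) (b e) (hx e)).1
  rw [Finset.sum_add_distrib, Finset.sum_add_distrib] at h3
  refine ⟨by linarith, fun e hP hQ hS => ?_⟩
  have h4 := Finset.sum_lt_sum (fun e (_ : e ∈ univ) => (point P Q (a e) (b e) (hx e)).1)
    ⟨e, mem_univ e, (point P Q (a e) (b e) (hx e)).2 hP hQ hS⟩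
  rw [Finset.sum_add_distrib, Finset.sum_add_distrib] at h4
  linarith

theorem min_inf [Fintype V] (hN : NclStmt) (a b : E → V) {x : E → ℝ} {σ : ℝ} (hσ : 0 ≤ σ)
    (hx : ∀ e, 0 < x e) {P Q : Setoid V} (hP : IsMin' a b x σ P) (hQ : IsMin' a b x σ Q) :
    IsMin' a b x σ (P ⊓ Q) := by
  intro R
  have h1 := (submod hN a b hσ hx P Q).1
  have h2 := hQ (P ⊔ Q)
  have h3 := hP R
  linarith

theorem min_sup [Fintype V] (hN : NclStmt) (a b : E → V) {x : E → ℝ} {σ : ℝ} (hσ : 0 ≤ σ)
    (hx : ∀ e, 0 < x e) {P Q : Setoid V} (hP : IsMin' a b x σ P) (hQ : IsMin' a b x σ Q) :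
    IsMin' a b x σ (P ⊔ Q) := by
  intro R
  have h1 := (submod hN a b hσ hx P Q).1
  have h2 := hQ (P ⊓ Q)
  have h3 := hP R
  linarith

theorem cross_sup [Fintype V] (hN : NclStmt) (a b : E → V) {x : E → ℝ} {σ : ℝ} (hσ : 0 ≤ σ)
    (hx : ∀ e, 0 < x e) {P Q : Setoid V} (hP : IsMin' a b x σ P) (hQ : IsMin' a b x σ Q) (e : E)
    (h1 : ¬ P (a e) (b e)) (h2 : ¬ Q (a e) (b e)) : ¬ (P ⊔ Q) (a e) (b e) := by
  intro h
  have h3 := (submod hN a b hσ hx P Q).2 e h1 h2 h
  have h4 := hQ (P ⊓ Q)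
  have h5 := hP (P ⊔ Q)
  linarith

theorem good_of_min (a b : E → V) {x : E → ℝ} {σ : ℝ} (hx : ∀ e, x e ≤ 1) {P : Setoid V}
    (hP : IsMin' a b x σ P) : Good a b univ P σ := by
  intro R hR
  have h1 := hP R
  unfold gval at h1
  simp only [sum_xs] at h1
  have h2 : ((xs2 a b univ R P).card : ℝ) =
      ∑ e, if ¬ R (a e) (b e) ∧ P (a e) (b e) then (1 : ℝ) else 0 := by
    unfold xs2
    rw [Finset.card_filter]
    push_cast
    refine Finset.sum_congr rfl fun e _ => ?_
    by_cases h : ¬ R (a e) (b e) ∧ P (a e) (b e) <;> simp [h]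
  have h3 : ∑ e, (if R (a e) (b e) then 0 else x e) ≤ ∑ e, ((if P (a e) (b e) then 0 else x e) +
      if ¬ R (a e) (b e) ∧ P (a e) (b e) then (1 : ℝ) else 0) := by
    refine Finset.sum_le_sum fun e _ => ?_
    have h4 : R (a e) (b e) → P (a e) (b e) := fun h => Setoid.le_def.1 hR h
    have h5 := hx e
    by_cases hp : P (a e) (b e) <;> by_cases hr : R (a e) (b e) <;> simp_all
  rw [Finset.sum_add_distrib] at h3
  rw [h2]
  linarith

omit [Fintype E] in
theorem inf_rel (s : Finset E) (R : E → Setoid V) (u v : V) :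
    (s.inf R) u v ↔ ∀ e ∈ s, R e u v := by
  induction s using Finset.induction_on with
  | empty =>
    rw [Finset.inf_empty]
    exact ⟨fun _ e he => absurd he (Finset.notMem_empty e), fun _ => trivial⟩
  | insert e s _ ih =>
    rw [Finset.inf_insert, Setoid.inf_iff_and, ih]
    simp

/-- Members of the support crossed by `e`. -/
noncomputable def crs [Fintype V] (a b : E → V) (c : Setoid V → ℝ) (e : E) : Finset (Setoid V) :=
  univ.filter fun P => 0 < c P ∧ ¬ P (a e) (b e)

omit [Fintype E] in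
theorem wts_eq [Fintype V] (a b : E → V) {c : Setoid V → ℝ} (hc : ∀ P, 0 ≤ c P) (e : E) :
    wts a b c e = ∑ P ∈ crs a b c e, c P := by
  unfold wts crs
  rw [Finset.sum_filter]
  refine Finset.sum_congr rfl fun P _ => ?_
  by_cases h : P (a e) (b e)
  · simp [h]
  · rcases (hc P).eq_or_lt with h0 | h0
    · simp [← h0]
    · simp [h, h0]

end TLatAux

open TLatAux in
theorem tLat (hN : NclStmt) : LatStmt := by
  intro V E _ _ a b x σ c hσ hx hc hG hm
  have hx0 : ∀ e, 0 < x e := fun e => (hx e).1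
  have hne : ∀ e, 0 < wts a b c e → (crs a b c e).Nonempty := by
    intro e he
    rw [wts_eq a b hc] at he
    by_contra h
    rw [Finset.not_nonempty_iff_eq_empty.1 h, Finset.sum_empty] at he
    exact lt_irrefl _ he
  have hR : ∀ e, 0 < wts a b c e → IsMin' a b x σ ((crs a b c e).sup id) ∧
      ¬ ((crs a b c e).sup id : Setoid V) (a e) (b e) := by
    intro e he
    rw [← Finset.sup'_eq_sup (hne e he)]
    refine Finset.sup'_induction (hne e he) id
      (p := fun P : Setoid V => IsMin' a b x σ P ∧ ¬ P (a e) (b e)) ?_ ?_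
    · intro P hP Q hQ
      exact ⟨min_sup hN a b hσ hx0 hP.1 hQ.1, cross_sup hN a b hσ hx0 hP.1 hQ.1 e hP.2 hQ.2⟩
    · intro P hP
      have h1 := (Finset.mem_filter.1 hP).2
      exact ⟨hm P h1.1, h1.2⟩
  refine ⟨fun t => (univ.filter fun e => t ≤ wts a b c e).inf fun e => (crs a b c e).sup id,
    ?_, ?_, ?_, ?_⟩
  · intro e
    rw [wts_eq a b hc]
    exact Finset.sum_nonneg fun P _ => hc P
  · intro s t _ hst
    refine Finset.inf_mono fun e he => ?_
    exact Finset.mem_filter.2 ⟨mem_univ e, le_trans hst (Finset.mem_filter.1 he).2⟩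
  · intro t ht
    have h1 : (fun P : Setoid V => P = ⊤ ∨ IsMin' a b x σ P)
        ((univ.filter fun e => t ≤ wts a b c e).inf fun e => (crs a b c e).sup id) := by
      refine Finset.inf_induction (p := fun P : Setoid V => P = ⊤ ∨ IsMin' a b x σ P)
        (Or.inl rfl) ?_ ?_
      · intro P hP Q hQ
        rcases hP with rfl | hP
        · rwa [top_inf_eq]
        · rcases hQ with rfl | hQ
          · rw [inf_top_eq]
            exact Or.inr hP
          · exact Or.inr (min_inf hN a b hσ hx0 hP hQ)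
      · intro e he
        exact Or.inr (hR e (lt_of_lt_of_le ht (Finset.mem_filter.1 he).2)).1
    rcases h1 with h1 | h1
    · rw [h1]
      exact hG
    · exact good_of_min a b (fun e => (hx e).2) h1
  · intro t ht e
    rw [inf_rel]
    constructor
    · intro h
      by_contra hlt
      apply h
      intro e' he'
      by_contra hcr
      apply hlt
      refine le_trans (Finset.mem_filter.1 he').2 ?_
      rw [wts_eq a b hc, wts_eq a b hc]
      refine Finset.sum_le_sum_of_subset_of_nonneg (fun P hP => ?_) fun P _ _ => hc P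
      refine Finset.mem_filter.2 ⟨mem_univ P, (Finset.mem_filter.1 hP).2.1, fun hPe => hcr ?_⟩
      exact Setoid.le_def.1 (Finset.le_sup (f := id) hP) hPe
    · intro h h2
      exact (hR e (lt_of_lt_of_le ht h)).2 (h2 e (Finset.mem_filter.2 ⟨mem_univ e, h⟩))

end Vale.Agent.P061
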