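import Vale.Agent.P061.Stm

open Finset Matrix
open scoped Classical

namespace Vale.Agent.P061

namespace TLevAux

variable {Q : Type} {q0 : Q}

/-- extension by zero -/
noncomputable def ext0 (z : {q : Q // q ≠ q0} → ℝ) (q : Q) : ℝ :=
  if h : q ≠ q0 then z ⟨q, h⟩ else 0

/-- coordinate vector -/
noncomputable def bs (q0 q : Q) (r : {q : Q // q ≠ q0}) : ℝ := if r.1 = q then 1 else 0

theorem bs_dot [Fintype {q : Q // q ≠ q0}] (q : Q) (z : {q : Q // q ≠ q0} → ℝ) :
    bs q0 q ⬝ᵥ z = ext0 z q := by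
  unfold ext0 dotProduct bs
  split_ifs with h
  · rw [sum_eq_single (⟨q, h⟩ : {q : Q // q ≠ q0})]
    · simp
    · intro r _ hr
      rw [if_neg fun e => hr (Subtype.ext e), zero_mul]
    · simp
  · refine sum_eq_zero fun r _ => ?_
    rw [if_neg fun e : r.1 = q => h (e ▸ r.2), zero_mul]

end TLevAux

open TLevAux in
theorem tLev (hT : TrStmt) (hN : NclStmt) : LevStmt := by
  intro V E _ a b F lam p v0 hp h1 h2 P
  let q0 := Quotient.mk P v0
  let n := {q : Quotient P // q ≠ q0}
  let _ : Fintype n := Fintype.ofFinite n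
  let c : E → n → ℝ := fun e => bs q0 (Quotient.mk P (a e)) - bs q0 (Quotient.mk P (b e))
  let x : (n → ℝ) → V → ℝ := fun z v => ext0 z (Quotient.mk P v)
  have hc : ∀ e z, c e ⬝ᵥ z = x z (a e) - x z (b e) := fun e z => by
    rw [sub_dotProduct, bs_dot, bs_dot]
  have hw : ∀ z, ∑ e ∈ F, lam e * (c e ⬝ᵥ z) ^ 2 = wlap a b F lam v0 (x z) := fun z => by
    have : x z v0 = 0 := dif_neg (not_not.2 rfl)
    rw [wlap, this]
    simp only [hc]
    ring
  have hx : ∀ z, z ≠ 0 → x z ≠ 0 := fun z hz h => hz <| funext fun r => by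
    obtain ⟨r, hr⟩ := r
    induction r using Quotient.ind with
    | _ v => exact (dif_pos hr).symm.trans (congrFun h v)
  have key := hT n E F c lam p hp.le (fun z hz => hw z ▸ h1 _ (hx z hz))
    fun e he z => by rw [hw, hc]; exact h2 e he _
  have hcard : Fintype.card n + 1 = ncl P := by
    rw [ncl, ← Nat.card_congr (Equiv.optionSubtypeNe q0), Finite.card_option,
      Nat.card_eq_fintype_card]
  have hsub : (F.filter fun e => c e ≠ 0) ⊆ xs a b F P := fun e he => by
    obtain ⟨h, h'⟩ := mem_filter.1 he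
    refine mem_filter.2 ⟨h, fun hP => h' ?_⟩
    show bs q0 (Quotient.mk P (a e)) - bs q0 (Quotient.mk P (b e)) = 0
    rw [Quotient.sound hP, sub_self]
  have h3 : ((F.filter fun e => c e ≠ 0).card : ℝ) ≤ (xs a b F P).card :=
    Nat.cast_le.2 (card_le_card hsub)
  rw [← hcard, one_div, inv_mul_le_iff₀ hp]
  push_cast
  have h4 := mul_le_mul_of_nonneg_left h3 hp.le
  linarith

end Vale.Agent.P061
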