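import Vale.Agent.P061.Stm

/-! P061: one level of the tower (join, then save at the contacts). -/

open Finset Matrix
open scoped Classical

namespace Vale.Agent.P061

theorem tLevel (hJ : JoinStmt) (hS : SaveStmt) : LevelStmt := by
  intro V A E _ _ _ a b X S ε δ P Q T I H hε hH hδ hδ' hPQ hOk hD hT hG hL
  have hH' : (4 : ℝ) ≤ H := by exact_mod_cast hH
  have hρ : 0 < (H : ℝ) * ε := by positivity
  obtain ⟨S1, h1, hsub, hold, hcard, hadj⟩ := hJ V A E a b X S ε δ P Q T hε hδ hPQ hOk hD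
    (fun e he => (mem_filter.1 (hT he)).2.2) hG
  choose n hn hnP hnd using hD
  have tri : ∀ u v w : A, ‖u - w‖ ≤ ‖u - v‖ + ‖v - w‖ := fun u v w => norm_sub_le_norm_sub_add_norm_sub u v w
  have hC : ∀ e ∈ I, S1.Contact Q (H * ε) (X (a e)) (n (a e)) (n (b e)) := by
    intro e he
    obtain ⟨hnP', hQ⟩ := (mem_filter.1 (hL.sub he)).2
    refine ⟨hsub (hn _), hsub (hn _), ?_, ?_, ?_, ?_⟩
    · rw [(hold _ (hn _)).2, (hold _ (hn _)).2]
      exact Q.trans' (hPQ (hnP _)) (Q.trans' hQ (Q.symm' (hPQ (hnP _))))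
    · rw [(hold _ (hn _)).1]
      linarith [hnd (a e)]
    · rw [(hold _ (hn _)).1]
      have h2 := hL.short e he
      rw [norm_sub_rev] at h2
      linarith [hnd (b e), tri (S.pos (n (b e))) (X (b e)) (X (a e))]
    · intro hR
      have key : ∀ z, S1.Rin (X (a e)) (4 * (H * ε)) (n (a e)) z →
          z ∈ S.N ∧ P (S.own z) (a e) := by
        intro z hz
        induction hz with
        | refl => exact ⟨hn _, hnP _⟩
        | @tail u v _ huv ih =>
          obtain ⟨hu, hu'⟩ := ih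
          obtain ⟨h3, h4, -⟩ := huv
          rw [(hold u hu).1, norm_sub_rev] at h4
          rcases hadj u hu v h3 with h5 | ⟨f, hf, h5⟩
          · exact ⟨(hOk.mem u v h5).2, P.trans' (P.symm' (hOk.lab u v h5)) hu'⟩
          · exfalso
            obtain ⟨h6, h7⟩ := hL.away e he f hf
            rcases h5 with h5 | h5
            · linarith [tri (X (a e)) (S.pos u) (X (a f))]
            · linarith [tri (X (a e)) (S.pos u) (X (b f))]
      exact hnP' (P.trans' (P.symm' (key _ hR).2) (hnP _))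
  obtain ⟨S', h2, hc, hnear⟩ := hS V A E S1 ε Q H I (fun e => X (a e)) (fun e => n (a e))
    (fun e => n (b e)) hε hH h1 hL.sep hC
  refine ⟨S', h2, fun v => ?_, ?_⟩
  · obtain ⟨x', hx', h3, h4⟩ := hnear (n v) (hsub (hn v))
    rw [(hold _ (hn _)).2] at h3
    rw [(hold _ (hn _)).1] at h4
    exact ⟨x', hx', Q.trans' h3 (hPQ (hnP v)), by linarith [hnd v, tri (S'.pos x') (S.pos (n v)) (X v)]⟩
  · have hc' : 2 * (S'.N.card : ℝ) + H * I.card ≤ 2 * S1.N.card := by exact_mod_cast hc
    have h3 := mul_le_mul_of_nonneg_right hc' hε.le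
    have h4 : 2 * (2 * δ + ε) ≤ H * ε := by nlinarith
    have h5 := mul_le_mul_of_nonneg_right h4 (Nat.cast_nonneg (α := ℝ) T.card)
    nlinarith

end Vale.Agent.P061
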