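import Vale.Agent.P061.Stm
import Vale.Agent.P371.Brouwer

open Finset Matrix
open scoped Classical

namespace Vale.Agent.P061

namespace TNashAux

variable {ι : Type} [Fintype ι]

/-- Average value. -/
noncomputable def gbar (G : (ι → ℝ) → ι → ℝ) (c : ι → ℝ) : ℝ := ∑ k, c k * G c k

/-- Gain of a deviation. -/
noncomputable def gain (G : (ι → ℝ) → ι → ℝ) (c : ι → ℝ) (j : ι) : ℝ := max (gbar G c - G c j) 0

/-- The Nash map. -/
noncomputable def nmap (G : (ι → ℝ) → ι → ℝ) (c : ι → ℝ) : ι → ℝ :=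
  fun j => (c j + gain G c j) / (1 + ∑ k, gain G c k)

theorem gain_nonneg (G : (ι → ℝ) → ι → ℝ) (c : ι → ℝ) (j : ι) : 0 ≤ gain G c j :=
  le_max_right _ _

theorem den_pos (G : (ι → ℝ) → ι → ℝ) (c : ι → ℝ) : 0 < 1 + ∑ k, gain G c k := by
  have := Finset.sum_nonneg fun k (_ : k ∈ univ) => gain_nonneg G c k
  linarith

theorem cont_gain {G : (ι → ℝ) → ι → ℝ} (hG : ∀ j, Continuous fun c => G c j) (j : ι) :
    Continuous fun c => gain G c j := by
  unfold gain gbar
  refine Continuous.max (Continuous.sub ?_ (hG j)) continuous_const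
  exact continuous_finsetSum _ fun k _ => (continuous_apply k).mul (hG k)

theorem cont_nmap {G : (ι → ℝ) → ι → ℝ} (hG : ∀ j, Continuous fun c => G c j) :
    Continuous (nmap G) := by
  refine continuous_pi fun j => ?_
  unfold nmap
  refine Continuous.div ((continuous_apply j).add (cont_gain hG j)) ?_ fun c => (den_pos G c).ne'
  exact continuous_const.add (continuous_finsetSum _ fun k _ => cont_gain hG k)

theorem maps_nmap (G : (ι → ℝ) → ι → ℝ) :
    Set.MapsTo (nmap G) (stdSimplex ℝ ι) (stdSimplex ℝ ι) := by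
  intro c hc
  refine ⟨fun j => div_nonneg (add_nonneg (hc.1 j) (gain_nonneg G c j)) (den_pos G c).le, ?_⟩
  unfold nmap
  rw [← Finset.sum_div, Finset.sum_add_distrib, hc.2]
  exact div_self (den_pos G c).ne'

theorem sum_dev (G : (ι → ℝ) → ι → ℝ) {c : ι → ℝ} (hc : c ∈ stdSimplex ℝ ι) :
    ∑ j, c j * (G c j - gbar G c) = 0 := by
  simp only [mul_sub, Finset.sum_sub_distrib]
  rw [← Finset.sum_mul, hc.2, one_mul]
  exact sub_self _

theorem fixed (G : (ι → ℝ) → ι → ℝ) {c : ι → ℝ} (hc : c ∈ stdSimplex ℝ ι) (h : nmap G c = c)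
    (j : ι) : gbar G c ≤ G c j := by
  have hA : ∀ k, c k * ∑ l, gain G c l = gain G c k := by
    intro k
    have h1 := congrFun h k
    unfold nmap at h1
    rw [div_eq_iff (den_pos G c).ne'] at h1
    linarith
  by_contra hlt
  have hj : 0 < gain G c j := lt_max_of_lt_left (by linarith [not_le.1 hlt])
  have hS : 0 < ∑ l, gain G c l :=
    Finset.sum_pos' (fun k _ => gain_nonneg G c k) ⟨j, mem_univ j, hj⟩
  have hle : ∀ k, c k * (G c k - gbar G c) ≤ 0 ∧ (0 < c k → c k * (G c k - gbar G c) < 0) := by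
    intro k
    have key : 0 < c k → c k * (G c k - gbar G c) < 0 := by
      intro hk
      have h2 : 0 < gain G c k := by rw [← hA k]; exact mul_pos hk hS
      have h3 : 0 < gbar G c - G c k := by
        rcases lt_max_iff.1 h2 with h4 | h4
        · exact h4
        · exact absurd h4 (lt_irrefl _)
      exact mul_neg_of_pos_of_neg hk (by linarith)
    refine ⟨?_, key⟩
    rcases (hc.1 k).eq_or_lt with h0 | h0
    · rw [← h0, zero_mul]
    · exact (key h0).le
  have hcj : 0 < c j := by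
    rcases (hc.1 j).eq_or_lt with h0 | h0
    · have := hA j
      rw [← h0, zero_mul] at this
      linarith
    · exact h0
  have hneg : ∑ k, c k * (G c k - gbar G c) < ∑ _k : ι, (0 : ℝ) :=
    Finset.sum_lt_sum (fun k _ => (hle k).1) ⟨j, mem_univ j, (hle j).2 hcj⟩
  rw [sum_dev G hc, Finset.sum_const_zero] at hneg
  exact lt_irrefl _ hneg

end TNashAux

open TNashAux in
theorem tNash : NashStmt := by
  intro ι _ _ G hG
  obtain ⟨c, hc, h⟩ := Vale.Agent.P371.brouwer (convex_stdSimplex ℝ ι) (isCompact_stdSimplex ℝ ι)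
    ⟨_, single_mem_stdSimplex ℝ (Classical.arbitrary ι)⟩ (cont_nmap hG).continuousOn (maps_nmap G)
  refine ⟨c, hc, fun i hi j => ?_⟩
  have h0 := (Finset.sum_eq_zero_iff_of_nonneg fun k (_ : k ∈ univ) =>
    mul_nonneg (hc.1 k) (sub_nonneg.2 (fixed G hc h k))).1 (sum_dev G hc) i (mem_univ i)
  have h1 : G c i - gbar G c = 0 := (mul_eq_zero.1 h0).resolve_left hi.ne'
  have := fixed G hc h j
  linarith

end Vale.Agent.P061
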