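import Vale.Agent.P061.Stm

open Finset Matrix
open scoped Classical

namespace Vale.Agent.P061

namespace TNclAux

variable {V : Type}

/-- functions constant on the classes -/
def FP (P : Setoid V) : Submodule ℚ (V → ℚ) where
  carrier := {f | ∀ u v, P u v → f u = f v}
  add_mem' := fun hf hg u v h => by rw [Pi.add_apply, Pi.add_apply, hf u v h, hg u v h]
  zero_mem' := fun _ _ _ => rfl
  smul_mem' := fun c f hf u v h => by rw [Pi.smul_apply, Pi.smul_apply, hf u v h]

theorem mem_FP {P : Setoid V} {f : V → ℚ} : f ∈ FP P ↔ P ≤ Setoid.ker f :=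
  ⟨fun h _ _ huv => h _ _ huv, fun h _ _ huv => h huv⟩

/-- pull back along the quotient map -/
def eqv (P : Setoid V) : (Quotient P → ℚ) ≃ₗ[ℚ] FP P where
  toFun g := ⟨fun v => g (Quotient.mk P v), fun _ _ h => congrArg g (Quotient.sound h)⟩
  map_add' _ _ := rfl
  map_smul' _ _ := rfl
  invFun f := Quotient.lift f.1 fun u v h => f.2 u v h
  left_inv g := by funext x; induction x using Quotient.ind; rfl
  right_inv _ := rfl

theorem finrank_FP [Fintype V] (P : Setoid V) : Module.finrank ℚ (FP P) = ncl P := by
  rw [← (eqv P).finrank_eq, Module.finrank_pi, ncl, Nat.card_eq_fintype_card]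

/-- the map between quotients -/
def qm {P Q : Setoid V} (h : P ≤ Q) : Quotient P → Quotient Q :=
  Quotient.lift (fun v => Quotient.mk Q v) fun _ _ huv => Quotient.sound (h huv)

theorem qm_surj {P Q : Setoid V} (h : P ≤ Q) : Function.Surjective (qm h) := fun x => by
  induction x using Quotient.ind with
  | _ v => exact ⟨Quotient.mk P v, rfl⟩

end TNclAux

open TNclAux in
theorem tNcl : NclStmt where
  semi V _ P Q := by
    have h1 : FP (P ⊔ Q) = FP P ⊓ FP Q := by
      ext f
      rw [Submodule.mem_inf, mem_FP, mem_FP, mem_FP, sup_le_iff]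
    have h2 : FP P ⊔ FP Q ≤ FP (P ⊓ Q) :=
      sup_le (fun f hf => mem_FP.2 (inf_le_left.trans (mem_FP.1 hf)))
        fun f hf => mem_FP.2 (inf_le_right.trans (mem_FP.1 hf))
    have h3 := Submodule.finrank_sup_add_finrank_inf_eq (FP P) (FP Q)
    have h4 := Submodule.finrank_mono h2
    rw [← h1, finrank_FP, finrank_FP, finrank_FP] at h3
    rw [finrank_FP] at h4
    omega
  anti V _ P Q h := Nat.card_le_card_of_surjective _ (qm_surj h)
  lt V _ P Q h hn := by
    rw [ncl, ncl, Nat.card_eq_fintype_card, Nat.card_eq_fintype_card]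
    refine Fintype.card_lt_of_surjective_not_injective _ (qm_surj h) fun hi => hn ?_
    intro u v huv
    exact Quotient.exact (hi (a₁ := Quotient.mk P u) (a₂ := Quotient.mk P v) (Quotient.sound huv))
  pos V _ hV P := by
    have : Nonempty (Quotient P) := hV.map (Quotient.mk P)
    exact Nat.card_pos
  top V _ hV := by
    rw [ncl, Nat.card_eq_one_iff_unique]
    refine ⟨⟨fun x y => ?_⟩, hV.map (Quotient.mk ⊤)⟩
    induction x using Quotient.ind
    induction y using Quotient.ind
    exact Quotient.sound trivial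
  bot V _ := by
    rw [ncl, ← Nat.card_eq_fintype_card]
    refine (Nat.card_eq_of_bijective (Quotient.mk (⊥ : Setoid V)) ⟨fun u v h => ?_, ?_⟩).symm
    · exact Quotient.exact h
    · exact Quotient.mk_surjective

end Vale.Agent.P061
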