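import Vale.Agent.P061.Stm

open Finset Matrix
open scoped Classical

namespace Vale.Agent.P061

namespace TPathAux

/-- The nodes of the new path. -/
def node (p q m k j : ℕ) : ℕ := if j = 0 then p else if j ≤ k then m + j else q

variable {V A : Type} [NormedAddCommGroup A] [NormedSpace ℝ A]

/-- The skeleton with the new path. -/
noncomputable def ext (S : Sk V A) (p q k : ℕ) : Sk V A where
  N := S.N ∪ (Icc 1 k).image fun j => S.N.sup id + j
  pos x := if x ∈ S.N then S.pos x else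
    AffineMap.lineMap (S.pos p) (S.pos q) (((x - S.N.sup id : ℕ) : ℝ) / (k + 1))
  own x := if x ∈ S.N then S.own x else S.own p
  adj x y := S.adj x y ∨ ∃ j ≤ k,
    (x = node p q (S.N.sup id) k j ∧ y = node p q (S.N.sup id) k (j + 1)) ∨
    (y = node p q (S.N.sup id) k j ∧ x = node p q (S.N.sup id) k (j + 1))

omit [NormedAddCommGroup A] [NormedSpace ℝ A] in
theorem fresh (S : Sk V A) {j : ℕ} (hj : j ≠ 0) : S.N.sup id + j ∉ S.N := by
  intro h
  have : S.N.sup id + j ≤ S.N.sup id := Finset.le_sup (f := id) h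
  omega

theorem node_cases (p q m k j : ℕ) (hj : j ≤ k + 1) :
    (j = 0 ∧ node p q m k j = p) ∨ (j ≠ 0 ∧ j ≤ k ∧ node p q m k j = m + j) ∨
      (j = k + 1 ∧ node p q m k j = q) := by
  unfold node
  by_cases h1 : j = 0
  · simp [h1]
  by_cases h2 : j ≤ k
  · simp [h1, h2]
  · simp only [h1, h2, if_false]
    exact Or.inr (Or.inr ⟨by omega, trivial⟩)

end TPathAux

open TPathAux in
theorem tPath : PathStmt := by
  intro V A _ _ S ε P p q hε h0 hp hq hpq
  obtain ⟨k, hk⟩ : ∃ k, k = ⌊‖S.pos p - S.pos q‖ / ε⌋₊ + 1 := ⟨_, rfl⟩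
  have hk1 : ‖S.pos p - S.pos q‖ ≤ k * ε := by
    rw [← div_le_iff₀ hε, hk]
    push_cast
    exact (Nat.lt_floor_add_one _).le
  have hk2 : k * ε ≤ ‖S.pos p - S.pos q‖ + ε := by
    have := Nat.floor_le (div_nonneg (norm_nonneg (S.pos p - S.pos q)) hε.le)
    rw [le_div_iff₀ hε] at this
    rw [hk]
    push_cast
    linarith
  have hkp : (0 : ℝ) < k + 1 := by positivity
  have hpos : ∀ x ∈ S.N, (ext S p q k).pos x = S.pos x := fun x hx => if_pos hx
  have hown : ∀ x ∈ S.N, (ext S p q k).own x = S.own x := fun x hx => if_pos hx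
  have hown' : ∀ x, x ∉ S.N → (ext S p q k).own x = S.own p := fun x hx => if_neg hx
  have hpos' : ∀ j, j ≠ 0 → (ext S p q k).pos (S.N.sup id + j) =
      AffineMap.lineMap (S.pos p) (S.pos q) ((j : ℝ) / (k + 1)) := by
    intro j hj
    have : (ext S p q k).pos (S.N.sup id + j) = _ := if_neg (fresh S hj)
    rw [this, Nat.add_sub_cancel_left]
  have hsub : S.N ⊆ (ext S p q k).N := subset_union_left
  have n1 : ∀ j ≤ k + 1, node p q (S.N.sup id) k j ∈ (ext S p q k).N := by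
    intro j hj
    rcases node_cases p q (S.N.sup id) k j hj with ⟨_, h⟩ | ⟨h1, h2, h⟩ | ⟨_, h⟩ <;> rw [h]
    · exact hsub hp
    · exact mem_union_right _ (mem_image.2 ⟨j, mem_Icc.2 ⟨by omega, h2⟩, rfl⟩)
    · exact hsub hq
  have n2 : ∀ j ≤ k + 1, (ext S p q k).pos (node p q (S.N.sup id) k j) =
      AffineMap.lineMap (S.pos p) (S.pos q) ((j : ℝ) / (k + 1)) := by
    intro j hj
    rcases node_cases p q (S.N.sup id) k j hj with ⟨h1, h⟩ | ⟨h1, h2, h⟩ | ⟨h1, h⟩ <;> rw [h]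
    · rw [hpos p hp, h1]
      simp
    · exact hpos' j h1
    · rw [hpos q hq, h1]
      push_cast
      rw [div_self hkp.ne']
      simp
  have n3 : ∀ j ≤ k + 1, P ((ext S p q k).own (node p q (S.N.sup id) k j)) (S.own p) := by
    intro j hj
    rcases node_cases p q (S.N.sup id) k j hj with ⟨_, h⟩ | ⟨h1, h2, h⟩ | ⟨_, h⟩ <;> rw [h]
    · rw [hown p hp]
    · rw [hown' _ (fresh S h1)]
    · rw [hown q hq]
      exact P.symm hpq
  have n4 : ∀ j ≤ k + 1, node p q (S.N.sup id) k j ∉ S.N ∨ node p q (S.N.sup id) k j = p ∨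
      node p q (S.N.sup id) k j = q := by
    intro j hj
    rcases node_cases p q (S.N.sup id) k j hj with ⟨_, h⟩ | ⟨h1, h2, h⟩ | ⟨_, h⟩
    · exact Or.inr (Or.inl h)
    · exact Or.inl (h ▸ fresh S h1)
    · exact Or.inr (Or.inr h)
  have n5 : ∀ j ≤ k, ‖(ext S p q k).pos (node p q (S.N.sup id) k j) -
      (ext S p q k).pos (node p q (S.N.sup id) k (j + 1))‖ ≤ ε := by
    intro j hj
    rw [n2 j (by omega), n2 (j + 1) (by omega), ← dist_eq_norm, dist_lineMap_lineMap,
      Real.dist_eq, dist_eq_norm]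
    have h1 : (j : ℝ) / (k + 1) - ((j + 1 : ℕ) : ℝ) / (k + 1) = -(1 / (k + 1)) := by
      push_cast
      ring
    rw [h1, abs_neg, abs_of_pos (by positivity), div_mul_eq_mul_div, one_mul, div_le_iff₀ hkp]
    nlinarith
  have hsymm : ∀ x y, (ext S p q k).adj x y → (ext S p q k).adj y x := by
    rintro x y (h | ⟨j, hj, h⟩)
    · exact Or.inl (h0.symm x y h)
    · exact Or.inr ⟨j, hj, h.symm⟩
  have n6 : ∀ j ≤ k + 1, Relation.ReflTransGen (ext S p q k).adj p (node p q (S.N.sup id) k j) := by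
    intro j
    induction j with
    | zero => exact fun _ => Relation.ReflTransGen.refl
    | succ j ih => exact fun hj => (ih (by omega)).tail (Or.inr ⟨j, by omega, Or.inl ⟨rfl, rfl⟩⟩)
  refine ⟨ext S p q k, ⟨?_, hsymm, ?_, ?_⟩, hsub, fun x hx => ⟨hpos x hx, hown x hx⟩, ?_,
    fun x y h => Or.inl h, ?_, ?_, ?_⟩
  · rintro x y (h | ⟨j, hj, ⟨rfl, rfl⟩ | ⟨rfl, rfl⟩⟩)
    · exact ⟨hsub (h0.mem x y h).1, hsub (h0.mem x y h).2⟩
    · exact ⟨n1 j (by omega), n1 (j + 1) (by omega)⟩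
    · exact ⟨n1 (j + 1) (by omega), n1 j (by omega)⟩
  · rintro x y (h | ⟨j, hj, ⟨rfl, rfl⟩ | ⟨rfl, rfl⟩⟩)
    · rw [hpos x (h0.mem x y h).1, hpos y (h0.mem x y h).2]
      exact h0.short x y h
    · exact n5 j hj
    · rw [norm_sub_rev]
      exact n5 j hj
  · rintro x y (h | ⟨j, hj, ⟨rfl, rfl⟩ | ⟨rfl, rfl⟩⟩)
    · rw [hown x (h0.mem x y h).1, hown y (h0.mem x y h).2]
      exact h0.lab x y h
    · exact P.trans (n3 j (by omega)) (P.symm (n3 (j + 1) (by omega)))
    · exact P.trans (n3 (j + 1) (by omega)) (P.symm (n3 j (by omega)))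
  · have h1 : (ext S p q k).N.card ≤ S.N.card + k :=
      (card_union_le _ _).trans (Nat.add_le_add_left (card_image_le.trans (by simp)) _)
    have h2 : ((ext S p q k).N.card : ℝ) ≤ S.N.card + k := by exact_mod_cast h1
    nlinarith
  · rintro x y (h | ⟨j, hj, ⟨rfl, rfl⟩ | ⟨rfl, rfl⟩⟩)
    · exact Or.inl h
    · exact Or.inr ⟨n4 j (by omega), n4 (j + 1) (by omega)⟩
    · exact Or.inr ⟨n4 (j + 1) (by omega), n4 j (by omega)⟩
  · have := n6 (k + 1) le_rfl
    rwa [show node p q (S.N.sup id) k (k + 1) = q by simp [node]] at this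
  · intro x hx hx'
    rcases mem_union.1 hx with h | h
    · exact absurd h hx'
    obtain ⟨j, hj, rfl⟩ := mem_image.1 h
    obtain ⟨h1, h2⟩ := mem_Icc.1 hj
    refine ⟨?_, hown' _ hx', ?_⟩
    · have := n6 j (by omega)
      rw [show node p q (S.N.sup id) k j = S.N.sup id + j by
        simp [node, h2, show j ≠ 0 by omega]] at this
      exact Relation.ReflTransGen.mono (fun u v h => hsymm v u h) _ _
        (Relation.ReflTransGen.swap _ _ this)
    · rw [hpos' j (by omega), segment_eq_image_lineMap]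
      refine ⟨_, ⟨by positivity, ?_⟩, rfl⟩
      rw [div_le_one hkp]
      have : (j : ℝ) ≤ k := by exact_mod_cast h2
      linarith

end Vale.Agent.P061
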