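import Vale.Agent.P061.Stm

open Finset Matrix
open scoped Classical

namespace Vale.Agent.P061

namespace TPruneAux

variable {V A : Type} [NormedAddCommGroup A] {S : Sk V A} {ε : ℝ} {P : Setoid V}
  {par dep : ℕ → ℕ}

theorem par_mem (hS : S.Ok ε P) (hF : S.Forest P par dep) {p : ℕ} (hp : p ∈ S.N) :
    par p ∈ S.N := by
  by_cases h : dep p = 0
  · rwa [hF.root p hp h]
  · exact (hS.mem _ _ (hF.up p hp h).1).2

theorem dep_par (hF : S.Forest P par dep) {p : ℕ} (hp : p ∈ S.N) : dep (par p) = dep p - 1 := by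
  by_cases h : dep p = 0
  · rw [hF.root p hp h, h]
  · have := (hF.up p hp h).2
    omega

theorem iter (hε : 0 ≤ ε) (hS : S.Ok ε P) (hF : S.Forest P par dep) {p : ℕ} (hp : p ∈ S.N)
    (k : ℕ) : par^[k] p ∈ S.N ∧ dep (par^[k] p) = dep p - k ∧ P (S.own (par^[k] p)) (S.own p) ∧
      ‖S.pos (par^[k] p) - S.pos p‖ ≤ k * ε := by
  induction k with
  | zero => exact ⟨hp, rfl, P.refl' _, by simp⟩
  | succ k ih =>
    obtain ⟨h1, h2, h3, h4⟩ := ih
    rw [Function.iterate_succ_apply']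
    refine ⟨par_mem hS hF h1, by rw [dep_par hF h1, h2, Nat.sub_sub], ?_⟩
    push_cast
    by_cases h : dep (par^[k] p) = 0
    · rw [hF.root _ h1 h]
      exact ⟨h3, by linarith⟩
    · have ha := hS.symm _ _ (hF.up _ h1 h).1
      refine ⟨P.trans' (hS.lab _ _ ha) h3, ?_⟩
      have h5 := hS.short _ _ ha
      have h6 := norm_sub_le_norm_sub_add_norm_sub (S.pos (par (par^[k] p))) (S.pos (par^[k] p))
        (S.pos p)
      linarith

theorem tall_pred (hS : S.Ok ε P) (hF : S.Forest P par dep) {p k : ℕ}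
    (h : S.Tall par dep p (k + 1)) : S.Tall par dep p k := by
  obtain ⟨u, hu, h1, h2⟩ := h
  exact ⟨par u, par_mem hS hF hu, by rw [dep_par hF hu, h1]; rfl, h2⟩

theorem tall_le (hS : S.Ok ε P) (hF : S.Forest P par dep) {p k k' : ℕ} (hk : k ≤ k')
    (h : S.Tall par dep p k') : S.Tall par dep p k := by
  induction hk with
  | refl => exact h
  | step _ ih => exact ih (tall_pred hS hF h)

theorem tall_par (hF : S.Forest P par dep) {p k : ℕ} (hp : p ∈ S.N) (hd : dep p ≠ 0)
    (h : S.Tall par dep p k) : S.Tall par dep (par p) (k + 1) := by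
  obtain ⟨u, hu, h1, h2⟩ := h
  have := (hF.up p hp hd).2
  exact ⟨u, hu, by omega, by rw [Function.iterate_succ_apply', h2]⟩

theorem layer (hε : 0 ≤ ε) (hS : S.Ok ε P) (hF : S.Forest P par dep) {H h : ℕ} {B : Finset ℕ}
    (hh : h ≤ H) (hB : B ⊆ S.N) (hf : ∀ p ∈ B, S.Fork par dep p H) :
    B.card ≤ (S.N.filter fun p =>
      S.Tall par dep p h ∧ ¬ S.Tall par dep p (h + 1) ∧ dep p ≠ 0).card := by
  set L := S.N.filter fun p => S.Tall par dep p h ∧ ¬ S.Tall par dep p (h + 1) ∧ dep p ≠ 0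
  set U := S.N.filter fun p => S.Tall par dep p h ∧ dep p ≠ 0 with hU
  set C := S.N.filter fun p => S.Tall par dep p (h + 1) with hC
  have h1 : U ⊆ L ∪ C := fun p hp => by
    obtain ⟨a, b, c⟩ := mem_filter.1 hp
    by_cases ht : S.Tall par dep p (h + 1)
    · exact mem_union_right _ (mem_filter.2 ⟨a, ht⟩)
    · exact mem_union_left _ (mem_filter.2 ⟨a, b, ht, c⟩)
  have h2 := (card_le_card h1).trans (card_union_le _ _)
  have hm : ∀ p ∈ U, par p ∈ C := fun p hp => by
    obtain ⟨a, b, c⟩ := mem_filter.1 hp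
    exact mem_filter.2 ⟨par_mem hS hF a, tall_par hF a c b⟩
  have h3 : U.card = ∑ y ∈ C, (U.filter fun p => par p = y).card :=
    card_eq_sum_card_fiberwise fun p hp => hm p hp
  have hBC : B ⊆ C := fun p hp => by
    obtain ⟨c, hc, -, -, -, hd, -, e, -, ht, -⟩ := hf p hp
    exact e ▸ hm c (mem_filter.2 ⟨hc, tall_le hS hF hh ht, hd⟩)
  have h4 : ∑ y ∈ C, (1 + if y ∈ B then 1 else 0) ≤
      ∑ y ∈ C, (U.filter fun p => par p = y).card := by
    refine sum_le_sum fun y hy => ?_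
    split_ifs with hyB
    · obtain ⟨c, hc, c', hc', hne, hd, hd', e, e', ht, ht'⟩ := hf y hyB
      exact one_lt_card.2 ⟨c, mem_filter.2 ⟨mem_filter.2 ⟨hc, tall_le hS hF hh ht, hd⟩, e⟩, c',
        mem_filter.2 ⟨mem_filter.2 ⟨hc', tall_le hS hF hh ht', hd'⟩, e'⟩, hne⟩
    · obtain ⟨-, u, hu, a, b⟩ := mem_filter.1 hy
      obtain ⟨i1, i2, -⟩ := iter hε hS hF hu h
      refine card_pos.2 ⟨par^[h] u, mem_filter.2 ⟨mem_filter.2 ⟨i1, ⟨u, hu, by omega, rfl⟩,
        by omega⟩, ?_⟩⟩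
      rw [← b, Function.iterate_succ_apply']
  rw [sum_add_distrib, sum_const, smul_eq_mul, mul_one, ← card_filter,
    filter_mem_eq_inter, inter_eq_right.2 hBC] at h4
  omega

end TPruneAux

open TPruneAux in
theorem tPrune : PruneStmt := by
  intro V A _ S ε P par dep H B hε hS hF hB hf
  let N' := S.N.filter fun p => S.Tall par dep p H ∨ dep p = 0
  let S' : Sk V A := ⟨N', S.pos, S.own, fun u v => S.adj u v ∧ u ∈ N' ∧ v ∈ N'⟩
  have hsym : ∀ p q, S'.adj p q → S'.adj q p := fun p q h => ⟨hS.symm _ _ h.1, h.2.2, h.2.1⟩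
  have hroot : ∀ n, ∀ p ∈ N', dep p = n → ∃ r ∈ S.N, dep r = 0 ∧ P (S.own p) (S.own r) ∧
      Relation.ReflTransGen S'.adj p r := by
    intro n
    induction n with
    | zero => exact fun p hp h => ⟨p, (mem_filter.1 hp).1, h, P.refl' _, .refl⟩
    | succ n ih =>
      intro p hp h
      obtain ⟨hp1, hp2⟩ := mem_filter.1 hp
      have hd : dep p ≠ 0 := by omega
      have hq : par p ∈ N' := mem_filter.2 ⟨par_mem hS hF hp1,
        Or.inl (tall_pred hS hF (tall_par hF hp1 hd (hp2.resolve_right hd)))⟩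
      obtain ⟨r, r1, r2, r3, r4⟩ := ih (par p) hq (by rw [dep_par hF hp1, h]; rfl)
      have ha := (hF.up p hp1 hd).1
      exact ⟨r, r1, r2, P.trans' (hS.lab _ _ ha) r3, .head ⟨ha, hp, hq⟩ r4⟩
  refine ⟨S', ⟨⟨fun p q h => h.2, hsym, fun p q h => hS.short _ _ h.1,
    fun p q h => hS.lab _ _ h.1⟩, fun p hp q hq h => ?_⟩, ?_, fun p hp => ?_⟩
  · obtain ⟨r, r1, r2, r3, r4⟩ := hroot _ p hp rfl
    obtain ⟨t, t1, t2, t3, t4⟩ := hroot _ q hq rfl
    have e : r = t := hF.uniq r r1 t t1 r2 t2 (P.trans' (P.symm' r3) (P.trans' h t3))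
    subst e
    refine r4.trans ?_
    clear t3 hq h
    induction t4 using Relation.ReflTransGen.head_induction_on with
    | refl => exact .refl
    | head h _ ih => exact ih.tail (hsym _ _ h)
  · let L : ℕ → Finset ℕ := fun h => S.N.filter fun p =>
      S.Tall par dep p h ∧ ¬ S.Tall par dep p (h + 1) ∧ dep p ≠ 0
    have h1 : (range H).biUnion L ⊆ S.N \ N' := fun p hp => by
      obtain ⟨h, hh, hp⟩ := mem_biUnion.1 hp
      obtain ⟨a, -, c, d⟩ := mem_filter.1 hp
      refine mem_sdiff.2 ⟨a, fun hn => ?_⟩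
      exact c (tall_le hS hF (mem_range.1 hh) ((mem_filter.1 hn).2.resolve_right d))
    have hd : ∀ i j, i < j → Disjoint (L i) (L j) := fun i j hij =>
      disjoint_left.2 fun p hp hq =>
        (mem_filter.1 hp).2.2.1 (tall_le hS hF hij (mem_filter.1 hq).2.1)
    have h2 : ((range H).biUnion L).card = ∑ h ∈ range H, (L h).card :=
      card_biUnion fun i _ j _ hij => by
        rcases lt_or_gt_of_ne hij with h | h
        · exact hd i j h
        · exact (hd j i h).symm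
    have h3 : ∑ _h ∈ range H, B.card ≤ ∑ h ∈ range H, (L h).card :=
      sum_le_sum fun h hh => layer hε hS hF (mem_range.1 hh).le hB hf
    rw [sum_const, card_range, smul_eq_mul] at h3
    have h4 := card_le_card h1
    have h5 : (S.N \ N').card + N'.card = S.N.card :=
      card_sdiff_add_card_eq_card (filter_subset _ _)
    show N'.card + H * B.card ≤ S.N.card
    omega
  · obtain ⟨i1, i2, i3, i4⟩ := iter hε hS hF hp H
    refine ⟨par^[H] p, mem_filter.2 ⟨i1, ?_⟩, i3, i4⟩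
    by_cases h : dep p ≤ H
    · exact Or.inr (by omega)
    · exact Or.inl ⟨p, hp, by omega, rfl⟩

end Vale.Agent.P061
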