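import Vale.Agent.P061.Stm

open Finset Matrix
open scoped Classical

namespace Vale.Agent.P061

namespace TRankAux

variable {n : Type} [Fintype n]

theorem unit_det {A : Matrix n n ℝ} (hA : A.PosDef) : IsUnit A.det :=
  (Matrix.isUnit_iff_isUnit_det A).1 hA.isUnit

theorem mul_inv_vec {A : Matrix n n ℝ} (hA : A.PosDef) (c : n → ℝ) : A *ᵥ (A⁻¹ *ᵥ c) = c := by
  rw [Matrix.mulVec_mulVec, Matrix.mul_nonsing_inv A (unit_det hA), Matrix.one_mulVec]

theorem symm_form {A : Matrix n n ℝ} (hA : A.IsHermitian) (x y : n → ℝ) :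
    x ⬝ᵥ A *ᵥ y = y ⬝ᵥ A *ᵥ x := by
  have h : Aᵀ = A := by
    have := hA.eq
    rwa [Matrix.conjTranspose_eq_transpose_of_trivial] at this
  rw [Matrix.dotProduct_mulVec, ← Matrix.mulVec_transpose, h, dotProduct_comm]

theorem qnonneg' (A : Matrix n n ℝ) (x : n → ℝ) (hA : A.PosSemidef) : 0 ≤ qf A x := by
  have := hA.dotProduct_mulVec_nonneg x
  rwa [star_trivial] at this

theorem det' (A : Matrix n n ℝ) (c : n → ℝ) (t : ℝ) (hA : A.PosDef) :
    (A + t • vecMulVec c c).det = A.det * (1 + t * (c ⬝ᵥ A⁻¹ *ᵥ c)) := by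
  have h1 : A + t • vecMulVec c c = A * (1 + vecMulVec (t • (A⁻¹ *ᵥ c)) c) := by
    rw [Matrix.mul_add, Matrix.mul_one, Matrix.mul_vecMulVec, Matrix.mulVec_smul,
      mul_inv_vec hA, Matrix.smul_vecMulVec]
  rw [h1, Matrix.det_mul, Matrix.vecMulVec_eq Unit,
    Matrix.det_one_add_replicateCol_mul_replicateRow, dotProduct_smul, smul_eq_mul]

theorem cs0 {A : Matrix n n ℝ} (hA : A.PosSemidef) (x z : n → ℝ) :
    (z ⬝ᵥ A *ᵥ x) ^ 2 ≤ qf A z * qf A x := by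
  have h : ∀ t : ℝ, 0 ≤ qf A z * (t * t) + (2 * (z ⬝ᵥ A *ᵥ x)) * t + qf A x := by
    intro t
    have h1 := qnonneg' A (t • z + x) hA
    unfold qf at h1 ⊢
    simp only [Matrix.mulVec_add, Matrix.mulVec_smul, add_dotProduct, dotProduct_add,
      smul_dotProduct, dotProduct_smul, smul_eq_mul] at h1
    rw [symm_form hA.isHermitian x z] at h1
    linarith
  have h2 := discrim_le_zero h
  unfold discrim at h2
  linarith

theorem qf_inv {A : Matrix n n ℝ} (hA : A.PosDef) (c : n → ℝ) :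
    qf A (A⁻¹ *ᵥ c) = c ⬝ᵥ A⁻¹ *ᵥ c := by
  unfold qf
  rw [mul_inv_vec hA, dotProduct_comm]

theorem cs' (A : Matrix n n ℝ) (c x : n → ℝ) (hA : A.PosDef) :
    (c ⬝ᵥ x) ^ 2 ≤ (c ⬝ᵥ A⁻¹ *ᵥ c) * qf A x := by
  have h := cs0 hA.posSemidef x (A⁻¹ *ᵥ c)
  rwa [qf_inv hA, symm_form hA.isHermitian, mul_inv_vec hA, dotProduct_comm x c] at h

theorem nonneg' (A : Matrix n n ℝ) (c : n → ℝ) (hA : A.PosDef) : 0 ≤ c ⬝ᵥ A⁻¹ *ᵥ c := by
  rw [← qf_inv hA]
  exact qnonneg' A _ hA.posSemidef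

theorem le' (A : Matrix n n ℝ) (c : n → ℝ) (l p : ℝ) (hA : A.PosDef) (hp : 0 ≤ p)
    (h : ∀ x, l * (c ⬝ᵥ x) ^ 2 ≤ p * qf A x) : l * (c ⬝ᵥ A⁻¹ *ᵥ c) ≤ p := by
  have h1 := h (A⁻¹ *ᵥ c)
  rw [qf_inv hA] at h1
  rcases (nonneg' A c hA).eq_or_lt with h0 | h0
  · rw [← h0, mul_zero]
    exact hp
  · refine le_of_mul_le_mul_right ?_ h0
    linarith

theorem form' {ι : Type} (F : Finset ι) (c : ι → n → ℝ) (l : ι → ℝ) (x : n → ℝ) :
    qf (∑ i ∈ F, l i • vecMulVec (c i) (c i)) x = ∑ i ∈ F, l i * (c i ⬝ᵥ x) ^ 2 := by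
  unfold qf
  rw [Matrix.sum_mulVec, dotProduct_sum]
  refine Finset.sum_congr rfl fun i _ => ?_
  rw [Matrix.smul_mulVec, Matrix.vecMulVec_mulVec, dotProduct_smul, dotProduct_smul,
    dotProduct_comm x (c i)]
  simp only [smul_eq_mul, MulOpposite.smul_eq_mul_unop, MulOpposite.unop_op]
  ring

omit [Fintype n] in
theorem herm {ι : Type} (F : Finset ι) (c : ι → n → ℝ) (l : ι → ℝ) :
    (∑ i ∈ F, l i • vecMulVec (c i) (c i)).IsHermitian := by
  refine Matrix.IsHermitian.ext fun u v => ?_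
  simp only [Matrix.sum_apply, Matrix.smul_apply, Matrix.vecMulVec_apply, star_trivial,
    smul_eq_mul]
  exact Finset.sum_congr rfl fun i _ => by ring

theorem posDef' {ι : Type} (F : Finset ι) (c : ι → n → ℝ) (l : ι → ℝ)
    (h : ∀ x, x ≠ 0 → 0 < ∑ i ∈ F, l i * (c i ⬝ᵥ x) ^ 2) :
    (∑ i ∈ F, l i • vecMulVec (c i) (c i)).PosDef := by
  refine Matrix.PosDef.of_dotProduct_mulVec_pos (herm F c l) fun x hx => ?_
  rw [star_trivial]
  have h1 := h x hx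
  rwa [← form'] at h1

theorem psd' {ι : Type} (F : Finset ι) (c : ι → n → ℝ) (l : ι → ℝ) (h : ∀ i ∈ F, 0 ≤ l i) :
    (∑ i ∈ F, l i • vecMulVec (c i) (c i)).PosSemidef := by
  refine Matrix.PosSemidef.of_dotProduct_mulVec_nonneg (herm F c l) fun x => ?_
  rw [star_trivial]
  have h1 : 0 ≤ ∑ i ∈ F, l i * (c i ⬝ᵥ x) ^ 2 :=
    Finset.sum_nonneg fun i hi => mul_nonneg (h i hi) (sq_nonneg _)
  rwa [← form'] at h1

end TRankAux

open TRankAux in
theorem tRank : RankStmt where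
  det := fun _ _ A c t hA => det' A c t hA
  cs := fun _ _ A c x hA => cs' A c x hA
  nonneg := fun _ _ A c hA => nonneg' A c hA
  le := fun _ _ A c l p hA hp h => le' A c l p hA hp h
  form := fun _ _ _ F c l x => form' F c l x
  posDef := fun _ _ _ F c l h => posDef' F c l h
  psd := fun _ _ _ F c l h => psd' F c l h
  qnonneg := fun _ _ A x hA => qnonneg' A x hA

end Vale.Agent.P061
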