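import Vale.Agent.P061.Stm

open Finset Matrix
open scoped Classical

namespace Vale.Agent.P061

namespace TSaveAux

lemma aux (hF : ForestStmt) (hPr : PruneStmt) (hS : SurgStmt)
    (V A ι : Type) [NormedAddCommGroup A] [NormedSpace ℝ A] (ε : ℝ) (P : Setoid V)
    (H : ℕ) (y : ι → A) (p q : ι → ℕ) (hε : 0 < ε) (hH : 4 ≤ H) (n : ℕ) :
    ∀ (S : Sk V A) (I : Finset ι), I.card = n → S.Ok ε P →
    Sepd y I (8 * (H * ε)) → (∀ i ∈ I, S.Contact P (H * ε) (y i) (p i) (q i)) →
    ∃ S' : Sk V A, S'.Ok ε P ∧ 2 * S'.N.card + H * I.card ≤ 2 * S.N.card ∧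
      ∀ x ∈ S.N, ∃ x' ∈ S'.N, P (S'.own x') (S.own x) ∧ (‖S'.pos x' - S.pos x‖ ≤ H * ε ∨
        ∃ i ∈ I, ‖S.pos x - y i‖ ≤ 4 * (H * ε) ∧ ‖S'.pos x' - S.pos x‖ ≤ 4 * (H * ε)) := by
  have hρ : 0 < (H : ℝ) * ε := mul_pos (by exact_mod_cast (by omega : 0 < H)) hε
  set ρ := (H : ℝ) * ε with hρd
  induction n with
  | zero =>
    intro S I hI hok _ _
    refine ⟨S, hok, by simp [hI], fun x hx => ⟨x, hx, P.refl' _, Or.inl (by simpa using hρ.le)⟩⟩
  | succ n ih =>
    intro S I hI hok hsep hcon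
    obtain ⟨par, dep, hfor⟩ := hF V A S ε P hok
    have far : ∀ i ∈ I, ∀ j ∈ I, i ≠ j → ∀ z : A, ‖z - y i‖ ≤ 4 * ρ → 4 * ρ < ‖z - y j‖ := by
      intro i hi j hj hne z hz
      have h1 := hsep i hi j hj hne
      have h2 := norm_sub_le_norm_sub_add_norm_sub (y i) z (y j)
      rw [norm_sub_rev] at hz
      linarith
    by_cases hall : ∀ i ∈ I, ∃ z ∈ S.N, ‖S.pos z - y i‖ ≤ 4 * ρ ∧ S.Fork par dep z H
    · choose! z hzN hzd hzF using hall
      have hinj : Set.InjOn z I := by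
        intro i hi j hj e
        by_contra hne
        have := far i hi j hj hne _ (hzd i hi)
        rw [e] at this
        linarith [hzd j hj]
      obtain ⟨S', h1, h2, h3⟩ := hPr V A S ε P par dep H (I.image z) hε.le hok hfor
        (fun w hw => by obtain ⟨i, hi, rfl⟩ := mem_image.1 hw; exact hzN i hi)
        (fun w hw => by obtain ⟨i, hi, rfl⟩ := mem_image.1 hw; exact hzF i hi)
      rw [card_image_of_injOn hinj] at h2
      refine ⟨S', h1, by omega, fun x hx => ?_⟩
      obtain ⟨x', a1, a2, a3⟩ := h3 x hx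
      exact ⟨x', a1, a2, Or.inl a3⟩
    · push Not at hall
      obtain ⟨i0, hi0, hno⟩ := hall
      obtain ⟨S1, ok1, c1, keep, same, adj1, c, hcN, hc1, hcd, hc⟩ :=
        hS V A S ε P par dep H (y i0) (p i0) (q i0) hε hH hok hfor (hcon i0 hi0) hno
      have hcon1 : ∀ i ∈ I.erase i0, S1.Contact P ρ (y i) (p i) (q i) := by
        intro i hi
        obtain ⟨hne, hiI⟩ := mem_erase.1 hi
        have C := hcon i hiI
        have hp1 : p i ∈ S1.N := keep _ C.hp (far i hiI i0 hi0 hne _ (by linarith [C.np]))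
        have hq1 : q i ∈ S1.N := keep _ C.hq (far i hiI i0 hi0 hne _ (by linarith [C.nq]))
        refine ⟨hp1, hq1, ?_, ?_, ?_, fun h => C.far ?_⟩
        · rw [(same _ C.hp hp1).2, (same _ C.hq hq1).2]; exact C.rel
        · rw [(same _ C.hp hp1).1]; exact C.np
        · rw [(same _ C.hq hq1).1]; exact C.nq
        · refine Relation.ReflTransGen.mono ?_ _ _ h
          rintro u v ⟨h1, h2, h3⟩
          rcases adj1 u v h1 with h4 | h4
          · rw [(same _ (hok.mem _ _ h4).1 (ok1.mem _ _ h1).1).1] at h2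
            rw [(same _ (hok.mem _ _ h4).2 (ok1.mem _ _ h1).2).1] at h3
            exact ⟨h4, h2, h3⟩
          · exact absurd h4.1 (not_le.2 (far i hiI i0 hi0 hne _ h2))
      have hcard : (I.erase i0).card = n := by rw [card_erase_of_mem hi0]; omega
      obtain ⟨S2, ok2, c2, den⟩ := ih S1 (I.erase i0) hcard ok1
        (fun i hi j hj => hsep i (mem_of_mem_erase hi) j (mem_of_mem_erase hj)) hcon1
      refine ⟨S2, ok2, ?_, fun x hx => ?_⟩
      · rw [hcard] at c2
        rw [hI, Nat.mul_succ]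
        omega
      · by_cases hx1 : x ∈ S1.N
        · obtain ⟨x', a1, a2, a3⟩ := den x hx1
          rw [(same x hx hx1).1] at a3
          rw [(same x hx hx1).2] at a2
          refine ⟨x', a1, a2, a3.imp id ?_⟩
          rintro ⟨i, hi, h⟩
          exact ⟨i, mem_of_mem_erase hi, h⟩
        · obtain ⟨b1, b2, b3⟩ := hc x hx hx1
          obtain ⟨x', a1, a2, a3⟩ := den c hc1
          rw [(same c hcN hc1).1] at a3
          rw [(same c hcN hc1).2] at a2
          refine ⟨x', a1, P.trans' a2 b2, Or.inr ⟨i0, hi0, b1, ?_⟩⟩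
          rcases a3 with a3 | ⟨i, hi, h, _⟩
          · have := norm_sub_le_norm_sub_add_norm_sub (S2.pos x') (S.pos c) (S.pos x)
            linarith
          · obtain ⟨hne, hiI⟩ := mem_erase.1 hi
            have := far i hiI i0 hi0 hne _ h
            linarith

end TSaveAux

theorem tSave (hF : ForestStmt) (hPr : PruneStmt) (hS : SurgStmt) : SaveStmt := by
  intro V A ι _ _ S ε P H I y p q hε hH hok hsep hcon
  obtain ⟨S', h1, h2, h3⟩ :=
    TSaveAux.aux hF hPr hS V A ι ε P H y p q hε hH _ S I rfl hok hsep hcon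
  refine ⟨S', h1, h2, fun x hx => ?_⟩
  obtain ⟨x', a1, a2, a3⟩ := h3 x hx
  have hρ : 0 ≤ (H : ℝ) * ε := by positivity
  refine ⟨x', a1, a2, ?_⟩
  rcases a3 with a3 | ⟨_, _, _, a3⟩
  · linarith
  · exact a3

end Vale.Agent.P061
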