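import Vale.Agent.P061.Stm

/-! P061: continuous selection of approximate minimisers. -/

open Finset Matrix Filter Topology
open scoped Classical

namespace Vale.Agent.P061

namespace TSelAux

variable {E : Type} [Fintype E]

theorem diff_le (u v f : E → ℝ) (hf : ∀ e, 0 ≤ f e ∧ f e ≤ 1) :
    ∑ e, u e * f e ≤ ∑ e, v e * f e + ∑ e, |u e - v e| := by
  rw [← sum_add_distrib]
  refine sum_le_sum fun e _ => ?_
  have h1 := mul_le_mul_of_nonneg_right (le_abs_self (u e - v e)) (hf e).1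
  have h2 := mul_le_mul_of_nonneg_left (hf e).2 (abs_nonneg (u e - v e))
  linarith

theorem near_min (K : Set (E → ℝ)) (hne : K.Nonempty) (hb : ∀ f ∈ K, ∀ e, 0 ≤ f e ∧ f e ≤ 1)
    (u : E → ℝ) (ζ : ℝ) (hζ : 0 < ζ) :
    ∃ g ∈ K, ∀ f ∈ K, ∑ e, u e * g e ≤ ∑ e, u e * f e + ζ := by
  have hbd : BddBelow ((fun f : E → ℝ => ∑ e, u e * f e) '' K) := by
    refine ⟨-∑ e, |0 - u e|, ?_⟩
    rintro _ ⟨f, hf, rfl⟩
    have h := diff_le (fun _ => 0) u f (hb f hf)
    simp only [zero_mul, sum_const_zero] at h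
    beta_reduce
    linarith
  obtain ⟨_, ⟨g, hg, rfl⟩, h⟩ := Real.lt_sInf_add_pos (hne.image fun f : E → ℝ => ∑ e, u e * f e) hζ
  refine ⟨g, hg, fun f hf => ?_⟩
  have h1 := csInf_le hbd ⟨f, hf, rfl⟩
  beta_reduce at h h1
  linarith

end TSelAux

open TSelAux in
theorem tSel : SelStmt := by
  intro ι E _ _ K w ζ hK hne hb hw hζ
  obtain ⟨φ, hφ⟩ := exists_continuous_forall_mem_convex_of_local_const
    (t := fun c : ι → ℝ => {g : E → ℝ | g ∈ K ∧ ∀ f ∈ K, ∑ e, w c e * g e ≤ ∑ e, w c e * f e + ζ})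
    (fun c => by
      rintro g ⟨g1, g2⟩ h ⟨h1, h2⟩ s t hs ht hst
      refine ⟨hK g1 h1 hs ht hst, fun f hf => ?_⟩
      have e1 : ∑ e, w c e * (s • g + t • h) e = s * ∑ e, w c e * g e + t * ∑ e, w c e * h e := by
        rw [mul_sum, mul_sum, ← sum_add_distrib]
        exact sum_congr rfl fun e _ => by
          simp only [Pi.add_apply, Pi.smul_apply, smul_eq_mul]; ring
      have e2 := mul_le_mul_of_nonneg_left (g2 f hf) hs
      have e3 := mul_le_mul_of_nonneg_left (h2 f hf) ht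
      have e4 : s * (∑ e, w c e * f e + ζ) + t * (∑ e, w c e * f e + ζ)
          = ∑ e, w c e * f e + ζ := by rw [← add_mul, hst, one_mul]
      rw [e1]; linarith)
    (fun c0 => by
      obtain ⟨g, hg, hmin⟩ := near_min K hne hb (w c0) (ζ / 3) (by positivity)
      have hc : Continuous fun c => ∑ e, |w c e - w c0 e| :=
        continuous_finsetSum _ fun e _ => (((continuous_apply e).comp hw).sub continuous_const).abs
      have h0 : ∀ᶠ c in 𝓝 c0, ∑ e, |w c e - w c0 e| < ζ / 3 :=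
        hc.continuousAt.eventually (gt_mem_nhds (by simpa using hζ))
      refine ⟨g, h0.mono fun c hc' => ⟨hg, fun f hf => ?_⟩⟩
      have e1 := diff_le (w c) (w c0) g (hb g hg)
      have e2 := diff_le (w c0) (w c) f (hb f hf)
      have e3 : ∑ e, |w c0 e - w c e| = ∑ e, |w c e - w c0 e| :=
        sum_congr rfl fun e _ => abs_sub_comm _ _
      have e4 := hmin f hf
      linarith)
  exact ⟨φ, φ.continuous, hφ⟩

end Vale.Agent.P061
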