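import Vale.Agent.P061.Stm

open Finset Matrix
open scoped Classical

namespace Vale.Agent.P061

theorem tSep : SepStmt := by
  intro A ι _ x s r hr
  obtain ⟨t, ht, hmax⟩ := exists_max_image (s.powerset.filter fun t => Sepd x t r) card
    ⟨∅, mem_filter.2 ⟨by simp, fun i hi => absurd hi (notMem_empty i)⟩⟩
  obtain ⟨hts, hsep⟩ := mem_filter.1 ht
  refine ⟨t, mem_powerset.1 hts, hsep, fun i hi => ?_⟩
  by_contra hcon
  push Not at hcon
  have hit : i ∉ t := fun h => by
    have h1 := hcon i h
    rw [sub_self, norm_zero] at h1
    exact absurd hr (not_le.2 h1)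
  have h1 : insert i t ∈ s.powerset.filter fun t => Sepd x t r := by
    refine mem_filter.2 ⟨mem_powerset.2 (insert_subset hi (mem_powerset.1 hts)), ?_⟩
    intro u hu v hv huv
    rcases mem_insert.1 hu with rfl | hu'
    · rcases mem_insert.1 hv with rfl | hv'
      · exact absurd rfl huv
      · exact hcon v hv'
    · rcases mem_insert.1 hv with rfl | hv'
      · rw [norm_sub_rev]
        exact hcon u hu'
      · exact hsep u hu' v hv' huv
  have h2 := hmax _ h1
  rw [card_insert_of_notMem hit] at h2
  omega

end Vale.Agent.P061
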