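import Vale.Agent.P061.Stm

open Finset Matrix
open scoped Classical

namespace Vale.Agent.P061

namespace TStepAux

theorem big {ε s : ℝ} (h0 : 0 < ε) (h1 : ε ≤ 1 / 8) (hs : 2 * 10 ^ 9 * 28800 ^ 5 / ε ^ 15 ≤ s) :
    10 ^ 6 ≤ ε ^ 2 * s := by
  have hp : 0 < ε ^ 15 := pow_pos h0 15
  rw [div_le_iff₀ hp] at hs
  have hs0 : 0 ≤ s := by
    by_contra hneg
    have := mul_neg_of_neg_of_pos (not_le.1 hneg) hp
    linarith [show (0 : ℝ) < 2 * 10 ^ 9 * 28800 ^ 5 by norm_num]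
  have h2 : ε ^ 15 ≤ ε ^ 2 := pow_le_pow_of_le_one h0.le (by linarith) (by norm_num)
  have h3 : s * ε ^ 15 ≤ s * ε ^ 2 := mul_le_mul_of_nonneg_left h2 hs0
  have h4 : (10 : ℝ) ^ 6 ≤ 2 * 10 ^ 9 * 28800 ^ 5 := by norm_num
  linarith

theorem eta_bound {ε s : ℝ} (h0 : 0 < ε) (hs : 2 * 10 ^ 9 * 28800 ^ 5 / ε ^ 15 ≤ s) :
    10 ^ 9 / (ε ^ 3 / 28800) ^ 5 ≤ s / 2 := by
  have e : (10 : ℝ) ^ 9 / (ε ^ 3 / 28800) ^ 5 = 2 * 10 ^ 9 * 28800 ^ 5 / ε ^ 15 / 2 := by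
    field_simp
  rw [e]
  linarith

theorem final {ε s : ℝ} (h0 : 0 < ε) (h1 : ε ≤ 1 / 8) (hs : 0 ≤ s) (h2 : 2 ≤ ε * s) :
    (1 / 2 - ε) * s ≤ (1 / 2 - ε / 3) * ((1 - ε / 4) * (s * (1 - ε / 8) - 1)) := by
  have a1 : 1 / 2 - 25 / 48 * ε ≤ (1 / 2 - ε / 3) * (1 - ε / 4) * (1 - ε / 8) := by
    nlinarith [mul_pos h0 h0, mul_nonneg (mul_pos h0 h0).le (show 0 ≤ 1 - ε by linarith)]
  have a2 : (1 / 2 - ε / 3) * (1 - ε / 4) ≤ 1 / 2 := by nlinarith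
  have a3 := mul_le_mul_of_nonneg_right a1 hs
  nlinarith

end TStepAux

open TStepAux in
theorem tStep (hF : FPStmt) (hD : DualStmt) (hH : HalfStmt) (hC : ConnStmt) : StepStmt := by
  refine ⟨2 * 10 ^ 9 * 28800 ^ 5, by norm_num, ?_⟩
  intro ε h0 h1 V E _ _ _ a b s hs hS
  have hb := big h0 h1 hs
  have he := eta_bound h0 hs
  have hε2 : 0 < ε ^ 2 := pow_pos h0 2
  have hε3 : 0 < ε ^ 3 := pow_pos h0 3
  have hs0 : 0 < s := by
    by_contra hneg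
    have := mul_nonpos_of_nonneg_of_nonpos hε2.le (not_lt.1 hneg)
    linarith
  have hε21 : ε ^ 2 ≤ ε := by nlinarith
  have hεs : 10 ^ 6 ≤ ε * s := le_trans hb (mul_le_mul_of_nonneg_right hε21 hs0.le)
  have hs6 : 10 ^ 6 ≤ s := by nlinarith
  set σ := s * (1 - ε / 8) with hσ
  have hσ1 : s / 2 ≤ σ := by rw [hσ]; nlinarith
  have hσ2 : σ ≤ s := by rw [hσ]; nlinarith
  have hη0 : 0 < ε ^ 3 / 28800 := by positivity
  have hη1 : ε ^ 3 / 28800 ≤ 1 := by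
    have : ε ^ 3 ≤ 1 := pow_le_one₀ h0.le (by linarith)
    linarith
  have hβ : 0 < (ε / 15) ^ 2 := by positivity
  have hq : 2 * (8 * (ε ^ 3 / 28800)) / (ε / 15) ^ 2 = ε / 8 := by
    field_simp
    norm_num
  obtain ⟨f, hf, hSt⟩ := hF V E a b (KK a b) s σ (8 * (ε ^ 3 / 28800)) ((ε / 15) ^ 2)
    (hD.convex V E a b) (hD.nonempty V E a b) (fun f hf => hf.1) (by linarith) (by linarith) hβ hs0
    (by rw [hq]) hS (fun w Pi hU hw => hD.dual V E a b w σ _ Pi hη0 hη1 (by linarith)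
      (hC.mono V E a b univ s σ hσ2 hS) hU hw)
  have hσ3 : s / 4 ≤ σ - 1 := by linarith
  have hd : 0 < (1 - ε / 4) * (σ - 1) := mul_pos (by linarith) (by linarith)
  have hp1 : 1 < 1 / ((1 - ε / 4) * (σ - 1)) * (σ - 1) := by
    rw [div_mul_eq_mul_div, lt_div_iff₀ hd]
    nlinarith
  have hp2 : 1 / ((1 - ε / 4) * (σ - 1)) ≤ (ε / 15) ^ 2 := by
    rw [div_le_iff₀ hd]
    have a1 : s / 8 ≤ (1 - ε / 4) * (σ - 1) := by nlinarith
    have a2 := mul_le_mul_of_nonneg_left a1 hβ.le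
    nlinarith
  obtain ⟨F', hF1, hF2⟩ := hH V E a b f (univ.filter fun e => f e < (ε / 15) ^ 2) (σ - 1)
    ((ε / 15) ^ 2) (1 / ((1 - ε / 4) * (σ - 1))) (ε / 15) hf
    (hC.mono V E a b univ s 1 (by linarith) hS) (fun e he => (Finset.mem_filter.1 he).2.le) hβ.le
    (by linarith) hp1 hSt (by linarith) (by linarith) (by linarith)
  refine ⟨F', hC.mono V E a b F' _ _ ?_ hF1, fun S hS => ?_⟩
  · rw [div_div_eq_mul_div, div_one, show 5 * (ε / 15) = ε / 3 by ring]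
    exact final h0 h1 hs0.le (by linarith)
  · have := hF2 S hS
    rwa [show 15 * (ε / 15) = ε by ring] at this

end Vale.Agent.P061
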