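import Vale.Agent.P061.Stm

/-! P061: surgery at a contact. -/

open Finset Matrix
open scoped Classical

namespace Vale.Agent.P061

namespace TSurgAux

variable {V A : Type} [NormedAddCommGroup A] {S : Sk V A} {ε : ℝ} {P : Setoid V}
  {par dep : ℕ → ℕ}

theorem anc (hS : S.Ok0 ε P) (hF : S.Forest P par dep) {x : ℕ} (hx : x ∈ S.N) {j : ℕ}
    (hj : j ≤ dep x) : par^[j] x ∈ S.N ∧ dep (par^[j] x) + j = dep x ∧
      ‖S.pos (par^[j] x) - S.pos x‖ ≤ j * ε ∧ P (S.own x) (S.own (par^[j] x)) := by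
  induction j with
  | zero => exact ⟨hx, rfl, by simp, P.refl _⟩
  | succ j ih =>
    obtain ⟨h1, h2, h3, h4⟩ := ih (by omega)
    obtain ⟨h5, h6⟩ := hF.up _ h1 (by omega)
    rw [Function.iterate_succ_apply']
    refine ⟨(hS.mem _ _ h5).2, by omega, ?_, P.trans h4 (hS.lab _ _ h5)⟩
    have h7 := hS.short _ _ (hS.symm _ _ h5)
    have h8 := norm_sub_le_norm_sub_add_norm_sub (S.pos (par (par^[j] x))) (S.pos (par^[j] x))
      (S.pos x)
    push_cast
    linarith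

theorem step (hS : S.Ok0 ε P) (hF : S.Forest P par dep) {x : ℕ} (hx : x ∈ S.N) {j : ℕ}
    (hj : j < dep x) : S.adj (par^[j] x) (par^[j + 1] x) := by
  obtain ⟨h1, h2, -, -⟩ := anc hS hF hx hj.le
  rw [Function.iterate_succ_apply']
  exact (hF.up _ h1 (by omega)).1

theorem walk {r : ℕ → ℕ → Prop} {x j : ℕ} (h : ∀ i < j, r (par^[i] x) (par^[i + 1] x)) :
    Relation.ReflTransGen r x (par^[j] x) := by
  induction j with
  | zero => exact .refl
  | succ j ih => exact (ih fun i hi => h i (by omega)).tail (h j (by omega))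

theorem rsymm {r : ℕ → ℕ → Prop} (h : ∀ u v, r u v → r v u) {x y : ℕ}
    (hxy : Relation.ReflTransGen r x y) : Relation.ReflTransGen r y x := by
  induction hxy with
  | refl => exact .refl
  | tail _ h2 ih => exact ih.head (h _ _ h2)

theorem rin_symm (hS : S.Ok0 ε P) {y : A} {R : ℝ} {u v : ℕ} (h : S.Rin y R u v) :
    S.Rin y R v u :=
  rsymm (fun _ _ h => ⟨hS.symm _ _ h.1, h.2.2, h.2.1⟩) h

theorem rlab (hS : S.Ok0 ε P) {u v : ℕ} (h : Relation.ReflTransGen S.adj u v) :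
    P (S.own u) (S.own v) := by
  induction h with
  | refl => exact P.refl _
  | tail _ h2 ih => exact P.trans ih (hS.lab _ _ h2)

theorem near (hε : 0 < ε) (hS : S.Ok0 ε P) (hF : S.Forest P par dep) {H x : ℕ} {y : A}
    (hx : x ∈ S.N) (hy : ‖S.pos x - y‖ ≤ H * ε / 8) {j : ℕ} (hj : j ≤ dep x) (hH : j ≤ 2 * H) :
    ‖S.pos (par^[j] x) - y‖ ≤ 4 * (H * ε) := by
  have h1 := (anc hS hF hx hj).2.2.1
  have h2 := norm_sub_le_norm_sub_add_norm_sub (S.pos (par^[j] x)) (S.pos x) y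
  have h3 : (j : ℝ) ≤ 2 * H := by exact_mod_cast hH
  have h4 := mul_le_mul_of_nonneg_right h3 hε.le
  have h5 : 0 ≤ (H : ℝ) * ε := by positivity
  linarith

theorem rin (hε : 0 < ε) (hS : S.Ok0 ε P) (hF : S.Forest P par dep) {H x : ℕ} {y : A}
    (hx : x ∈ S.N) (hy : ‖S.pos x - y‖ ≤ H * ε / 8) {j : ℕ} (hj : j ≤ dep x) (hH : j ≤ 2 * H) :
    S.Rin y (4 * (H * ε)) x (par^[j] x) :=
  walk fun i hi => ⟨step hS hF hx (by omega), near hε hS hF hx hy (by omega) (by omega),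
    near hε hS hF hx hy (by omega) (by omega)⟩

/-- `x` is a descendant of `w`. -/
def Des (par dep : ℕ → ℕ) (x w : ℕ) : Prop := ∃ k, k ≤ dep x ∧ par^[k] x = w

theorem Des.up (hS : S.Ok0 ε P) (hF : S.Forest P par dep) {x w : ℕ} (hx : x ∈ S.N)
    (h : Des par dep x w) {i : ℕ} (hi : i ≤ dep w) : Des par dep x (par^[i] w) := by
  obtain ⟨k, hk, rfl⟩ := h
  have := (anc hS hF hx hk).2.1
  exact ⟨i + k, by omega, Function.iterate_add_apply _ _ _ _⟩

theorem Des.down (hS : S.Ok0 ε P) (hF : S.Forest P par dep) {x w : ℕ} (hx : x ∈ S.N) {i : ℕ}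
    (hi : i ≤ dep x) (h : Des par dep (par^[i] x) w) : Des par dep x w := by
  obtain ⟨k, hk, rfl⟩ := h
  have := (anc hS hF hx hi).2.1
  exact ⟨k + i, by omega, Function.iterate_add_apply _ _ _ _⟩

theorem des_mid (hS : S.Ok0 ε P) (hF : S.Forest P par dep) {x : ℕ} (hx : x ∈ S.N) {i k : ℕ}
    (hi : i ≤ k) (hk : k ≤ dep x) : Des par dep (par^[i] x) (par^[k] x) := by
  have := (anc hS hF hx (hi.trans hk)).2.1
  refine ⟨k - i, by omega, ?_⟩
  rw [← Function.iterate_add_apply, Nat.sub_add_cancel hi]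

/-- The removed nodes are close to `p`. -/
theorem close (hε : 0 < ε) (hS : S.Ok0 ε P) (hF : S.Forest P par dep) {H p : ℕ} {y : A}
    (hp : p ∈ S.N) (hy : ‖S.pos p - y‖ ≤ H * ε / 8) (hd : 2 * H < dep p)
    (hfork : ∀ z ∈ S.N, ‖S.pos z - y‖ ≤ 4 * (H * ε) → ¬ S.Fork par dep z H) {x : ℕ}
    (hx : x ∈ S.N) (h1 : Des par dep x (par^[2 * H] p)) (h2 : ¬ Des par dep x (par^[H] p)) :
    P (S.own p) (S.own x) ∧ ‖S.pos p - S.pos x‖ ≤ 3 * (H * ε) := by
  have hex : ∃ j, Des par dep x (par^[j] p) := ⟨_, h1⟩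
  have hj2 : Nat.find hex ≤ 2 * H := Nat.find_min' hex h1
  have hjs := Nat.find_spec hex
  have hjm : ∀ i < Nat.find hex, ¬ Des par dep x (par^[i] p) := fun i hi => Nat.find_min hex hi
  generalize Nat.find hex = j at hj2 hjs hjm
  obtain ⟨a1, a2, a3, a4⟩ := anc hS hF hp (j := j) (by omega)
  have hj1 : H < j := by
    by_contra hc
    refine h2 ?_
    have := hjs.up hS hF hx (i := H - j) (by omega)
    rwa [← Function.iterate_add_apply, Nat.sub_add_cancel (by omega)] at this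
  obtain ⟨k, hk, hke⟩ := hjs
  obtain ⟨b1, b2, b3, b4⟩ := anc hS hF hx hk
  have hkH : k ≤ H := by
    by_contra hc
    obtain ⟨k, rfl⟩ : ∃ k', k = k' + 1 := ⟨k - 1, by omega⟩
    obtain ⟨j, rfl⟩ : ∃ j', j = j' + 1 := ⟨j - 1, by omega⟩
    obtain ⟨c1, c2, -, -⟩ := anc hS hF hx (j := k) (by omega)
    obtain ⟨d1, d2, -, -⟩ := anc hS hF hp (j := j) (by omega)
    obtain ⟨e1, e2, -, -⟩ := anc hS hF hx (j := k - H) (by omega)
    obtain ⟨f1, f2, -, -⟩ := anc hS hF hp (j := j - H) (by omega)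
    refine hfork _ a1 (near hε hS hF hp hy (by omega) hj2)
      ⟨par^[k] x, c1, par^[j] p, d1, fun h => hjm j (by omega) ⟨k, by omega, h⟩, by omega, by omega,
        ?_, (Function.iterate_succ_apply' _ _ _).symm, ⟨_, e1, by omega, ?_⟩, ⟨_, f1, by omega, ?_⟩⟩
    · rw [← hke, Function.iterate_succ_apply']
    · rw [← Function.iterate_add_apply, Nat.add_sub_cancel' (by omega)]
    · rw [← Function.iterate_add_apply, Nat.add_sub_cancel' (by omega)]
  rw [hke] at b3 b4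
  refine ⟨P.trans a4 (P.symm b4), ?_⟩
  have h3 := norm_sub_le_norm_sub_add_norm_sub (S.pos p) (S.pos (par^[j] p)) (S.pos x)
  rw [norm_sub_rev] at a3
  have h4 : (j : ℝ) ≤ 2 * H := by exact_mod_cast hj2
  have h5 : (k : ℝ) ≤ H := by exact_mod_cast hkH
  have h6 := mul_le_mul_of_nonneg_right h4 hε.le
  have h7 := mul_le_mul_of_nonneg_right h5 hε.le
  linarith

theorem core [NormedSpace ℝ A] (hP : PathStmt) {H : ℕ} {y : A} {p q : ℕ} (hε : 0 < ε) (hH : 4 ≤ H)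
    (hS : S.Ok0 ε P) (hF : S.Forest P par dep) (hC : S.Contact P (H * ε) y p q)
    (hfork : ∀ z ∈ S.N, ‖S.pos z - y‖ ≤ 4 * (H * ε) → ¬ S.Fork par dep z H)
    (hqp : dep q ≤ dep p) :
    ∃ S' : Sk V A, S'.Ok ε P ∧ 2 * S'.N.card + H ≤ 2 * S.N.card ∧
      (∀ x ∈ S.N, 4 * (H * ε) < ‖S.pos x - y‖ → x ∈ S'.N) ∧
      (∀ x ∈ S.N, x ∈ S'.N → S'.pos x = S.pos x ∧ S'.own x = S.own x) ∧
      (∀ u v, S'.adj u v → S.adj u v ∨
        (‖S'.pos u - y‖ ≤ 4 * (H * ε) ∧ ‖S'.pos v - y‖ ≤ 4 * (H * ε))) ∧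
      ∃ c ∈ S.N, c ∈ S'.N ∧ ‖S.pos c - y‖ ≤ H * ε / 8 ∧ ∀ x ∈ S.N, x ∉ S'.N →
        ‖S.pos x - y‖ ≤ 4 * (H * ε) ∧ P (S.own c) (S.own x) ∧
          ‖S.pos c - S.pos x‖ ≤ 3 * (H * ε) := by
  obtain ⟨hp, hq, hrel, np, nq, far⟩ := hC
  have hρ : 0 ≤ (H : ℝ) * ε := by positivity
  have hd : 2 * H < dep p := by
    by_contra hc
    obtain ⟨a1, a2, -, a4⟩ := anc hS hF hp le_rfl
    obtain ⟨b1, b2, -, b4⟩ := anc hS hF hq le_rfl
    have e := hF.uniq _ a1 _ b1 (by omega) (by omega) (P.trans (P.symm a4) (P.trans hrel b4))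
    refine far ((rin hε hS hF hp np le_rfl (by omega)).trans ?_)
    rw [e]
    exact rin_symm hS (rin hε hS hF hq nq le_rfl (by omega))
  have hq2 : ¬ Des par dep q (par^[2 * H] p) := by
    rintro ⟨k, hk, e⟩
    have a2 := (anc hS hF hp hd.le).2.1
    have b2 := (anc hS hF hq hk).2.1
    rw [e] at b2
    refine far ((rin hε hS hF hp np hd.le le_rfl).trans ?_)
    rw [← e]
    exact rin_symm hS (rin hε hS hF hq nq hk (by omega))
  obtain ⟨D, hD⟩ : ∃ D : Finset ℕ, ∀ x, x ∈ D ↔ x ∈ S.N ∧ Des par dep x (par^[2 * H] p) ∧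
      ¬ Des par dep x (par^[H] p) := ⟨S.N.filter _, fun x => mem_filter⟩
  have hpD : p ∉ D := fun h => ((hD p).1 h).2.2 ⟨H, by omega, rfl⟩
  have hqD : q ∉ D := fun h => hq2 ((hD q).1 h).2.1
  have hDN : ∀ x ∈ D, x ∈ S.N := fun x hx => ((hD x).1 hx).1
  have hcl : ∀ x ∈ D, P (S.own p) (S.own x) ∧ ‖S.pos p - S.pos x‖ ≤ 3 * (H * ε) := fun x hx =>
    close hε hS hF hp np hd hfork (hDN x hx) ((hD x).1 hx).2.1 ((hD x).1 hx).2.2
  have hcy : ∀ x ∈ D, ‖S.pos x - y‖ ≤ 4 * (H * ε) := fun x hx => by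
    have h1 := (hcl x hx).2
    have h2 := norm_sub_le_norm_sub_add_norm_sub (S.pos x) (S.pos p) y
    rw [norm_sub_rev] at h1
    linarith
  have hcard : H ≤ D.card := by
    have := Finset.card_le_card_of_injOn (s := Finset.Ioc H (2 * H)) (t := D) (fun j => par^[j] p)
      (fun j hj => ?_) (fun i hi j hj e => ?_)
    · rw [Nat.card_Ioc] at this
      omega
    · have hj := Finset.mem_Ioc.1 (Finset.mem_coe.1 hj)
      obtain ⟨a1, a2, -, -⟩ := anc hS hF hp (j := j) (by omega)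
      refine Finset.mem_coe.2 ((hD _).2 ⟨a1, des_mid hS hF hp hj.2 hd.le, ?_⟩)
      rintro ⟨k, hk, e⟩
      have b2 := (anc hS hF a1 hk).2.1
      have c2 := (anc hS hF hp (j := H) (by omega)).2.1
      rw [e] at b2
      omega
    · have hi := Finset.mem_Ioc.1 (Finset.mem_coe.1 hi)
      have hj := Finset.mem_Ioc.1 (Finset.mem_coe.1 hj)
      have a2 := (anc hS hF hp (j := i) (by omega)).2.1
      have b2 := (anc hS hF hp (j := j) (by omega)).2.1
      have e' : par^[i] p = par^[j] p := e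
      rw [e'] at a2
      omega
  obtain ⟨S₁, h0, hsub, hsame, hc1, hup, hnew, hpq, hfresh⟩ :=
    hP V A ⟨S.N, S.pos, S.own, fun u v => S.adj u v ∧ u ∉ D ∧ v ∉ D⟩ ε P p q hε
      ⟨fun u v h => hS.mem u v h.1, fun u v h => ⟨hS.symm u v h.1, h.2.2, h.2.1⟩,
        fun u v h => hS.short u v h.1, fun u v h => hS.lab u v h.1⟩ hp hq hrel
  dsimp only at hsub hsame hc1 hup hnew hfresh
  have hout : ∀ u, (u ∉ S.N ∨ u = p ∨ u = q) → u ∉ D := by
    rintro u (h | rfl | rfl)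
    · exact fun h' => h (hDN u h')
    · exact hpD
    · exact hqD
  have hA : ∀ x ∈ S.N, ¬ Des par dep x (par^[2 * H] p) →
      ∃ r ∈ S.N, dep r = 0 ∧ Relation.ReflTransGen S₁.adj x r := fun x hx h => by
    obtain ⟨a1, a2, -, -⟩ := anc hS hF hx le_rfl
    refine ⟨_, a1, by omega, walk fun i hi => hup _ _ ⟨step hS hF hx hi, ?_, ?_⟩⟩
    · exact fun h' => h (((hD _).1 h').2.1.down hS hF hx (by omega))
    · exact fun h' => h (((hD _).1 h').2.1.down hS hF hx (by omega))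
  have hB : ∀ x ∈ S.N, Des par dep x (par^[H] p) →
      Relation.ReflTransGen S₁.adj x (par^[H] p) := fun x hx h => by
    obtain ⟨k, hk, e⟩ := h
    rw [← e]
    refine walk fun i hi => hup _ _ ⟨step hS hF hx (by omega), ?_, ?_⟩
    · exact fun h' => ((hD _).1 h').2.2 (e ▸ des_mid hS hF hx (by omega) hk)
    · exact fun h' => ((hD _).1 h').2.2 (e ▸ des_mid hS hF hx (by omega) hk)
  have hroot : ∀ x ∈ S₁.N, x ∉ D → ∃ r ∈ S.N, dep r = 0 ∧ Relation.ReflTransGen S₁.adj x r := by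
    intro x hx hxD
    obtain ⟨r, r1, r2, r3⟩ := hA q hq hq2
    by_cases hN : x ∈ S.N
    · by_cases h2 : Des par dep x (par^[2 * H] p)
      · have h3 : Des par dep x (par^[H] p) := by
          by_contra h3
          exact hxD ((hD x).2 ⟨hN, h2, h3⟩)
        exact ⟨r, r1, r2, (((hB x hN h3).trans
          (rsymm h0.symm (hB p hp ⟨H, by omega, rfl⟩))).trans hpq).trans r3⟩
      · exact hA x hN h2
    · exact ⟨r, r1, r2, ((hfresh x hx hN).1.trans hpq).trans r3⟩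
  have hmem : ∀ u v, S₁.adj u v → u ∉ D ∧ v ∉ D := fun u v h =>
    (hnew u v h).elim (fun h => h.2) fun h => ⟨hout u h.1, hout v h.2⟩
  have hseg : ∀ u ∈ S₁.N, (u ∉ S.N ∨ u = p ∨ u = q) → ‖S₁.pos u - y‖ ≤ 4 * (H * ε) := by
    rintro u hu (h | rfl | rfl)
    · have h1 := (convex_closedBall y (H * ε / 8)).segment_subset (mem_closedBall_iff_norm.2 np)
        (mem_closedBall_iff_norm.2 nq) (hfresh u hu h).2.2
      rw [mem_closedBall_iff_norm] at h1
      linarith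
    · rw [(hsame u hp).1]
      linarith
    · rw [(hsame u hq).1]
      linarith
  refine ⟨⟨S₁.N \ D, S₁.pos, S₁.own, S₁.adj⟩, ⟨⟨fun u v h => ?_, h0.symm, h0.short, h0.lab⟩, ?_⟩,
    ?_, ?_, fun x hx _ => hsame x hx, fun u v h => ?_, p, hp, mem_sdiff.2 ⟨hsub hp, hpD⟩, np, ?_⟩
  · exact ⟨mem_sdiff.2 ⟨(h0.mem u v h).1, (hmem u v h).1⟩,
      mem_sdiff.2 ⟨(h0.mem u v h).2, (hmem u v h).2⟩⟩
  · intro u hu v hv huv
    obtain ⟨r, r1, r2, r3⟩ := hroot u (mem_sdiff.1 hu).1 (mem_sdiff.1 hu).2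
    obtain ⟨s, s1, s2, s3⟩ := hroot v (mem_sdiff.1 hv).1 (mem_sdiff.1 hv).2
    have h1 := P.trans (P.symm (rlab h0 r3)) (P.trans huv (rlab h0 s3))
    rw [(hsame r r1).2, (hsame s s1).2] at h1
    have e := hF.uniq r r1 s s1 r2 s2 h1
    subst e
    exact r3.trans (rsymm h0.symm s3)
  · have h1 : (S₁.N \ D).card + D.card = S₁.N.card :=
      card_sdiff_add_card_eq_card fun x hx => hsub (hDN x hx)
    have h2 := norm_sub_le_norm_sub_add_norm_sub (S.pos p) y (S.pos q)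
    rw [norm_sub_rev y] at h2
    have h3 : (4 * S₁.N.card : ℝ) * ε ≤ (4 * S.N.card + H + 4) * ε := by linarith
    have h4 : 4 * S₁.N.card ≤ 4 * S.N.card + H + 4 := by
      exact_mod_cast le_of_mul_le_mul_right h3 hε
    show 2 * (S₁.N \ D).card + H ≤ 2 * S.N.card
    omega
  · exact fun x hx h => mem_sdiff.2 ⟨hsub hx, fun h' => absurd (hcy x h') (not_le.2 h)⟩
  · exact (hnew u v h).imp (fun h => h.1) fun h' =>
      ⟨hseg u (h0.mem u v h).1 h'.1, hseg v (h0.mem u v h).2 h'.2⟩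
  · intro x hx hx'
    have hxD : x ∈ D := by
      by_contra h
      exact hx' (mem_sdiff.2 ⟨hsub hx, h⟩)
    exact ⟨hcy x hxD, hcl x hxD⟩

end TSurgAux

open TSurgAux

theorem tSurg (hP : PathStmt) : SurgStmt := by
  intro V A _ _ S ε P par dep H y p q hε hH hS hF hC hfork
  rcases le_total (dep q) (dep p) with h | h
  · exact core hP hε hH hS.toOk0 hF hC hfork h
  · exact core hP hε hH hS.toOk0 hF
      ⟨hC.hq, hC.hp, P.symm hC.rel, hC.nq, hC.np, fun h' => hC.far (rin_symm hS.toOk0 h')⟩ hfork h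

end Vale.Agent.P061
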