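import Vale.Agent.P061.Stm

/-! P061: iterating the level step. -/

open Finset Matrix
open scoped Classical

namespace Vale.Agent.P061

namespace TTowerAux

theorem dense_mono {V A : Type} [NormedAddCommGroup A] {S : Sk V A} {X : V → A} {P : Setoid V}
    {δ δ' : ℝ} (h : δ ≤ δ') (hS : S.Dense X P δ) : S.Dense X P δ' := fun v =>
  (hS v).imp fun _ hp => ⟨hp.1, hp.2.1, hp.2.2.trans h⟩

end TTowerAux

theorem tTower (hB : BaseStmt) (hL : LevelStmt) : TowerStmt := by
  intro V A E _ _ _ _ _ a b X m Pi T0 T I ρ hρ hm h0 hg hT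
  have main : ∀ H0 : ℕ, 4 ≤ H0 → ∑ i ∈ range m, ρ * 128 ^ i * (I i).card ≤
      2 * ∑ e ∈ T0, ‖X (a e) - X (b e)‖ +
      ∑ i ∈ range m, (2 * ∑ e ∈ T i, ‖X (a e) - X (b e)‖ + ρ * 128 ^ i * (T i).card) +
      2 * (Fintype.card V + T0.card) * (ρ / H0) := by
    intro H0 hH
    have hH0 : (0 : ℝ) < H0 := by exact_mod_cast (by omega : 0 < H0)
    have hε : 0 < ρ / H0 := div_pos hρ hH0
    have key : ∀ i : ℕ, ∃ S : Sk V A, S.Ok (ρ / H0) (Pi i) ∧ S.Dense X (Pi i) (ρ * 128 ^ i / 16) ∧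
        2 * (S.N.card * (ρ / H0)) + ∑ j ∈ range i, ρ * 128 ^ j * (I j).card ≤
          2 * ∑ e ∈ T0, ‖X (a e) - X (b e)‖ +
          ∑ j ∈ range i, (2 * ∑ e ∈ T j, ‖X (a e) - X (b e)‖ + ρ * 128 ^ j * (T j).card) +
          2 * (Fintype.card V + T0.card) * (ρ / H0) := by
      intro i
      induction i with
      | zero =>
        obtain ⟨S, h1, h2, h3⟩ := hB V A E a b X (ρ / H0) (Pi 0) T0 hε h0 hg
        refine ⟨S, h1, TTowerAux.dense_mono (by positivity) h2, ?_⟩
        simp only [range_zero, sum_empty]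
        linarith
      | succ i ih =>
        obtain ⟨S, h1, h2, h3⟩ := ih
        have e : ((H0 * 128 ^ i : ℕ) : ℝ) * (ρ / H0) = ρ * 128 ^ i := by
          push_cast
          field_simp
        have hH' : 4 ≤ H0 * 128 ^ i := hH.trans (Nat.le_mul_of_pos_right _ (by positivity))
        obtain ⟨S', g1, g2, g3⟩ := hL V A E a b X S (ρ / H0) (ρ * 128 ^ i / 16) (Pi i) (Pi (i + 1))
          (T i) (I i) (H0 * 128 ^ i) hε hH' (by positivity) (by rw [e]) (hm (Nat.le_succ i)) h1 h2
          (hT i).1 (hT i).2.1 (by rw [e]; exact (hT i).2.2)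
        rw [e] at g2 g3
        refine ⟨S', g1, TTowerAux.dense_mono ?_ g2, ?_⟩
        · have : 0 < ρ * 128 ^ i := by positivity
          rw [pow_succ, ← mul_assoc]
          linarith
        · rw [sum_range_succ, sum_range_succ]
          linarith
    obtain ⟨S, -, -, h3⟩ := key m
    have : 0 ≤ 2 * (S.N.card * (ρ / H0)) := by positivity
    linarith
  refine le_of_forall_pos_le_add fun η hη => ?_
  obtain ⟨n, hn⟩ := exists_nat_gt (2 * (Fintype.card V + T0.card) * ρ / η)
  refine (main (n + 4) (by omega)).trans (add_le_add_right ?_ _)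
  rw [← mul_div_assoc, div_le_iff₀ (by positivity)]
  rw [div_lt_iff₀ hη] at hn
  push_cast
  nlinarith

end Vale.Agent.P061
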