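import Vale.Agent.P061.Stm

/-! P061: the trace argument. -/

open Finset Matrix
open scoped Classical

namespace Vale.Agent.P061

theorem tTr (hR : RankStmt) : TrStmt := by
  intro n ι _ F c l p hp hpos hle
  have hG := hR.posDef n ι F c l hpos
  set G := ∑ i ∈ F, l i • vecMulVec (c i) (c i) with hGd
  have h1 : G⁻¹ * G = 1 := nonsing_inv_mul G (isUnit_iff_ne_zero.mpr hG.det_pos.ne')
  have h2 : (Fintype.card n : ℝ) = ∑ i ∈ F, l i * (c i ⬝ᵥ G⁻¹ *ᵥ c i) := by
    have h3 := congrArg trace h1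
    rw [trace_one] at h3
    rw [← h3]
    conv_lhs => rw [hGd]
    rw [← hGd, Matrix.mul_sum, trace_sum]
    refine sum_congr rfl fun i _ => ?_
    rw [Matrix.mul_smul, trace_smul, smul_eq_mul, mul_vecMulVec, trace_vecMulVec, dotProduct_comm]
  rw [h2, ← sum_filter_add_sum_filter_not F (fun e => c e ≠ 0)]
  have h4 : ∑ i ∈ F.filter (fun e => ¬ c e ≠ 0), l i * (c i ⬝ᵥ G⁻¹ *ᵥ c i) = 0 := by
    refine sum_eq_zero fun i hi => ?_
    have : c i = 0 := not_not.mp (mem_filter.mp hi).2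
    simp [this]
  rw [h4, add_zero, mul_comm p, ← nsmul_eq_mul]
  refine sum_le_card_nsmul _ _ _ fun i hi => ?_
  refine hR.le n G (c i) (l i) p hG hp fun x => ?_
  rw [hGd, hR.form]
  exact hle i (mem_filter.mp hi).1 x

end Vale.Agent.P061
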