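import Vale.Agent.P061.Stm

open Finset Matrix
open scoped Classical

namespace Vale.Agent.P061

namespace TWtAux

theorem geo (l x : ℝ) (hl : 0 < l) (hx : 0 ≤ x) (m : ℕ) :
    ∑ j ∈ range m, (if l * 2 ^ j ≤ x then l * 2 ^ j else 0) ≤ l * 2 ^ m ∧
      ∑ j ∈ range m, (if l * 2 ^ j ≤ x then l * 2 ^ j else 0) ≤ 2 * x := by
  induction m with
  | zero =>
    simp only [range_zero, sum_empty, pow_zero, mul_one]
    exact ⟨hl.le, by linarith⟩
  | succ m ih =>
    rw [sum_range_succ, pow_succ]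
    have hp : 0 < l * 2 ^ m := by positivity
    split_ifs with h
    · constructor <;> nlinarith [ih.1, ih.2]
    · constructor <;> nlinarith [ih.1, ih.2]

end TWtAux

open TWtAux in
theorem tWt : WtStmt := by
  intro V E _ _ a b w σ l Pi m hσ hl hS hU
  rw [le_div_iff₀ hσ, sum_mul]
  have h1 : ∀ j ∈ range m, l * 2 ^ j * ((ncl (Pi (l * 2 ^ j)) : ℝ) - 1) * σ ≤
      ∑ e, (if l * 2 ^ j ≤ w e then l * 2 ^ j else 0) := by
    intro j _
    have hp : 0 < l * 2 ^ j := by positivity
    have h2 := hS (Pi (l * 2 ^ j))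
    have h3 : xs a b univ (Pi (l * 2 ^ j)) = univ.filter fun e => l * 2 ^ j ≤ w e := by
      unfold xs
      exact filter_congr fun e _ => hU.level _ hp e
    rw [h3] at h2
    rw [← sum_filter, sum_const, nsmul_eq_mul]
    nlinarith [mul_le_mul_of_nonneg_left h2 hp.le]
  refine (sum_le_sum h1).trans ?_
  rw [sum_comm, mul_sum]
  exact sum_le_sum fun e _ => (geo l (w e) hl (hU.nonneg e) m).2

end Vale.Agent.P061
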