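import Vale.Agent.P061.Bridge
import Vale.Agent.P061.TNcl
import Vale.Agent.P061.TKr
import Vale.Agent.P061.TConn
import Vale.Agent.P061.TForest
import Vale.Agent.P061.TPrune
import Vale.Agent.P061.TPath
import Vale.Agent.P061.TSurg
import Vale.Agent.P061.TSave
import Vale.Agent.P061.TJoin
import Vale.Agent.P061.TLevel
import Vale.Agent.P061.TBase
import Vale.Agent.P061.TTower
import Vale.Agent.P061.TSep
import Vale.Agent.P061.TCovLow
import Vale.Agent.P061.TCovStep
import Vale.Agent.P061.TJones
import Vale.Agent.P061.TCount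
import Vale.Agent.P061.TDyJ
import Vale.Agent.P061.TDyS
import Vale.Agent.P061.TWt
import Vale.Agent.P061.TGeo
import Vale.Agent.P061.TLR
import Vale.Agent.P061.TDL
import Vale.Agent.P061.TFGH
import Vale.Agent.P061.TDual
import Vale.Agent.P061.TNash
import Vale.Agent.P061.TSel
import Vale.Agent.P061.TLat
import Vale.Agent.P061.TFP
import Vale.Agent.P061.TRank
import Vale.Agent.P061.TDetLow
import Vale.Agent.P061.TLam
import Vale.Agent.P061.TTr
import Vale.Agent.P061.TLev
import Vale.Agent.P061.TKS2
import Vale.Agent.P061.THalf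
import Vale.Agent.P061.TStep
import Vale.Agent.P061.TIter

/-! Assembly of the pieces. -/

namespace Vale.Agent.P061

theorem krS : KrStmt := tKr tNcl

theorem connS : ConnStmt := tConn tNcl

theorem joinS : JoinStmt := tJoin tPath

theorem baseS : BaseStmt := tBase joinS

theorem towerS : TowerStmt :=
  tTower baseS (tLevel joinS (tSave tForest tPrune (tSurg tPath)))

theorem geoS : GeoStmt :=
  tGeo tSep (tCount tSep) (tDyJ krS (tJones baseS (tCovStep tSep tCovLow)))
    (tDyS tNcl krS towerS) tWt connS

theorem dualS : DualStmt := tDual (tDL geoS (tLR tRank) tRank connS) tFGH connS tRank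

theorem fpS : FPStmt := tFP tNash tSel (tLat tNcl) tNcl connS

theorem halfS (hK : KSStmt) : HalfStmt :=
  tHalf (tLam krS connS tNcl tRank (tDetLow tRank)) (tLev (tTr tRank) tNcl) (tKS2 hK) connS tRank

theorem iterS (hK : KSStmt) : IterStmt := tIter (tStep fpS dualS (halfS hK) connS) krS connS tNcl

end Vale.Agent.P061
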