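import Vale.Agent.P061.Basic

/-! Interface statements for P061 (see skel/P061/PLAN.md). -/

open Finset Matrix
open scoped Classical

namespace Vale.Agent.P061

noncomputable instance instFintypeSetoid {V : Type} [Fintype V] : Fintype (Setoid V) :=
  Fintype.ofInjective (fun P : Setoid V => (univ.filter fun p : V × V => P p.1 p.2 : Finset (V × V)))
    (fun P Q h => by
      ext u v
      have := congrArg (fun s : Finset (V × V) => (u, v) ∈ s) h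
      simpa using this)

/-! ### Partitions and trees -/

structure NclStmt : Prop where
  semi : ∀ (V : Type) [Fintype V] (P Q : Setoid V), ncl P + ncl Q ≤ ncl (P ⊓ Q) + ncl (P ⊔ Q)
  anti : ∀ (V : Type) [Fintype V] (P Q : Setoid V), P ≤ Q → ncl Q ≤ ncl P
  lt : ∀ (V : Type) [Fintype V] (P Q : Setoid V), P ≤ Q → ¬ Q ≤ P → ncl Q < ncl P
  pos : ∀ (V : Type) [Fintype V] [Nonempty V] (P : Setoid V), 1 ≤ ncl P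
  top : ∀ (V : Type) [Fintype V] [Nonempty V], ncl (⊤ : Setoid V) = 1
  bot : ∀ (V : Type) [Fintype V], ncl (⊥ : Setoid V) = Fintype.card V

def KrStmt : Prop :=
  ∀ (V E : Type) [Fintype V] (a b : E → V) (H : Finset E) (P Q : Setoid V) (σ : ℝ) (d : E → ℝ),
    0 < σ → P ≤ Q → Good a b H Q σ → (∀ e, 0 ≤ d e) →
    ∃ T, T ⊆ xs2 a b H P Q ∧ T.card + ncl Q ≤ ncl P ∧ Gen a b T P Q ∧
      σ * ∑ e ∈ T, d e ≤ ∑ e ∈ xs2 a b H P Q, d e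

structure ConnStmt : Prop where
  ofCut : ∀ (V E : Type) [Fintype V] [Nonempty V] (a b : E → V) (H : Finset E) (k : ℝ), 0 ≤ k →
    (∀ S, Nt S → k ≤ cut a b H S) → Strong a b H (k / 2)
  toCut : ∀ (V E : Type) [Fintype V] (a b : E → V) (H : Finset E) (σ : ℝ) (S : Finset V),
    Strong a b H σ → Nt S → σ ≤ cut a b H S
  good : ∀ (V E : Type) [Fintype V] [Nonempty V] (a b : E → V) (H : Finset E) (σ : ℝ),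
    Strong a b H σ → Good a b H ⊤ σ
  mono : ∀ (V E : Type) [Fintype V] [Nonempty V] (a b : E → V) (H : Finset E) (σ σ' : ℝ),
    σ' ≤ σ → Strong a b H σ → Strong a b H σ'
  lapInd : ∀ (V E : Type) (a b : E → V) (H : Finset E) (S : Finset V),
    lap a b H (ind S) = cut a b H S

/-! ### Skeletons -/

def ForestStmt : Prop :=
  ∀ (V A : Type) [NormedAddCommGroup A] (S : Sk V A) (ε : ℝ) (P : Setoid V), S.Ok ε P →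
    ∃ par dep, S.Forest P par dep

def PruneStmt : Prop :=
  ∀ (V A : Type) [NormedAddCommGroup A] (S : Sk V A) (ε : ℝ) (P : Setoid V) (par dep : ℕ → ℕ)
    (H : ℕ) (B : Finset ℕ), 0 ≤ ε → S.Ok ε P → S.Forest P par dep → B ⊆ S.N →
    (∀ p ∈ B, S.Fork par dep p H) →
    ∃ S' : Sk V A, S'.Ok ε P ∧ S'.N.card + H * B.card ≤ S.N.card ∧
      ∀ p ∈ S.N, ∃ p' ∈ S'.N, P (S'.own p') (S.own p) ∧ ‖S'.pos p' - S.pos p‖ ≤ H * ε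

def PathStmt : Prop :=
  ∀ (V A : Type) [NormedAddCommGroup A] [NormedSpace ℝ A] (S : Sk V A) (ε : ℝ) (P : Setoid V)
    (p q : ℕ), 0 < ε → S.Ok0 ε P → p ∈ S.N → q ∈ S.N → P (S.own p) (S.own q) →
    ∃ S' : Sk V A, S'.Ok0 ε P ∧ S.N ⊆ S'.N ∧
      (∀ x ∈ S.N, S'.pos x = S.pos x ∧ S'.own x = S.own x) ∧
      (S'.N.card : ℝ) * ε ≤ S.N.card * ε + ‖S.pos p - S.pos q‖ + ε ∧
      (∀ x y, S.adj x y → S'.adj x y) ∧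
      (∀ x y, S'.adj x y → S.adj x y ∨
        ((x ∉ S.N ∨ x = p ∨ x = q) ∧ (y ∉ S.N ∨ y = p ∨ y = q))) ∧
      Relation.ReflTransGen S'.adj p q ∧
      ∀ x ∈ S'.N, x ∉ S.N → Relation.ReflTransGen S'.adj x p ∧ S'.own x = S.own p ∧
        S'.pos x ∈ segment ℝ (S.pos p) (S.pos q)

def SurgStmt : Prop :=
  ∀ (V A : Type) [NormedAddCommGroup A] [NormedSpace ℝ A] (S : Sk V A) (ε : ℝ) (P : Setoid V)
    (par dep : ℕ → ℕ) (H : ℕ) (y : A) (p q : ℕ), 0 < ε → 4 ≤ H → S.Ok ε P →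
    S.Forest P par dep → S.Contact P (H * ε) y p q →
    (∀ z ∈ S.N, ‖S.pos z - y‖ ≤ 4 * (H * ε) → ¬ S.Fork par dep z H) →
    ∃ S' : Sk V A, S'.Ok ε P ∧ 2 * S'.N.card + H ≤ 2 * S.N.card ∧
      (∀ x ∈ S.N, 4 * (H * ε) < ‖S.pos x - y‖ → x ∈ S'.N) ∧
      (∀ x ∈ S.N, x ∈ S'.N → S'.pos x = S.pos x ∧ S'.own x = S.own x) ∧
      (∀ u v, S'.adj u v → S.adj u v ∨
        (‖S'.pos u - y‖ ≤ 4 * (H * ε) ∧ ‖S'.pos v - y‖ ≤ 4 * (H * ε))) ∧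
      ∃ c ∈ S.N, c ∈ S'.N ∧ ‖S.pos c - y‖ ≤ H * ε / 8 ∧ ∀ x ∈ S.N, x ∉ S'.N →
        ‖S.pos x - y‖ ≤ 4 * (H * ε) ∧ P (S.own c) (S.own x) ∧ ‖S.pos c - S.pos x‖ ≤ 3 * (H * ε)

def SaveStmt : Prop :=
  ∀ (V A ι : Type) [NormedAddCommGroup A] [NormedSpace ℝ A] (S : Sk V A) (ε : ℝ) (P : Setoid V)
    (H : ℕ) (I : Finset ι) (y : ι → A) (p q : ι → ℕ), 0 < ε → 4 ≤ H → S.Ok ε P →
    Sepd y I (8 * (H * ε)) → (∀ i ∈ I, S.Contact P (H * ε) (y i) (p i) (q i)) →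
    ∃ S' : Sk V A, S'.Ok ε P ∧ 2 * S'.N.card + H * I.card ≤ 2 * S.N.card ∧
      ∀ x ∈ S.N, ∃ x' ∈ S'.N, P (S'.own x') (S.own x) ∧ ‖S'.pos x' - S.pos x‖ ≤ 4 * (H * ε)

def JoinStmt : Prop :=
  ∀ (V A E : Type) [NormedAddCommGroup A] [NormedSpace ℝ A] (a b : E → V) (X : V → A)
    (S : Sk V A) (ε δ : ℝ) (P Q : Setoid V) (T : Finset E), 0 < ε → 0 ≤ δ → P ≤ Q → S.Ok ε P →
    S.Dense X P δ → (∀ e ∈ T, Q (a e) (b e)) → Gen a b T P Q →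
    ∃ S' : Sk V A, S'.Ok ε Q ∧ S.N ⊆ S'.N ∧
      (∀ x ∈ S.N, S'.pos x = S.pos x ∧ S'.own x = S.own x) ∧
      (S'.N.card : ℝ) * ε ≤ S.N.card * ε + ∑ e ∈ T, ‖X (a e) - X (b e)‖ + T.card * (2 * δ + ε) ∧
      ∀ x ∈ S.N, ∀ z, S'.adj x z → S.adj x z ∨
        ∃ e ∈ T, ‖S.pos x - X (a e)‖ ≤ δ ∨ ‖S.pos x - X (b e)‖ ≤ δ

def LevelStmt : Prop :=
  ∀ (V A E : Type) [NormedAddCommGroup A] [NormedSpace ℝ A] [Fintype E] (a b : E → V) (X : V → A)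
    (S : Sk V A) (ε δ : ℝ) (P Q : Setoid V) (T I : Finset E) (H : ℕ), 0 < ε → 4 ≤ H → 0 ≤ δ →
    δ ≤ H * ε / 16 → P ≤ Q → S.Ok ε P → S.Dense X P δ → T ⊆ xs2 a b univ P Q → Gen a b T P Q →
    Loc a b X P Q T I (H * ε) →
    ∃ S' : Sk V A, S'.Ok ε Q ∧ S'.Dense X Q (δ + 4 * (H * ε)) ∧
      2 * (S'.N.card * ε) + H * ε * I.card ≤
        2 * (S.N.card * ε) + 2 * ∑ e ∈ T, ‖X (a e) - X (b e)‖ + H * ε * T.card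

def BaseStmt : Prop :=
  ∀ (V A E : Type) [NormedAddCommGroup A] [NormedSpace ℝ A] [Fintype V] [Nonempty V] (a b : E → V)
    (X : V → A) (ε : ℝ) (Q : Setoid V) (T : Finset E), 0 < ε → (∀ e ∈ T, Q (a e) (b e)) → Gen a b T ⊥ Q →
    ∃ S : Sk V A, S.Ok ε Q ∧ S.Dense X Q 0 ∧
      (S.N.card : ℝ) * ε ≤ ∑ e ∈ T, ‖X (a e) - X (b e)‖ + (Fintype.card V + T.card) * ε

def TowerStmt : Prop :=
  ∀ (V A E : Type) [NormedAddCommGroup A] [NormedSpace ℝ A] [Fintype V] [Nonempty V] [Fintype E]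
    (a b : E → V) (X : V → A) (m : ℕ) (Pi : ℕ → Setoid V) (T0 : Finset E) (T I : ℕ → Finset E) (ρ : ℝ), 0 < ρ →
    Monotone Pi → (∀ e ∈ T0, Pi 0 (a e) (b e)) → Gen a b T0 ⊥ (Pi 0) →
    (∀ i, T i ⊆ xs2 a b univ (Pi i) (Pi (i + 1)) ∧ Gen a b (T i) (Pi i) (Pi (i + 1)) ∧
      Loc a b X (Pi i) (Pi (i + 1)) (T i) (I i) (ρ * 128 ^ i)) →
    ∑ i ∈ range m, ρ * 128 ^ i * (I i).card ≤ 2 * ∑ e ∈ T0, ‖X (a e) - X (b e)‖ +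
      ∑ i ∈ range m, (2 * ∑ e ∈ T i, ‖X (a e) - X (b e)‖ + ρ * 128 ^ i * (T i).card)

def SepStmt : Prop :=
  ∀ (A ι : Type) [NormedAddCommGroup A] (x : ι → A) (s : Finset ι) (r : ℝ), 0 ≤ r →
    ∃ t, t ⊆ s ∧ Sepd x t r ∧ ∀ i ∈ s, ∃ j ∈ t, ‖x i - x j‖ ≤ r

def CovLowStmt : Prop :=
  ∀ (V A : Type) [NormedAddCommGroup A] (S : Sk V A) (ε R : ℝ) (P : Setoid V) (cl : ℕ → ℕ)
    (t : ℕ → ℝ) (p q : ℕ), 0 ≤ ε → 0 ≤ R → S.Ok0 ε P → (∀ i, 0 ≤ t i) →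
    (∀ u ∈ S.N, ∀ v ∈ S.N, cl u = cl v → ‖S.pos u - S.pos v‖ ≤ t (cl u)) →
    Relation.ReflTransGen S.adj p q → R < ‖S.pos q - S.pos p‖ →
    R ≤ ∑ i ∈ (S.N.filter fun u => ‖S.pos u - S.pos p‖ ≤ R).image cl, (t i + ε)

def CovStepStmt : Prop :=
  ∀ (V A : Type) [NormedAddCommGroup A] [Fintype V] (X : V → A) (S : Sk V A) (ε ρ c r L : ℝ)
    (Y : Finset V), 0 < ε → ε ≤ r → 1 ≤ L → ρ ≤ r / 4 → S.Ok ε ⊤ → S.Dense X ⊤ 0 → Sepd X Y r →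
    S.Cov ε ρ c → S.Cov ε (5 * L * r) (c - r / 8 * (rich X Y (L * r) (48 * L)).card)

def JonesStmt : Prop :=
  ∀ (V A E : Type) [NormedAddCommGroup A] [NormedSpace ℝ A] [Fintype V] [Nonempty V] (a b : E → V)
    (X : V → A) (T : Finset E) (L r M : ℝ) (m : ℕ) (Y : ℕ → Finset V), Gen a b T ⊥ ⊤ → 1 ≤ L → 0 < r →
    20 * L ≤ M → (∀ i, Sepd X (Y i) (r * M ^ i)) →
    ∑ i ∈ range m, r * M ^ i * (rich X (Y i) (L * (r * M ^ i)) (48 * L)).card ≤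
      8 * ∑ e ∈ T, ‖X (a e) - X (b e)‖

def CountStmt : Prop :=
  ∀ (V A E : Type) [NormedAddCommGroup A] [Fintype E] (a b : E → V) (X : V → A) (P Q : Setoid V)
    (T F : Finset E) (Y : Finset V) (y : V → V) (ρ r K : ℝ), 0 ≤ r → r ≤ ρ / 16 → 0 ≤ K →
    F ⊆ xs2 a b univ P Q → (∀ e ∈ F, ‖X (a e) - X (b e)‖ ≤ ρ / 16) →
    (∀ v, y v ∈ Y ∧ ‖X v - X (y v)‖ ≤ r) →
    ∃ I, Loc a b X P Q T I ρ ∧
      (((F.image fun e => y (a e)) ∪ F.image fun e => y (b e)).card : ℝ) ≤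
        (rich X Y (11 * ρ) K).card + K * (I.card + 2 * T.card)

def DyJStmt : Prop :=
  ∀ (V A E : Type) [NormedAddCommGroup A] [NormedSpace ℝ A] [Fintype V] [Nonempty V] [Fintype E]
    (a b : E → V) (X : V → A) (σ L r : ℝ) (g m : ℕ) (Y : ℕ → Finset V), 0 < σ → Good a b univ ⊤ σ → 1 ≤ L →
    0 < r → 20 * L ≤ g → (∀ j, Sepd X (Y j) (r * 2 ^ j)) →
    ∑ j ∈ range m, r * 2 ^ j * (rich X (Y j) (L * (r * 2 ^ j)) (48 * L)).card ≤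
      g * (8 * (∑ e, ‖X (a e) - X (b e)‖) / σ)

def DySStmt : Prop :=
  ∀ (V A E : Type) [NormedAddCommGroup A] [NormedSpace ℝ A] [Fintype V] [Nonempty V] [Fintype E]
    (a b : E → V) (X : V → A) (σ ρ : ℝ) (Pi : ℕ → Setoid V), 0 < σ → 0 < ρ → Monotone Pi →
    (∀ j, Good a b univ (Pi j) σ) →
    ∃ T : ℕ → Finset E, (∀ j, (T j).card + 1 ≤ ncl (Pi j)) ∧ ∀ (I : ℕ → Finset E) (m : ℕ),
      (∀ j, Loc a b X (Pi j) (Pi (j + 7)) (T j) (I j) (ρ * 2 ^ j)) →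
      ∑ j ∈ range (7 * m), ρ * 2 ^ j * (I j).card ≤
        28 * (∑ e, ‖X (a e) - X (b e)‖) / σ + ∑ j ∈ range (7 * m), ρ * 2 ^ j * (T j).card

def WtStmt : Prop :=
  ∀ (V E : Type) [Fintype V] [Fintype E] (a b : E → V) (w : E → ℝ) (σ l : ℝ) (Pi : ℝ → Setoid V)
    (m : ℕ), 0 < σ → 0 < l → Strong a b univ σ → Ultra a b w σ Pi →
    ∑ j ∈ range m, l * 2 ^ j * ((ncl (Pi (l * 2 ^ j)) : ℝ) - 1) ≤ 2 * (∑ e, w e) / σ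

def GeoStmt : Prop :=
  ∀ (V A E : Type) [NormedAddCommGroup A] [NormedSpace ℝ A] [Fintype V] [Nonempty V] [Fintype E]
    (a b : E → V) (X : V → A) (w : E → ℝ) (σ η : ℝ) (Pi : ℝ → Setoid V), 0 < η → η ≤ 1 →
    10 ^ 9 / η ^ 5 ≤ σ → Strong a b univ σ → Ultra a b w σ Pi →
    ∃ (m : ℕ) (l : ℝ) (y : ℕ → V → V) (Y : ℕ → Finset V) (lev : E → ℕ), 0 < l ∧
      (∀ j v, ‖X v - X (y j v)‖ ≤ η ^ 2 * (l * 2 ^ j)) ∧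
      (∀ e, 0 < w e → ‖X (a e) - X (b e)‖ ≤ 16 * w e → lev e < m ∧ l * 2 ^ lev e ≤ w e ∧
        w e < 2 * (l * 2 ^ lev e) ∧ y (lev e) (a e) ∈ Y (lev e) ∧ y (lev e) (b e) ∈ Y (lev e)) ∧
      34 / η * ∑ j ∈ range m, l * 2 ^ j * (Y j).card ≤
        (∑ e, ‖X (a e) - X (b e)‖) / 4 + η * ∑ e, w e

/-! ### Duality and the fixed point -/

def LRStmt : Prop :=
  ∀ (V : Type) [Fintype V] (μ : Finset V → ℝ) (Y : Finset V) (α ζ : ℝ), (∀ S, 0 ≤ μ S) → 0 < α →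
    0 < ζ → ∃ D : Matrix V V ℝ, D.PosSemidef ∧ ∑ S, μ S * qf D (ind S) ≤ α * Y.card ∧
      ∀ u ∈ Y, ∀ v ∈ Y, ∀ x : V → ℝ, 2 * (x u - x v) - qf D x ≤ (cd μ u v + 2 * ζ) / α

def DLStmt : Prop :=
  ∀ (V E : Type) [Fintype V] [Nonempty V] [Fintype E] (a b : E → V) (w : E → ℝ) (σ η : ℝ)
    (Pi : ℝ → Setoid V) (μ : Finset V → ℝ), 0 < η → η ≤ 1 → 10 ^ 9 / η ^ 5 ≤ σ →
    Strong a b univ σ → Ultra a b w σ Pi → (∀ S, 0 ≤ μ S) →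
    ∃ (D : Matrix V V ℝ) (f : E → ℝ), D.PosSemidef ∧
      (∀ e, 0 < w e → ∀ x : V → ℝ, 2 * (x (a e) - x (b e)) - qf D x ≤ f e) ∧
      ∑ e, w e * f e + ∑ S, μ S * qf D (ind S) ≤ 7 * η * ∑ e, w e + ∑ S, μ S * cut a b univ S

def FGHStmt : Prop :=
  ∀ (X ι : Type) [AddCommGroup X] [Module ℝ X] [Fintype ι] [Nonempty ι] (C : Set X)
    (g : ι → X → ℝ), Convex ℝ C → (∀ i, ConvexOn ℝ C (g i)) →
    (∃ x ∈ C, ∀ i, g i x < 0) ∨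
      ∃ lam : ι → ℝ, (∀ i, 0 ≤ lam i) ∧ ∑ i, lam i = 1 ∧ ∀ x ∈ C, 0 ≤ ∑ i, lam i * g i x

structure DualStmt : Prop where
  convex : ∀ (V E : Type) [Fintype V] [Fintype E] (a b : E → V), Convex ℝ (KK a b)
  nonempty : ∀ (V E : Type) [Fintype V] [Fintype E] (a b : E → V), (KK a b).Nonempty
  dual : ∀ (V E : Type) [Fintype V] [Nonempty V] [Fintype E] (a b : E → V) (w : E → ℝ) (σ η : ℝ)
    (Pi : ℝ → Setoid V), 0 < η → η ≤ 1 → 10 ^ 9 / η ^ 5 ≤ σ → Strong a b univ σ →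
    Ultra a b w σ Pi → 0 < ∑ e, w e → ∃ f ∈ KK a b, ∑ e, w e * f e ≤ 8 * η * ∑ e, w e

def NashStmt : Prop :=
  ∀ (ι : Type) [Fintype ι] [Nonempty ι] (G : (ι → ℝ) → ι → ℝ), (∀ j, Continuous fun c => G c j) →
    ∃ c ∈ stdSimplex ℝ ι, ∀ i, 0 < c i → ∀ j, G c i ≤ G c j

def SelStmt : Prop :=
  ∀ (ι E : Type) [Fintype ι] [Fintype E] (K : Set (E → ℝ)) (w : (ι → ℝ) → E → ℝ) (ζ : ℝ),
    Convex ℝ K → K.Nonempty → (∀ f ∈ K, ∀ e, 0 ≤ f e ∧ f e ≤ 1) → Continuous w → 0 < ζ →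
    ∃ φ : (ι → ℝ) → E → ℝ, Continuous φ ∧ ∀ c, φ c ∈ K ∧
      ∀ f ∈ K, ∑ e, w c e * φ c e ≤ ∑ e, w c e * f e + ζ

/-- The function minimised by the most violated partitions. -/
noncomputable def gval {V E : Type} [Fintype E] (a b : E → V) (x : E → ℝ) (σ : ℝ) (P : Setoid V) :
    ℝ := ∑ e ∈ xs a b univ P, x e - σ * ncl P

/-- Edge weights of a combination of partitions. -/
noncomputable def wts {V E : Type} [Fintype V] (a b : E → V) (c : Setoid V → ℝ) (e : E) : ℝ :=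
  ∑ P : Setoid V, c P * (if P (a e) (b e) then 0 else 1)

def LatStmt : Prop :=
  ∀ (V E : Type) [Fintype V] [Fintype E] (a b : E → V) (x : E → ℝ) (σ : ℝ) (c : Setoid V → ℝ),
    0 ≤ σ → (∀ e, 0 < x e ∧ x e ≤ 1) → (∀ P, 0 ≤ c P) → Good a b univ ⊤ σ →
    (∀ P, 0 < c P → ∀ Q, gval a b x σ P ≤ gval a b x σ Q) → ∃ Pi, Ultra a b (wts a b c) σ Pi

def FPStmt : Prop :=
  ∀ (V E : Type) [Fintype V] [Nonempty V] [Fintype E] (a b : E → V) (K : Set (E → ℝ))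
    (s σ c β : ℝ), Convex ℝ K → K.Nonempty → (∀ f ∈ K, ∀ e, 0 ≤ f e ∧ f e ≤ 1) → 0 < σ → 0 < c →
    0 < β → 0 < s → σ ≤ s * (1 - 2 * c / β) → Strong a b univ s →
    (∀ w Pi, Ultra a b w σ Pi → 0 < ∑ e, w e → ∃ f ∈ K, ∑ e, w e * f e ≤ c * ∑ e, w e) →
    ∃ f ∈ K, Strong a b (univ.filter fun e => f e < β) (σ - 1)

/-! ### Rounding -/

structure RankStmt : Prop where
  det : ∀ (n : Type) [Fintype n] (A : Matrix n n ℝ) (c : n → ℝ) (t : ℝ), A.PosDef →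
    (A + t • vecMulVec c c).det = A.det * (1 + t * (c ⬝ᵥ A⁻¹ *ᵥ c))
  cs : ∀ (n : Type) [Fintype n] (A : Matrix n n ℝ) (c x : n → ℝ), A.PosDef →
    (c ⬝ᵥ x) ^ 2 ≤ (c ⬝ᵥ A⁻¹ *ᵥ c) * qf A x
  nonneg : ∀ (n : Type) [Fintype n] (A : Matrix n n ℝ) (c : n → ℝ), A.PosDef →
    0 ≤ c ⬝ᵥ A⁻¹ *ᵥ c
  le : ∀ (n : Type) [Fintype n] (A : Matrix n n ℝ) (c : n → ℝ) (l p : ℝ), A.PosDef → 0 ≤ p →
    (∀ x, l * (c ⬝ᵥ x) ^ 2 ≤ p * qf A x) → l * (c ⬝ᵥ A⁻¹ *ᵥ c) ≤ p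
  form : ∀ (n ι : Type) [Fintype n] (F : Finset ι) (c : ι → n → ℝ) (l : ι → ℝ) (x : n → ℝ),
    qf (∑ i ∈ F, l i • vecMulVec (c i) (c i)) x = ∑ i ∈ F, l i * (c i ⬝ᵥ x) ^ 2
  posDef : ∀ (n ι : Type) [Fintype n] (F : Finset ι) (c : ι → n → ℝ) (l : ι → ℝ),
    (∀ x, x ≠ 0 → 0 < ∑ i ∈ F, l i * (c i ⬝ᵥ x) ^ 2) →
    (∑ i ∈ F, l i • vecMulVec (c i) (c i)).PosDef
  psd : ∀ (n ι : Type) [Fintype n] (F : Finset ι) (c : ι → n → ℝ) (l : ι → ℝ),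
    (∀ i ∈ F, 0 ≤ l i) → (∑ i ∈ F, l i • vecMulVec (c i) (c i)).PosSemidef
  qnonneg : ∀ (n : Type) [Fintype n] (A : Matrix n n ℝ) (x : n → ℝ), A.PosSemidef → 0 ≤ qf A x

/-- Determinant lower bound through a sub-family. -/
def DetLowStmt : Prop :=
  ∀ (n ι : Type) [Fintype n] (B : Matrix n n ℝ) (F T : Finset ι) (c : ι → n → ℝ) (l : ι → ℝ),
    B.PosSemidef → T ⊆ F → (∀ i, 0 < l i ∧ l i ≤ 1) →
    (B + ∑ i ∈ T, vecMulVec (c i) (c i)).PosDef →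
    (∏ i ∈ T, l i) * (B + ∑ i ∈ T, vecMulVec (c i) (c i)).det ≤
      (B + ∑ i ∈ F, l i • vecMulVec (c i) (c i)).det

def LamStmt : Prop :=
  ∀ (V E : Type) [Fintype V] (a b : E → V) (F : Finset E) (σ p : ℝ) (v0 : V), 0 < σ → 1 < p * σ →
    Strong a b F σ → ∃ lam : E → ℝ, (∀ e, 0 < lam e) ∧
      (∀ x, x ≠ 0 → 0 < wlap a b F lam v0 x) ∧
      ∀ e ∈ F, ∀ x, lam e * (x (a e) - x (b e)) ^ 2 ≤ p * wlap a b F lam v0 x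

def TrStmt : Prop :=
  ∀ (n ι : Type) [Fintype n] (F : Finset ι) (c : ι → n → ℝ) (l : ι → ℝ) (p : ℝ), 0 ≤ p →
    (∀ x, x ≠ 0 → 0 < ∑ i ∈ F, l i * (c i ⬝ᵥ x) ^ 2) →
    (∀ e ∈ F, ∀ x, l e * (c e ⬝ᵥ x) ^ 2 ≤ p * ∑ i ∈ F, l i * (c i ⬝ᵥ x) ^ 2) →
    (Fintype.card n : ℝ) ≤ p * (F.filter fun e => c e ≠ 0).card

def LevStmt : Prop :=
  ∀ (V E : Type) [Fintype V] (a b : E → V) (F : Finset E) (lam : E → ℝ) (p : ℝ) (v0 : V), 0 < p →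
    (∀ x, x ≠ 0 → 0 < wlap a b F lam v0 x) →
    (∀ e ∈ F, ∀ x, lam e * (x (a e) - x (b e)) ^ 2 ≤ p * wlap a b F lam v0 x) →
    Strong a b F (1 / p)

def KSStmt : Prop :=
  ∀ (n I : Type) [Fintype n] [Fintype I] [DecidableEq I] (w : I → n → ℝ) (d : ℝ), 0 ≤ d → d ≤ 1 →
    (∀ x : n → ℝ, ∑ i, (w i ⬝ᵥ x) ^ 2 ≤ x ⬝ᵥ x) → (∀ i, w i ⬝ᵥ w i ≤ d) →
    ∃ s : Finset I, ∀ x : n → ℝ,
      |∑ i ∈ s, (w i ⬝ᵥ x) ^ 2 - ∑ i ∈ sᶜ, (w i ⬝ᵥ x) ^ 2| ≤ 5 * √d * (x ⬝ᵥ x)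

def KS2Stmt : Prop :=
  ∀ (n E : Type) [Fintype n] (F : Finset E) (c c' : E → n → ℝ) (A A' : Matrix n n ℝ) (β p : ℝ),
    A.PosDef → A'.PosDef → 0 ≤ β → 0 ≤ p → β + p ≤ 2 →
    (∀ x, ∑ e ∈ F, (c e ⬝ᵥ x) ^ 2 ≤ qf A x) → (∀ x, ∑ e ∈ F, (c' e ⬝ᵥ x) ^ 2 ≤ qf A' x) →
    (∀ e ∈ F, ∀ x, (c e ⬝ᵥ x) ^ 2 ≤ β * qf A x) → (∀ e ∈ F, ∀ x, (c' e ⬝ᵥ x) ^ 2 ≤ p * qf A' x) →
    ∃ F', F' ⊆ F ∧
      (∀ x, ∑ e ∈ F', (c e ⬝ᵥ x) ^ 2 ≤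
        1 / 2 * ∑ e ∈ F, (c e ⬝ᵥ x) ^ 2 + 5 * √((β + p) / 2) * qf A x) ∧
      ∀ x, 1 / 2 * ∑ e ∈ F, (c' e ⬝ᵥ x) ^ 2 - 5 * √((β + p) / 2) * qf A' x ≤
        ∑ e ∈ F', (c' e ⬝ᵥ x) ^ 2

/-- Halving of a family of edges with small resistance. -/
def HalfStmt : Prop :=
  ∀ (V E : Type) [Fintype V] [Nonempty V] [Fintype E] (a b : E → V) (f : E → ℝ) (F : Finset E)
    (σ β p κ : ℝ), f ∈ KK a b → Strong a b univ 1 → (∀ e ∈ F, f e ≤ β) → 0 ≤ β → 0 < σ →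
    1 < p * σ → Strong a b F σ → 0 < κ → κ ≤ 1 / 20 → β + p ≤ 2 * κ ^ 2 →
    ∃ F', Strong a b F' ((1 / 2 - 5 * κ) / p) ∧
      ∀ S, Nt S → (cut a b F' S : ℝ) ≤ (1 / 2 + 15 * κ) * cut a b univ S

def StepStmt : Prop :=
  ∃ C : ℝ, 0 < C ∧ ∀ ε : ℝ, 0 < ε → ε ≤ 1 / 8 →
    ∀ (V E : Type) [Fintype V] [Nonempty V] [Fintype E] (a b : E → V) (s : ℝ), C / ε ^ 15 ≤ s →
      Strong a b univ s → ∃ F, Strong a b F ((1 / 2 - ε) * s) ∧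
        ∀ S, Nt S → (cut a b F S : ℝ) ≤ (1 / 2 + ε) * cut a b univ S

def IterStmt : Prop :=
  ∃ C : ℝ, ∀ (V E : Type) [Fintype V] [Nonempty V] [Fintype E] (a b : E → V) (k : ℝ), 1 ≤ k →
    (∀ S, Nt S → k ≤ cut a b univ S) →
    ∃ T : Finset E, T.card + 1 ≤ Fintype.card V ∧ Gen a b T ⊥ ⊤ ∧
      ∀ S, Nt S → (cut a b T S : ℝ) ≤ C / k * cut a b univ S

end Vale.Agent.P061
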