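import Vale.Agent.P061.Stm

open Finset Matrix
open scoped Classical

namespace Vale.Agent.P061

theorem tCount (hS : SepStmt) : CountStmt := by
  intro V A E _ _ a b X P Q T F Y y ρ r K hr hrρ hK hF hlen hy
  have hρ : 0 ≤ ρ := by linarith
  set R := rich X Y (11 * ρ) K with hR
  let W : A → ℝ → Finset V := fun c s => (Y \ R).filter fun z => ‖X z - c‖ ≤ s
  have hW1 : ∀ u ∈ Y \ R, ((W (X u) (11 * ρ)).card : ℝ) ≤ K := by
    intro u hu
    obtain ⟨huY, huR⟩ := mem_sdiff.1 hu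
    have h1 : ((Y.filter fun z => ‖X z - X u‖ ≤ 11 * ρ).card : ℝ) ≤ K := by
      by_contra h
      exact huR (mem_filter.2 ⟨huY, (not_le.1 h).le⟩)
    exact le_trans (Nat.cast_le.2 (card_le_card (filter_subset_filter _ sdiff_subset))) h1
  have hW2 : ∀ c : A, ((W c (11 / 2 * ρ)).card : ℝ) ≤ K := by
    intro c
    rcases (W c (11 / 2 * ρ)).eq_empty_or_nonempty with h | ⟨u, hu⟩
    · rw [h]; simpa using hK
    · obtain ⟨hu1, hu2⟩ := mem_filter.1 hu
      refine le_trans (Nat.cast_le.2 (card_le_card fun z hz => ?_)) (hW1 u hu1)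
      obtain ⟨hz1, hz2⟩ := mem_filter.1 hz
      refine mem_filter.2 ⟨hz1, ?_⟩
      have h3 := norm_sub_le_norm_sub_add_norm_sub (X z) c (X u)
      rw [norm_sub_rev] at hu2
      linarith
  have hna : ∀ e, ‖X (y (a e)) - X (a e)‖ ≤ ρ / 8 := by
    intro e
    rw [norm_sub_rev]
    linarith [(hy (a e)).2]
  have hnb : ∀ e ∈ F, ‖X (y (b e)) - X (a e)‖ ≤ ρ / 8 := by
    intro e he
    have h1 := norm_sub_le_norm_sub_add_norm_sub (X (a e)) (X (b e)) (X (y (b e)))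
    rw [norm_sub_rev]
    linarith [(hy (b e)).2, hlen e he]
  let F1 := F.filter fun e => (∃ u ∈ Y \ R, ‖X u - X (a e)‖ ≤ ρ / 8) ∧
    ∀ f ∈ T, 5 * ρ < ‖X (a e) - X (a f)‖ ∧ 5 * ρ < ‖X (a e) - X (b f)‖
  obtain ⟨I, hI, hIs, hIc⟩ := hS A E (fun e => X (a e)) F1 (8 * ρ) (by linarith)
  have hu : ∀ e, ∃ u, e ∈ I → u ∈ Y \ R ∧ ‖X u - X (a e)‖ ≤ ρ / 8 := by
    intro e
    by_cases he : e ∈ I
    · obtain ⟨u, h1, h2⟩ := (mem_filter.1 (hI he)).2.1
      exact ⟨u, fun _ => ⟨h1, h2⟩⟩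
    · exact ⟨a e, fun h => absurd h he⟩
  choose u hu using hu
  refine ⟨I, ⟨fun e he => hF (mem_filter.1 (hI he)).1, fun e he => hlen e (mem_filter.1 (hI he)).1,
    hIs, fun e he => (mem_filter.1 (hI he)).2.2⟩, ?_⟩
  have key : ∀ e ∈ F, ∀ v ∈ Y, ‖X v - X (a e)‖ ≤ ρ / 8 →
      v ∈ R ∪ (I.biUnion (fun i => W (X (u i)) (11 * ρ)) ∪
        (T.biUnion (fun f => W (X (a f)) (11 / 2 * ρ)) ∪
          T.biUnion (fun f => W (X (b f)) (11 / 2 * ρ)))) := by
    intro e he v hv hd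
    by_cases hvR : v ∈ R
    · exact mem_union_left _ hvR
    have hv' : v ∈ Y \ R := mem_sdiff.2 ⟨hv, hvR⟩
    refine mem_union_right _ ?_
    by_cases hh : ∀ f ∈ T, 5 * ρ < ‖X (a e) - X (a f)‖ ∧ 5 * ρ < ‖X (a e) - X (b f)‖
    · obtain ⟨i, hi, hid⟩ := hIc e (mem_filter.2 ⟨he, ⟨v, hv', hd⟩, hh⟩)
      refine mem_union_left _ (mem_biUnion.2 ⟨i, hi, mem_filter.2 ⟨hv', ?_⟩⟩)
      have h1 := norm_sub_le_norm_sub_add_norm_sub (X v) (X (a e)) (X (u i))
      have h2 := norm_sub_le_norm_sub_add_norm_sub (X (a e)) (X (a i)) (X (u i))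
      have h3 := (hu i hi).2
      rw [norm_sub_rev] at h3
      linarith
    · refine mem_union_right _ ?_
      push Not at hh
      obtain ⟨f, hf, hh⟩ := hh
      by_cases h5 : 5 * ρ < ‖X (a e) - X (a f)‖
      · refine mem_union_right _ (mem_biUnion.2 ⟨f, hf, mem_filter.2 ⟨hv', ?_⟩⟩)
        have h1 := norm_sub_le_norm_sub_add_norm_sub (X v) (X (a e)) (X (b f))
        linarith [hh h5]
      · refine mem_union_left _ (mem_biUnion.2 ⟨f, hf, mem_filter.2 ⟨hv', ?_⟩⟩)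
        have h1 := norm_sub_le_norm_sub_add_norm_sub (X v) (X (a e)) (X (a f))
        linarith [not_lt.1 h5]
  have hsub : ((F.image fun e => y (a e)) ∪ F.image fun e => y (b e)) ⊆ _ := fun v hv => by
    rcases mem_union.1 hv with h | h
    · obtain ⟨e, he, rfl⟩ := mem_image.1 h
      exact key e he _ (hy _).1 (hna e)
    · obtain ⟨e, he, rfl⟩ := mem_image.1 h
      exact key e he _ (hy _).1 (hnb e he)
  have hb : ∀ (J : Finset E) (G : E → Finset V), (∀ i ∈ J, ((G i).card : ℝ) ≤ K) →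
      ((J.biUnion G).card : ℝ) ≤ J.card * K := by
    intro J G h
    have h1 : ((J.biUnion G).card : ℝ) ≤ ∑ i ∈ J, ((G i).card : ℝ) := by
      exact_mod_cast card_biUnion_le
    have h2 := sum_le_card_nsmul _ _ _ h
    rw [nsmul_eq_mul] at h2
    linarith
  have h1 := hb I _ fun i hi => hW1 _ (hu i hi).1
  have h2 := hb T _ fun f _ => hW2 (X (a f))
  have h3 := hb T _ fun f _ => hW2 (X (b f))
  have h4 := (card_le_card hsub).trans ((card_union_le _ _).trans (Nat.add_le_add_left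
    ((card_union_le _ _).trans (Nat.add_le_add_left (card_union_le _ _) _)) _))
  have h5 := (Nat.cast_le (α := ℝ)).2 h4
  push_cast at h5
  linarith

end Vale.Agent.P061
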