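import Vale.Agent.P061.Stm

/-! P061: halving a family of edges with small resistance. -/

open Finset Matrix
open scoped Classical

namespace Vale.Agent.P061

namespace THalfAux

variable {V E : Type} [Fintype V]

/-- boundary vector of an edge -/
noncomputable def bv (a b : E → V) (e : E) : V → ℝ := Pi.single (a e) 1 - Pi.single (b e) 1

theorem bv_dot (a b : E → V) (e : E) (x : V → ℝ) : bv a b e ⬝ᵥ x = x (a e) - x (b e) := by
  simp [bv, sub_dotProduct]

noncomputable def cv (a b : E → V) (v0 : V) : Option E → V → ℝ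
  | none => Pi.single v0 1
  | some e => bv a b e

def lv (lam : E → ℝ) : Option E → ℝ
  | none => 1
  | some e => lam e

/-- matrix of the grounded weighted Laplacian -/
noncomputable def mat (a b : E → V) (H : Finset E) (lam : E → ℝ) (v0 : V) : Matrix V V ℝ :=
  ∑ i ∈ insertNone H, lv lam i • vecMulVec (cv a b v0 i) (cv a b v0 i)

theorem sum_eq (a b : E → V) (H : Finset E) (lam : E → ℝ) (v0 : V) (x : V → ℝ) :
    ∑ i ∈ insertNone H, lv lam i * (cv a b v0 i ⬝ᵥ x) ^ 2 = wlap a b H lam v0 x := by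
  rw [sum_insertNone]
  simp [lv, cv, wlap, bv_dot]

theorem qf_mat (hR : RankStmt) (a b : E → V) (H : Finset E) (lam : E → ℝ) (v0 : V) (x : V → ℝ) :
    qf (mat a b H lam v0) x = wlap a b H lam v0 x := by
  unfold mat
  rw [hR.form, sum_eq]

theorem mat_posDef (hR : RankStmt) (a b : E → V) (H : Finset E) (lam : E → ℝ) (v0 : V)
    (h : ∀ x, x ≠ 0 → 0 < wlap a b H lam v0 x) : (mat a b H lam v0).PosDef :=
  hR.posDef V (Option E) _ _ _ fun x hx => by rw [sum_eq]; exact h x hx

theorem qf_add (A B : Matrix V V ℝ) (x : V → ℝ) : qf (A + B) x = qf A x + qf B x := by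
  unfold qf
  rw [add_mulVec, dotProduct_add]

theorem qf_smul (A : Matrix V V ℝ) (t : ℝ) (x : V → ℝ) : qf A (t • x) = t * t * qf A x := by
  unfold qf
  rw [mulVec_smul, dotProduct_smul, smul_dotProduct, smul_eq_mul, smul_eq_mul, mul_assoc]

omit [Fintype V] in
theorem lap_smul (a b : E → V) (H : Finset E) (t : ℝ) (x : V → ℝ) :
    lap a b H (t • x) = t * t * lap a b H x := by
  unfold lap
  rw [mul_sum]
  exact sum_congr rfl fun e _ => by simp only [Pi.smul_apply, smul_eq_mul]; ring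

omit [Fintype V] in
theorem wlap_one (a b : E → V) (H : Finset E) (v0 : V) (x : V → ℝ) :
    wlap a b H (fun _ => 1) v0 x = x v0 ^ 2 + lap a b H x := by
  simp [wlap, lap]

omit [Fintype V] in
theorem lap_mono [Fintype E] (a b : E → V) (H : Finset E) (x : V → ℝ) :
    lap a b H x ≤ lap a b univ x :=
  sum_le_sum_of_subset_of_nonneg (subset_univ H) fun _ _ _ => sq_nonneg _

omit [Fintype V] in
theorem pos_one [Fintype E] (a b : E → V) (F : Finset E) (lam : E → ℝ) (v0 : V) (x : V → ℝ)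
    (h : 0 < wlap a b F lam v0 x) : 0 < wlap a b univ (fun _ => 1) v0 x := by
  rw [wlap_one]
  by_contra hn
  have h1 : 0 ≤ lap a b univ x := sum_nonneg fun _ _ => sq_nonneg _
  have h2 := sq_nonneg (x v0)
  have h3 : x v0 ^ 2 = 0 := by linarith
  have h4 : lap a b univ x = 0 := by linarith
  have h5 := (sum_eq_zero_iff_of_nonneg fun _ _ => sq_nonneg _).1 h4
  have h6 : wlap a b F lam v0 x = 0 := by
    unfold wlap
    rw [h3, zero_add]
    exact sum_eq_zero fun e _ => by rw [h5 e (mem_univ e), mul_zero]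
  exact h.ne' h6

theorem scale [Fintype E] (a b : E → V) (D : Matrix V V ℝ) (e : E) (β : ℝ)
    (h : ∀ x, 2 * (x (a e) - x (b e)) - qf D x - lap a b univ x ≤ β) (x : V → ℝ) :
    (x (a e) - x (b e)) ^ 2 ≤ β * (qf D x + lap a b univ x) := by
  have h1 := discrim_le_zero (a := qf D x + lap a b univ x) (b := -2 * (x (a e) - x (b e)))
    (c := β) fun t => by
      have h2 := h (t • x)
      rw [qf_smul, lap_smul] at h2
      simp only [Pi.smul_apply, smul_eq_mul] at h2
      linarith
  unfold discrim at h1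
  linarith

end THalfAux

open THalfAux in
theorem tHalf (hLa : LamStmt) (hLe : LevStmt) (hK : KS2Stmt) (hC : ConnStmt) (hR : RankStmt) :
    HalfStmt := by
  intro V E _ _ _ a b f F σ β p κ hf h1 hβ hβ0 hσ hp hF hκ hκ' hβp
  obtain ⟨-, D, hD, hDc, hDe⟩ := hf
  obtain ⟨v0⟩ := ‹Nonempty V›
  obtain ⟨lam, l0, l1, l2⟩ := hLa V E a b F σ p v0 hσ hp hF
  have hp0 : 0 < p := by
    by_contra hn
    nlinarith [not_lt.1 hn]
  have hA : (D + mat a b univ (fun _ => 1) v0).PosDef :=
    Matrix.PosDef.posSemidef_add hD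
      (mat_posDef hR a b univ _ v0 fun x hx => pos_one a b F lam v0 x (l1 x hx))
  have qA : ∀ x, qf (D + mat a b univ (fun _ => 1) v0) x
      = qf D x + (x v0 ^ 2 + lap a b univ x) := fun x => by rw [qf_add, qf_mat hR, wlap_one]
  have qD : ∀ x, 0 ≤ qf D x := fun x => hR.qnonneg V D x hD
  have hc : ∀ (H : Finset E) x, ∑ e ∈ H, (bv a b e ⬝ᵥ x) ^ 2 = lap a b H x := fun H x => by
    simp only [bv_dot, lap]
  have hc' : ∀ e x, ((√(lam e) • bv a b e) ⬝ᵥ x) ^ 2 = lam e * (x (a e) - x (b e)) ^ 2 :=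
    fun e x => by rw [smul_dotProduct, smul_eq_mul, mul_pow, Real.sq_sqrt (l0 e).le, bv_dot]
  have hw : ∀ (H : Finset E) x, ∑ e ∈ H, ((√(lam e) • bv a b e) ⬝ᵥ x) ^ 2
      = wlap a b H lam v0 x - x v0 ^ 2 := fun H x => by
    simp only [hc', wlap]; ring
  obtain ⟨F', hsub, k1, k2⟩ := hK V E F (bv a b) (fun e => √(lam e) • bv a b e) _ _ β p hA
    (mat_posDef hR a b F lam v0 l1) hβ0 hp0.le (by nlinarith)
    (fun x => by
      rw [hc, qA]
      linarith [lap_mono a b F x, qD x, sq_nonneg (x v0)])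
    (fun x => by
      rw [hw, qf_mat hR]
      linarith [sq_nonneg (x v0)])
    (fun e he x => by
      rw [bv_dot, qA]
      have h2 := scale a b D e β (fun x => (hDe e x).trans (hβ e he)) x
      have h3 := mul_nonneg hβ0 (sq_nonneg (x v0))
      linarith)
    (fun e he x => by rw [hc', qf_mat hR]; exact l2 e he x)
  have hs : √((β + p) / 2) ≤ κ := Real.sqrt_le_iff.2 ⟨hκ.le, by linarith⟩
  have hq : 0 < 1 / 2 - 5 * κ := by linarith
  have w0 : ∀ x, 0 ≤ wlap a b F lam v0 x := fun x =>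
    add_nonneg (sq_nonneg _) (sum_nonneg fun e _ => mul_nonneg (l0 e).le (sq_nonneg _))
  have w1 : ∀ x, (1 / 2 - 5 * κ) * wlap a b F lam v0 x ≤ wlap a b F' lam v0 x := fun x => by
    have h2 := k2 x
    rw [hw, hw, qf_mat hR] at h2
    have h3 := mul_le_mul_of_nonneg_right hs (w0 x)
    linarith [sq_nonneg (x v0)]
  refine ⟨F', ?_, fun S hS => ?_⟩
  · have h2 := hLe V E a b F' lam (p / (1 / 2 - 5 * κ)) v0 (div_pos hp0 hq)
      (fun x hx => (mul_pos hq (l1 x hx)).trans_le (w1 x)) fun e he x => by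
        refine (l2 e (hsub he) x).trans ?_
        rw [div_mul_eq_mul_div, le_div_iff₀ hq]
        have h3 := mul_le_mul_of_nonneg_left (w1 x) hp0.le
        linarith
    rwa [one_div_div] at h2
  · have h2 := k1 (ind S)
    rw [hc, hc, qA, hC.lapInd, hC.lapInd, hC.lapInd] at h2
    have h3 := hC.toCut V E a b univ 1 S h1 hS
    have h4 := hDc S hS
    have h5 : ind S v0 ^ 2 ≤ 1 := by unfold ind; split_ifs <;> norm_num
    have h6 : (cut a b F S : ℝ) ≤ cut a b univ S :=
      Nat.cast_le.2 (card_le_card (filter_subset_filter _ (subset_univ F)))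
    have h7 : qf D (ind S) + (ind S v0 ^ 2 + cut a b univ S) ≤ 3 * cut a b univ S := by linarith
    have h8 := mul_le_mul hs h7
      (add_nonneg (qD _) (add_nonneg (sq_nonneg _) (Nat.cast_nonneg _))) hκ.le
    linarith

end Vale.Agent.P061
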