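import Vale.Agent.P061.Stm
import Vale.Agent.P061.KS

namespace Vale.Agent.P061

theorem tKS : KSStmt := ks

end Vale.Agent.P061
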